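import Vale.Agent.P004E.H394.K8

/-!
# P004E, module S1b: the diagonal term `Ad H R 0`
-/

open Real MeasureTheory Set Filter
open scoped ENNReal Topology ArithmeticFunction.Moebius

namespace P004E

open P004G

/-- `d ↦ 1/d` -/
noncomputable def recip : ArithmeticFunction ℝ := ⟨fun d => 1 / (d : ℝ), by simp⟩

lemma recip_apply (d : ℕ) : recip d = 1 / (d : ℝ) := rfl

lemma recip_mult : recip.IsMultiplicative := by
  constructor
  · simp [recip_apply]
  · intro m n _
    simp only [recip_apply]
    push_cast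
    rw [one_div_mul_one_div]

lemma mu_sum {g : ℕ} (hg : Squarefree g) :
    |∑ d ∈ g.divisors, (ArithmeticFunction.moebius d : ℝ) / d| ≤ 1 := by
  have h1 := ArithmeticFunction.IsMultiplicative.prodPrimeFactors_one_sub_of_squarefree recip
    recip_mult hg
  have h2 : ∑ d ∈ g.divisors, (ArithmeticFunction.moebius d : ℝ) / d =
      ∏ p ∈ g.primeFactors, (1 - recip p) := by
    rw [h1]
    refine Finset.sum_congr rfl fun d _ => ?_
    rw [recip_apply]
    ring
  rw [h2, Finset.abs_prod]
  refine Finset.prod_le_one (fun _ _ => abs_nonneg _) fun p hp => ?_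
  have hp' := (Nat.prime_of_mem_primeFactors hp).one_lt
  have hp1 : (1 : ℝ) < p := by exact_mod_cast hp'
  rw [recip_apply, abs_le]
  have h3 : 0 < 1 / (p : ℝ) := by positivity
  have h4 : 1 / (p : ℝ) ≤ 1 := by
    rw [div_le_one (by linarith)]
    exact hp1.le
  constructor <;> linarith

/-- Laplace transform of `x²` bounds the series -/
lemma laplace_sum (a : ℕ → ℝ) (ha0 : a 0 = 0) (ha : ∀ n, 0 ≤ a n) {C : ℝ} (hC : 0 ≤ C)
    (hN : ∀ x : ℝ, 1 ≤ x → ∑ n ∈ Finset.Icc 1 ⌊x⌋₊, a n ≤ C * x ^ 2) {c : ℝ} (hc : 0 < c) :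
    ∑' n : ℕ, ENNReal.ofReal (a n * Real.exp (-(c * n))) ≤ ENNReal.ofReal (2 * C / c ^ 2) := by
  have h1 : ∀ n : ℕ, ENNReal.ofReal (a n * Real.exp (-(c * n))) =
      ∫⁻ x in Ioi (0 : ℝ), ENNReal.ofReal (c * Real.exp (-(c * x))) *
        (if (n : ℝ) < x then ENNReal.ofReal (a n) else 0) := by
    intro n
    have e1 : ∫⁻ x in Ioi (n : ℝ), ENNReal.ofReal (c * Real.exp (-(c * x))) =
        ENNReal.ofReal (Real.exp (-(c * n))) := by
      have hint : IntegrableOn (fun x : ℝ => c * Real.exp (-(c * x))) (Ioi (n : ℝ)) := by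
        have := (integrableOn_exp_mul_Ioi (a := -c) (by linarith) (n : ℝ)).const_mul c
        refine Integrable.congr this (Eventually.of_forall fun x => ?_)
        simp only [neg_mul]
      rw [← ofReal_integral_eq_lintegral_ofReal hint
        (Eventually.of_forall fun x => by positivity)]
      congr 1
      have h2 : ∀ x : ℝ, c * Real.exp (-(c * x)) = c * Real.exp (-c * x) := fun x => by
        rw [neg_mul]
      simp_rw [h2]
      rw [integral_const_mul, integral_exp_mul_Ioi (by linarith : -c < 0)]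
      rw [neg_mul]
      field_simp
    rw [ENNReal.ofReal_mul (ha n), ← e1, ← lintegral_const_mul' _ _ ENNReal.ofReal_ne_top,
      ← lintegral_indicator measurableSet_Ioi, ← lintegral_indicator measurableSet_Ioi]
    refine lintegral_congr fun x => ?_
    by_cases hx : (n : ℝ) < x
    · have hx0 : x ∈ Ioi (0 : ℝ) := lt_of_le_of_lt (Nat.cast_nonneg n) hx
      rw [indicator_of_mem (show x ∈ Ioi (n : ℝ) from hx), indicator_of_mem hx0, if_pos hx,
        mul_comm]
    · rw [indicator_of_notMem (show x ∉ Ioi (n : ℝ) from hx)]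
      by_cases hx0 : x ∈ Ioi (0 : ℝ)
      · rw [indicator_of_mem hx0, if_neg hx, mul_zero]
      · rw [indicator_of_notMem hx0]
  simp_rw [h1]
  rw [← lintegral_tsum]
  · have h2 : ∀ x ∈ Ioi (0 : ℝ), ∑' n : ℕ, ENNReal.ofReal (c * Real.exp (-(c * x))) *
        (if (n : ℝ) < x then ENNReal.ofReal (a n) else 0) ≤
        ENNReal.ofReal (C * c * (x ^ 2 * Real.exp (-(c * x)))) := by
      intro x hx
      have hx0 : (0 : ℝ) < x := hx
      rw [ENNReal.tsum_mul_left]
      have h3 : ∑' n : ℕ, (if (n : ℝ) < x then ENNReal.ofReal (a n) else 0) ≤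
          ENNReal.ofReal (C * x ^ 2) := by
        rw [tsum_eq_sum (s := Finset.Icc 1 ⌊x⌋₊)]
        · by_cases hx1 : 1 ≤ x
          · calc ∑ n ∈ Finset.Icc 1 ⌊x⌋₊, (if (n : ℝ) < x then ENNReal.ofReal (a n) else 0)
                ≤ ∑ n ∈ Finset.Icc 1 ⌊x⌋₊, ENNReal.ofReal (a n) := by
                  refine Finset.sum_le_sum fun n _ => ?_
                  split_ifs
                  · exact le_rfl
                  · exact zero_le
              _ = ENNReal.ofReal (∑ n ∈ Finset.Icc 1 ⌊x⌋₊, a n) :=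
                  (ENNReal.ofReal_sum_of_nonneg fun n _ => ha n).symm
              _ ≤ _ := ENNReal.ofReal_le_ofReal (hN x hx1)
          · have : ⌊x⌋₊ = 0 := Nat.floor_eq_zero.2 (not_le.1 hx1)
            rw [this]
            simp
        · intro n hn
          split_ifs with h4
          · rw [Finset.mem_Icc, not_and_or] at hn
            rcases hn with h5 | h5
            · have : n = 0 := by omega
              rw [this, ha0, ENNReal.ofReal_zero]
            · exact absurd (Nat.le_floor h4.le) h5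
          · rfl
      calc _ ≤ ENNReal.ofReal (c * Real.exp (-(c * x))) * ENNReal.ofReal (C * x ^ 2) := by gcongr
        _ = _ := by
            rw [← ENNReal.ofReal_mul (by positivity)]
            congr 1
            ring
    refine (setLIntegral_mono' measurableSet_Ioi h2).trans (le_of_eq ?_)
    have hint : IntegrableOn (fun x : ℝ => C * c * (x ^ 2 * Real.exp (-(c * x)))) (Ioi 0) :=
      (P004.E.intg 2 hc).const_mul _
    rw [← ofReal_integral_eq_lintegral_ofReal hint]
    · congr 1
      rw [integral_const_mul, P004.E.intval 2 hc]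
      norm_num [Nat.factorial]
      field_simp
    · filter_upwards [ae_restrict_mem measurableSet_Ioi] with x hx
      have hx0 : (0 : ℝ) < x := hx
      positivity
  · intro n
    refine Measurable.aemeasurable ?_
    refine Measurable.mul (by fun_prop) ?_
    exact Measurable.ite measurableSet_Ioi measurable_const measurable_const

variable [Crv]

/-- Module S1b. -/
theorem pfAd0 (hN0 : StN0) : StAd0 := by
  obtain ⟨C, hC, hN⟩ := hN0
  refine ⟨5040 * Real.exp 2 * C + 1, by
    have := Real.exp_pos 2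
    have : 0 ≤ 5040 * Real.exp 2 * C := by positivity
    linarith, fun H u R k hH hu hR hk => ?_⟩
  have hterm : ∀ t : ℕ × ℕ × ℕ, AdTerm H R 0 u k t ≠ 0 → t.2 = (1, 1) := by
    rintro ⟨g, m₁, m₂⟩ ht
    unfold AdTerm at ht
    simp only at ht
    split_ifs at ht with hc
    · have hm : m₁ * m₂ = 1 := by
        by_contra h1
        obtain ⟨hg, hm1, hm2, -, -, -, -⟩ := P004.H1.gcd_facts hc.1
        have h2 : 1 < m₁ * m₂ := by
          have := Nat.pos_of_ne_zero (Nat.mul_ne_zero hm1 hm2)
          omega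
        apply ht
        have h3 : chi 0 (m₁ * m₂) = 0 := by
          unfold chi
          rw [jacobiSym.zero_left h2]
          simp
        rw [h3]
        ring
      have h4 := Nat.eq_one_of_mul_eq_one_right hm
      have h5 := Nat.eq_one_of_mul_eq_one_left hm
      simp [h4, h5]
    · exact absurd rfl ht
  have hbound : ∀ g : ℕ, ‖AdTerm H R 0 u k (g, 1, 1)‖ₑ ≤ ENNReal.ofReal (5040 * Real.exp 2 *
      u ^ 2) * ENNReal.ofReal ((ca g : ℝ) ^ 2 * Real.exp (-(2 * π * u * g))) := by
    intro g
    rw [← ENNReal.ofReal_mul (by positivity), Real.enorm_eq_ofReal_abs]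
    apply ENNReal.ofReal_le_ofReal
    unfold AdTerm
    simp only
    split_ifs with hc
    · have hsq : Squarefree g := by simpa using hc.1
      have hg : 0 < g := Nat.pos_of_ne_zero hsq.ne_zero
      have hgp : (0 : ℝ) < g := by exact_mod_cast hg
      have e1 : ∑ d ∈ g.divisors, (if (d : ℤ) ∣ 0 then (ArithmeticFunction.moebius d : ℝ) / d *
          Gk (|((0 : ℤ) : ℝ)| * H / ((d : ℝ) ^ 2 * ((1 : ℕ) * (1 : ℕ)))) else 0) =
          (∑ d ∈ g.divisors, (ArithmeticFunction.moebius d : ℝ) / d) * Gk 0 := by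
        rw [Finset.sum_mul]
        refine Finset.sum_congr rfl fun d _ => ?_
        rw [if_pos (dvd_zero _)]
        simp
      rw [e1]
      have h1 := mu_sum hsq
      have h2 : |Gk 0| ≤ 5040 := P004G.H2.Gk_abs_le P004.pfKer 0
      have h3 := kap_abs_le hk (t := g * (1 : ℕ) * u) (by positivity)
      have h4 : |chi 0 (1 * 1)| ≤ 1 := P004.H1.abs_chi_le _ _
      have h5 : lam 1 = 1 := by
        unfold lam ca
        rw [Crv.c_one]
        simp
      rw [h5, abs_mul, abs_mul, abs_mul, abs_mul, abs_mul (kap k _), abs_mul (∑ d ∈ g.divisors, _)]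
      have h6 : |lam g ^ 2 / (g : ℝ)| = (ca g : ℝ) ^ 2 / g ^ 2 := by
        rw [abs_of_nonneg (by positivity)]
        unfold lam
        rw [div_pow, Real.sq_sqrt hgp.le]
        field_simp
      rw [h6]
      have h7 : |(1 : ℝ) * 1 / (((1 : ℕ) : ℝ) * ((1 : ℕ) : ℝ))| = 1 := by norm_num
      rw [h7]
      have h8 : Real.exp 1 * (g * (1 : ℕ) * u) * Real.exp (-(π * (g * (1 : ℕ) * u))) =
          g * (Real.exp 1 * u * Real.exp (-(π * u * g))) := by
        push_cast
        ring_nf
      rw [h8] at h3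
      calc (ca g : ℝ) ^ 2 / g ^ 2 * 1 * |chi 0 (1 * 1)| *
            (|∑ d ∈ g.divisors, (ArithmeticFunction.moebius d : ℝ) / d| * |Gk 0|) *
            (|kap k (g * (1 : ℕ) * u)| * |kap k (g * (1 : ℕ) * u)|)
          ≤ (ca g : ℝ) ^ 2 / g ^ 2 * 1 * 1 * (1 * 5040) *
            ((g * (Real.exp 1 * u * Real.exp (-(π * u * g)))) *
              (g * (Real.exp 1 * u * Real.exp (-(π * u * g))))) := by gcongr
        _ = 5040 * (Real.exp 1 * Real.exp 1) * u ^ 2 * ((ca g : ℝ) ^ 2 *
            (Real.exp (-(π * u * g)) * Real.exp (-(π * u * g)))) := by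
            field_simp
        _ = _ := by
            rw [← Real.exp_add, ← Real.exp_add, show (1 : ℝ) + 1 = 2 by norm_num,
              show -(π * u * g) + -(π * u * g) = -(2 * π * u * g) by ring]
    · simp only [abs_zero]; positivity
  have hlap := laplace_sum (fun n => (ca n : ℝ) ^ 2) (by simp [pfCoef.zero])
    (fun n => sq_nonneg _) (by linarith : 0 ≤ C) hN (c := 2 * π * u) (by positivity)
  have hfin : ENNReal.ofReal |Ad H R 0 u k| ≤ ENNReal.ofReal (5040 * Real.exp 2 * C + 1) := by
    rw [← Real.enorm_eq_ofReal_abs]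
    unfold Ad
    refine enorm_tsum_le_tsum_enorm.trans ?_
    have e1 : ∑' t : ℕ × ℕ × ℕ, ‖AdTerm H R 0 u k t‖ₑ = ∑' g : ℕ, ‖AdTerm H R 0 u k (g, 1, 1)‖ₑ := by
      have hinj : Function.Injective (fun g : ℕ => (g, ((1 : ℕ), (1 : ℕ)))) := by
        intro a b h
        simpa using h
      refine (hinj.tsum_eq (f := fun t => ‖AdTerm H R 0 u k t‖ₑ) ?_).symm
      intro t ht
      have h1 : AdTerm H R 0 u k t ≠ 0 := by
        intro h0
        apply ht
        simp [h0]
      have h2 := hterm t h1
      exact ⟨t.1, by rw [← h2]⟩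
    rw [e1]
    refine (ENNReal.tsum_le_tsum hbound).trans ?_
    rw [ENNReal.tsum_mul_left]
    refine (mul_le_mul' le_rfl hlap).trans ?_
    rw [← ENNReal.ofReal_mul (by positivity)]
    apply ENNReal.ofReal_le_ofReal
    have h3 : 5040 * Real.exp 2 * u ^ 2 * (2 * C / (2 * π * u) ^ 2) =
        5040 * Real.exp 2 * C * (1 / (2 * π ^ 2)) := by
      field_simp
    rw [h3]
    have h4 : 1 / (2 * π ^ 2) ≤ 1 := by
      rw [div_le_one (by positivity)]
      nlinarith [Real.pi_gt_three]
    have h5 : 0 ≤ 5040 * Real.exp 2 * C := by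
      have := Real.exp_pos 2
      positivity
    nlinarith
  have h0 : 0 ≤ 5040 * Real.exp 2 * C + 1 := by
    have := Real.exp_pos 2
    positivity
  exact (ENNReal.ofReal_le_ofReal_iff h0).1 hfin

end P004E
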