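import Vale.Agent.P004E.H394.K8
import Vale.Agent.P004G.H253.Tw7

/-!
# P004E, module S1c: comparison of `Ad` with the dual sums `AG` of the library
-/

open Real MeasureTheory Set Filter
open scoped ENNReal Topology

namespace P004E

open P004G

variable [Crv]

/-- the uniform majorant -/
noncomputable def bt (u : ℝ) (t : ℕ × ℕ × ℕ) : ℝ :=
  5040 * (((t.1 : ℝ) ^ 5 * Real.exp (-(π / 2 * u) * t.1)) *
    (((t.2.1 : ℝ) ^ 1 * Real.exp (-(π / 2 * u) * t.2.1)) *
      ((t.2.2 : ℝ) ^ 1 * Real.exp (-(π * u) * t.2.2))))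

lemma bt_nonneg (u : ℝ) (t : ℕ × ℕ × ℕ) : 0 ≤ bt u t := by unfold bt; positivity

lemma summable_bt {u : ℝ} (hu : 0 < u) : Summable (bt u) := by
  have s1 := Real.summable_pow_mul_exp_neg_nat_mul 5 (r := π / 2 * u) (by positivity)
  have s2 := Real.summable_pow_mul_exp_neg_nat_mul 1 (r := π / 2 * u) (by positivity)
  have s3 := Real.summable_pow_mul_exp_neg_nat_mul 1 (r := π * u) (by positivity)
  have s4 := s2.mul_of_nonneg s3 (fun _ => by positivity) (fun _ => by positivity)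
  exact (s1.mul_of_nonneg s4 (fun _ => by positivity) (fun _ => by positivity)).mul_left 5040

lemma AGTerm_bound (H : ℝ) (R j : ℕ) (K : ℤ) {u U V : ℝ} (hu : 0 < u) (hU : u ≤ U) (hV : u ≤ V)
    (t : ℕ × ℕ × ℕ) : |AGTerm H R j K U V t| ≤ bt u t := by
  obtain ⟨g, m₁, m₂⟩ := t
  by_cases h0 : AGTerm H R j K U V (g, m₁, m₂) = 0
  · rw [h0, abs_zero]; exact bt_nonneg _ _
  obtain ⟨hs, hr⟩ := Tw.AGTerm_ne_zero h0
  obtain ⟨hg, hm1, hm2, -, -, -, -⟩ := P004.H1.gcd_facts hs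
  have hg' : (1 : ℝ) ≤ g := by exact_mod_cast Nat.pos_of_ne_zero hg
  have hm1' : (1 : ℝ) ≤ m₁ := by exact_mod_cast Nat.pos_of_ne_zero hm1
  have hm2' : (1 : ℝ) ≤ m₂ := by exact_mod_cast Nat.pos_of_ne_zero hm2
  have e : AGTerm H R j K U V (g, m₁, m₂) = Tw.base2 H j K U V g m₁ m₂ := by
    unfold AGTerm Tw.base2
    simp only at hs hr ⊢
    rw [if_pos ⟨hs, hr⟩]
  rw [e]
  refine (Tw.base2_le pfCoef P004.pfKer H j K U V g m₁ m₂).trans ?_
  have h1 : (ca g : ℝ) ^ 2 ≤ (g : ℝ) ^ 4 := by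
    have := abs_ca_sq g
    calc (ca g : ℝ) ^ 2 = |(ca g : ℝ)| ^ 2 := (sq_abs _).symm
      _ ≤ ((g : ℝ) ^ 2) ^ 2 := by gcongr
      _ = (g : ℝ) ^ 4 := by ring
  have hp := Real.pi_pos
  have h2 : Real.exp (-(π * g * U) * m₁) ≤
      Real.exp (-(π / 2 * u) * g) * Real.exp (-(π / 2 * u) * m₁) := by
    rw [← Real.exp_add]
    apply Real.exp_le_exp.2
    have h3 : (g : ℝ) + m₁ ≤ 2 * (g * m₁) := by nlinarith
    have h4 : 0 < π / 2 * u := by positivity
    have h5 : π * g * u * m₁ ≤ π * g * U * m₁ := by gcongr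
    nlinarith
  have h3 : Real.exp (-(π * g * V) * m₂) ≤ Real.exp (-(π * u) * m₂) := by
    apply Real.exp_le_exp.2
    have h4 : 0 < π * u * m₂ := by positivity
    have h5 : π * g * u * m₂ ≤ π * g * V * m₂ := by gcongr
    nlinarith
  unfold bt
  calc (ca g : ℝ) ^ 2 * (5040 * g) * ((m₁ * Real.exp (-(π * g * U) * m₁)) *
        (m₂ * Real.exp (-(π * g * V) * m₂)))
      ≤ (g : ℝ) ^ 4 * (5040 * g) * ((m₁ * (Real.exp (-(π / 2 * u) * g) *
          Real.exp (-(π / 2 * u) * m₁))) * (m₂ * Real.exp (-(π * u) * m₂))) := by gcongr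
    _ = _ := by ring

/-- the one-variable integral -/
lemma win_int (k : ℝ → ℝ) {a : ℝ} (ha : a ≠ 0) (u : ℝ) :
    ∫ x, Real.exp (-π * (a * (u * Real.exp x))) * (u * Real.exp x) * k x = kap k (a * u) / a := by
  unfold kap
  rw [eq_div_iff ha, ← integral_mul_const]
  refine integral_congr_ae (Eventually.of_forall fun x => ?_)
  simp only
  rw [show a * u * Real.exp x = a * (u * Real.exp x) by ring]
  ring

/-- the two variable weight -/
noncomputable def w2 (u : ℝ) (k : ℝ → ℝ) (p : ℝ × ℝ) : ℝ :=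
  (u * Real.exp p.1 * k p.1) * (u * Real.exp p.2 * k p.2)

lemma int_AGTerm (H : ℝ) (R j : ℕ) {ε : ℤ} (hε : ε.natAbs = 1) (u : ℝ) (k : ℝ → ℝ)
    (t : ℕ × ℕ × ℕ) :
    ∫ p : ℝ × ℝ, AGTerm H R j (ε * j) (u * Real.exp p.1) (u * Real.exp p.2) t * w2 u k p =
      AdTerm H R (ε * j) u k t := by
  obtain ⟨g, m₁, m₂⟩ := t
  have habs : |((ε * j : ℤ) : ℝ)| = j := by
    rcases eps_cases hε with h | h <;> simp [h]
  have hdvd : ∀ d : ℕ, ((d : ℤ) ∣ ε * j) ↔ d ∣ j := by
    intro d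
    rcases eps_cases hε with h | h
    · rw [h, one_mul, Int.natCast_dvd_natCast]
    · rw [h, neg_one_mul, dvd_neg, Int.natCast_dvd_natCast]
  unfold AGTerm AdTerm
  simp only [habs, hdvd]
  by_cases hc : Squarefree (g * m₁ * m₂) ∧ (g * m₁ * m₂).Coprime R
  · simp only [if_pos hc]
    obtain ⟨hg, hm1, hm2, -, -, -, -⟩ := P004.H1.gcd_facts hc.1
    have hgp : (0 : ℝ) < g := by exact_mod_cast Nat.pos_of_ne_zero hg
    have hm1p : (0 : ℝ) < m₁ := by exact_mod_cast Nat.pos_of_ne_zero hm1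
    have hm2p : (0 : ℝ) < m₂ := by exact_mod_cast Nat.pos_of_ne_zero hm2
    set S := ∑ d ∈ g.divisors, if d ∣ j then (ArithmeticFunction.moebius d : ℝ) / d *
          Gk ((j : ℝ) * H / ((d : ℝ) ^ 2 * (m₁ * m₂))) else 0 with hS
    have e1 : ∀ p : ℝ × ℝ, (ca g : ℝ) ^ 2 * (lam m₁ * lam m₂) * chi (ε * j) (m₁ * m₂) * S *
        Real.exp (-π * g * (m₁ * (u * Real.exp p.1) + m₂ * (u * Real.exp p.2))) * w2 u k p =
        ((ca g : ℝ) ^ 2 * (lam m₁ * lam m₂) * chi (ε * j) (m₁ * m₂) * S) *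
        ((Real.exp (-π * ((g * m₁) * (u * Real.exp p.1))) * (u * Real.exp p.1) * k p.1) *
          (Real.exp (-π * ((g * m₂) * (u * Real.exp p.2))) * (u * Real.exp p.2) * k p.2)) := by
      intro p
      have e2 : Real.exp (-π * g * (m₁ * (u * Real.exp p.1) + m₂ * (u * Real.exp p.2))) =
          Real.exp (-π * ((g * m₁) * (u * Real.exp p.1))) *
          Real.exp (-π * ((g * m₂) * (u * Real.exp p.2))) := by
        rw [← Real.exp_add]; congr 1; ring
      rw [e2]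
      unfold w2
      ring
    simp_rw [e1]
    rw [integral_const_mul, Measure.volume_eq_prod, integral_prod_mul
      (f := fun x => Real.exp (-π * ((g * m₁ : ℝ) * (u * Real.exp x))) * (u * Real.exp x) * k x)
      (g := fun x => Real.exp (-π * ((g * m₂ : ℝ) * (u * Real.exp x))) * (u * Real.exp x) * k x),
      win_int k (by positivity), win_int k (by positivity)]
    have eg : lam g ^ 2 = (ca g : ℝ) ^ 2 / g := by
      unfold lam
      rw [div_pow, Real.sq_sqrt hgp.le]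
    rw [eg]
    field_simp
  · simp only [if_neg hc]
    simp

lemma w2_bound {k : ℝ → ℝ} (hk : Kn 0 k) {u : ℝ} (hu : 0 < u) (p : ℝ × ℝ) :
    |w2 u k p| ≤ ((Icc (0 : ℝ) 1).indicator (fun _ => u * Real.exp 1) p.1) *
      ((Icc (0 : ℝ) 1).indicator (fun _ => u * Real.exp 1) p.2) := by
  have h1 : ∀ x : ℝ, |u * Real.exp x * k x| ≤ (Icc (0 : ℝ) 1).indicator
      (fun _ => u * Real.exp 1) x := by
    intro x
    refine win_dom (f := fun x => u * Real.exp x) hk (by positivity) (fun x hx => ?_) x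
    rw [abs_of_pos (by positivity)]
    have : Real.exp x ≤ Real.exp 1 := Real.exp_le_exp.2 hx.2
    gcongr
  unfold w2
  rw [abs_mul]
  exact mul_le_mul (h1 _) (h1 _) (abs_nonneg _) ((abs_nonneg _).trans (h1 _))

/-- the change of variables -/
lemma cov (u : ℝ) (hu : 0 < u) (F : ℝ → ℝ≥0∞) :
    ∫⁻ x in Icc (0 : ℝ) 1, ENNReal.ofReal (u * Real.exp x) * F (u * Real.exp x) ≤
      ∫⁻ v in Ioi (u / 2), F v := by
  have h1 := lintegral_image_eq_lintegral_abs_deriv_mul (s := Icc (0 : ℝ) 1)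
    (f := fun x => u * Real.exp x) (f' := fun x => u * Real.exp x) measurableSet_Icc
    (fun x _ => ((Real.hasDerivAt_exp x).const_mul u).hasDerivWithinAt)
    (fun x _ y _ hxy => by
      have : Real.exp x = Real.exp y := mul_left_cancel₀ hu.ne' hxy
      exact Real.exp_injective this) F
  have h2 : ∫⁻ x in Icc (0 : ℝ) 1, ENNReal.ofReal (u * Real.exp x) * F (u * Real.exp x) =
      ∫⁻ x in Icc (0 : ℝ) 1, ENNReal.ofReal |u * Real.exp x| * F (u * Real.exp x) := by
    refine lintegral_congr fun x => ?_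
    rw [abs_of_pos (by positivity)]
  rw [h2, ← h1]
  refine lintegral_mono_set ?_
  rintro v ⟨x, hx, rfl⟩
  have h3 : 1 ≤ Real.exp x := by rw [← Real.exp_zero]; exact Real.exp_le_exp.2 hx.1
  simp only [mem_Ioi]
  nlinarith

/-- the window as a weight -/
noncomputable def Wd (u x : ℝ) : ℝ≥0∞ :=
  (Icc (0 : ℝ) 1).indicator (fun x => ENNReal.ofReal (u * Real.exp x)) x

lemma Wd_meas (u : ℝ) : Measurable (Wd u) := by
  unfold Wd
  refine Measurable.indicator ?_ measurableSet_Icc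
  fun_prop

lemma Wd_cov (u : ℝ) (hu : 0 < u) (F : ℝ → ℝ≥0∞) :
    ∫⁻ x, Wd u x * F (u * Real.exp x) ≤ ∫⁻ v in Ioi (u / 2), F v := by
  refine le_trans (le_of_eq ?_) (cov u hu F)
  rw [← lintegral_indicator measurableSet_Icc]
  refine lintegral_congr fun y => ?_
  unfold Wd
  by_cases hy : y ∈ Icc (0 : ℝ) 1
  · rw [indicator_of_mem hy, indicator_of_mem hy]
  · rw [indicator_of_notMem hy, indicator_of_notMem hy, zero_mul]

lemma dbl_le (u : ℝ) (hu : 0 < u) (A : ℝ → ℝ → ℝ≥0∞) (hAm : Measurable (Function.uncurry A)) :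
    ∫⁻ p : ℝ × ℝ, Wd u p.1 * (Wd u p.2 * A (u * Real.exp p.1) (u * Real.exp p.2)) ≤
      ∫⁻ u₁ in Ioi (u / 2), ∫⁻ u₂ in Ioi (u / 2), A u₁ u₂ := by
  have hWm := Wd_meas u
  have hem : Measurable fun p : ℝ × ℝ => (u * Real.exp p.1, u * Real.exp p.2) := by fun_prop
  have hm : Measurable fun p : ℝ × ℝ =>
      Wd u p.1 * (Wd u p.2 * A (u * Real.exp p.1) (u * Real.exp p.2)) :=
    (hWm.comp measurable_fst).mul ((hWm.comp measurable_snd).mul (hAm.comp hem))
  calc ∫⁻ p : ℝ × ℝ, Wd u p.1 * (Wd u p.2 * A (u * Real.exp p.1) (u * Real.exp p.2))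
      = ∫⁻ x : ℝ, ∫⁻ y : ℝ, Wd u x * (Wd u y * A (u * Real.exp x) (u * Real.exp y)) := by
        rw [Measure.volume_eq_prod]
        exact lintegral_prod _ hm.aemeasurable
    _ = ∫⁻ x : ℝ, Wd u x * ∫⁻ y : ℝ, Wd u y * A (u * Real.exp x) (u * Real.exp y) := by
        refine lintegral_congr fun x => ?_
        rw [lintegral_const_mul]
        refine hWm.mul ?_
        exact hAm.comp (measurable_const.prodMk (by fun_prop))
    _ ≤ ∫⁻ x : ℝ, Wd u x * ∫⁻ u₂ in Ioi (u / 2), A (u * Real.exp x) u₂ := by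
        refine lintegral_mono fun x => mul_le_mul' le_rfl ?_
        exact Wd_cov u hu (fun v => A (u * Real.exp x) v)
    _ ≤ _ := Wd_cov u hu (fun v => ∫⁻ u₂ in Ioi (u / 2), A v u₂)

lemma enorm_win_le {k : ℝ → ℝ} (hk : Kn 0 k) {u : ℝ} (hu : 0 < u) (x : ℝ) :
    ‖u * Real.exp x * k x‖ₑ ≤ Wd u x := by
  unfold Wd
  by_cases hx : x ∈ Icc (0 : ℝ) 1
  · rw [indicator_of_mem hx, Real.enorm_eq_ofReal_abs, abs_mul, abs_of_pos (by positivity)]
    apply ENNReal.ofReal_le_ofReal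
    exact mul_le_of_le_one_right (by positivity) (hk.abs_le x)
  · rw [indicator_of_notMem hx, hk.eq_zero hx, mul_zero, enorm_zero]

/-- `Ad` as a double integral of `AG` -/
lemma Ad_eq_int (H : ℝ) {u : ℝ} (hu : 0 < u) (R j : ℕ) {ε : ℤ} (hε : ε.natAbs = 1) {k : ℝ → ℝ}
    (hk : Kn 0 k) : Ad H R (ε * j) u k = ∫ p : ℝ × ℝ,
      AG H R j (ε * j) (u * Real.exp p.1) (u * Real.exp p.2) * w2 u k p := by
  set F : ℕ × ℕ × ℕ → ℝ × ℝ → ℝ := fun t p =>
    AGTerm H R j (ε * j) (u * Real.exp p.1) (u * Real.exp p.2) t * w2 u k p with hF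
  set I : ℝ → ℝ := (Icc (0 : ℝ) 1).indicator (fun _ => u * Real.exp 1) with hI
  have hI2 : Integrable fun p : ℝ × ℝ => I p.1 * I p.2 := by
    rw [Measure.volume_eq_prod]
    exact (int_ind _).mul_prod (int_ind _)
  have hIz : ∀ x, x ∉ Icc (0 : ℝ) 1 → I x = 0 := fun x hx => by
    rw [hI, indicator_of_notMem hx]
  have hw2 : ∀ p, |w2 u k p| ≤ I p.1 * I p.2 := fun p => w2_bound hk hu p
  have hb : ∀ t p, ‖F t p‖ ≤ bt u t * (I p.1 * I p.2) := by
    intro t p
    simp only [hF]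
    rw [norm_mul, Real.norm_eq_abs, Real.norm_eq_abs]
    by_cases hp : p.1 ∈ Icc (0 : ℝ) 1 ∧ p.2 ∈ Icc (0 : ℝ) 1
    · have h1 : ∀ x ∈ Icc (0 : ℝ) 1, u ≤ u * Real.exp x := by
        intro x hx
        have h3 : 1 ≤ Real.exp x := by rw [← Real.exp_zero]; exact Real.exp_le_exp.2 hx.1
        nlinarith
      have h2 := AGTerm_bound H R j (ε * j) hu (h1 _ hp.1) (h1 _ hp.2) t
      exact mul_le_mul h2 (hw2 p) (abs_nonneg _) (bt_nonneg _ _)
    · have h3 : I p.1 * I p.2 = 0 := by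
        rcases not_and_or.1 hp with h | h
        · rw [hIz _ h, zero_mul]
        · rw [hIz _ h, mul_zero]
      have h4 : |w2 u k p| = 0 := le_antisymm ((hw2 p).trans h3.le) (abs_nonneg _)
      rw [h4, h3, mul_zero, mul_zero]
  have hkm : Measurable k := hk.cont.measurable
  have hw2m : Measurable (w2 u k) := by
    unfold w2
    have h1 : Measurable fun p : ℝ × ℝ => k p.1 := hkm.comp measurable_fst
    have h2 : Measurable fun p : ℝ × ℝ => k p.2 := hkm.comp measurable_snd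
    have h3 : Measurable fun p : ℝ × ℝ => u * Real.exp p.1 := by fun_prop
    have h4 : Measurable fun p : ℝ × ℝ => u * Real.exp p.2 := by fun_prop
    exact (h3.mul h1).mul (h4.mul h2)
  have hem : Measurable fun p : ℝ × ℝ => (u * Real.exp p.1, u * Real.exp p.2) := by fun_prop
  have hFm : ∀ t, Measurable (F t) := fun t =>
    ((Tw.measurable_AGTerm H R j (ε * j) t).comp hem).mul hw2m
  have hint : ∀ t, Integrable (F t) := fun t =>
    (hI2.const_mul (bt u t)).mono' (hFm t).aestronglyMeasurable (Eventually.of_forall (hb t))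
  have hsum : Summable fun t => ∫ p, ‖F t p‖ := by
    refine Summable.of_nonneg_of_le (fun t => integral_nonneg fun _ => norm_nonneg _) (fun t => ?_)
      ((summable_bt hu).mul_right (∫ p : ℝ × ℝ, I p.1 * I p.2))
    rw [← integral_const_mul]
    exact integral_mono_of_nonneg (Eventually.of_forall fun _ => norm_nonneg _)
      (hI2.const_mul _) (Eventually.of_forall (hb t))
  have key := integral_tsum_of_summable_integral_norm hint hsum
  unfold Ad AG
  rw [tsum_congr fun t => (int_AGTerm H R j hε u k t).symm, key]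
  refine integral_congr_ae (Eventually.of_forall fun p => ?_)
  simp only [hF]
  rw [tsum_mul_right]

/-- Module S1c. -/
theorem pfAdAG : StAdAG := by
  intro H u R j ε k hH1 hu hR hj hε hk
  have hAm : Measurable (Function.uncurry fun u₁ u₂ : ℝ =>
      ENNReal.ofReal |AG H R j (ε * j) u₁ u₂|) := by
    have := Tw.measurable_AG H R j (ε * j)
    exact (this.abs).ennreal_ofReal
  rw [← Real.enorm_eq_ofReal_abs, Ad_eq_int (H : ℝ) hu R j hε hk]
  refine (enorm_integral_le_lintegral_enorm _).trans (le_trans ?_ (dbl_le u hu _ hAm))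
  refine lintegral_mono fun p => ?_
  simp only
  rw [enorm_mul]
  unfold w2
  rw [enorm_mul, Real.enorm_eq_ofReal_abs (AG H R j (ε * j) _ _)]
  have h1 := enorm_win_le hk hu p.1
  have h2 := enorm_win_le hk hu p.2
  rw [← mul_assoc (Wd u p.1), mul_comm (Wd u p.1 * Wd u p.2)]
  exact mul_le_mul' le_rfl (mul_le_mul' h1 h2)

end P004E
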