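import Vale.Agent.P004E.SDefs
import Vale.Agent.P004G.H3.Edge1

/-!
# P004E, module S1: basic facts on windows
-/

open Real MeasureTheory Set Filter
open scoped ENNReal Topology

namespace P004E

open P004G

section Kn

lemma Kn.abs_le {n : ℕ} {k : ℝ → ℝ} (h : Kn n k) (x : ℝ) : |k x| ≤ 1 := by
  simpa using h.bound 0 (Nat.zero_le n) x

lemma Kn.cont {n : ℕ} {k : ℝ → ℝ} (h : Kn n k) : Continuous k := h.smooth.continuous

lemma Kn.eq_zero {n : ℕ} {k : ℝ → ℝ} (h : Kn n k) {x : ℝ} (hx : x ∉ Icc (0 : ℝ) 1) : k x = 0 := by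
  by_contra h0
  exact hx ⟨(h.supp x h0).1, (h.supp x h0).2⟩

lemma Kn.mono {m n : ℕ} {k : ℝ → ℝ} (hmn : m ≤ n) (h : Kn n k) : Kn m k where
  smooth := h.smooth.of_le (by exact_mod_cast hmn)
  supp := h.supp
  bound := fun i hi x => h.bound i (hi.trans hmn) x

/-- domination on the window -/
lemma win_dom {n : ℕ} {k : ℝ → ℝ} (h : Kn n k) {f : ℝ → ℝ} {M : ℝ} (hM : 0 ≤ M)
    (hf : ∀ x ∈ Icc (0 : ℝ) 1, |f x| ≤ M) (x : ℝ) :
    |f x * k x| ≤ (Icc (0 : ℝ) 1).indicator (fun _ => M) x := by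
  by_cases hx : x ∈ Icc (0 : ℝ) 1
  · rw [indicator_of_mem hx, abs_mul]
    calc |f x| * |k x| ≤ M * 1 := mul_le_mul (hf x hx) (h.abs_le x) (abs_nonneg _) hM
      _ = M := mul_one M
  · rw [indicator_of_notMem hx, h.eq_zero hx, mul_zero, abs_zero]

lemma int_ind (M : ℝ) : Integrable ((Icc (0 : ℝ) 1).indicator (fun _ => M)) := by
  rw [integrable_indicator_iff measurableSet_Icc]
  exact integrableOn_const (by simp)

lemma integral_ind (M : ℝ) : ∫ x, (Icc (0 : ℝ) 1).indicator (fun _ => M) x = M := by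
  rw [integral_indicator measurableSet_Icc, setIntegral_const]
  simp

end Kn

/-- the integrand of `kap` -/
lemma kap_abs_le {k : ℝ → ℝ} (hk : Kn 0 k) {t : ℝ} (ht : 0 ≤ t) :
    |kap k t| ≤ Real.exp 1 * t * Real.exp (-(π * t)) := by
  unfold kap
  have hM : 0 ≤ Real.exp 1 * t * Real.exp (-(π * t)) := by positivity
  have hb : ∀ x, ‖t * Real.exp x * Real.exp (-π * (t * Real.exp x)) * k x‖ ≤
      (Icc (0 : ℝ) 1).indicator (fun _ => Real.exp 1 * t * Real.exp (-(π * t))) x := by
    intro x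
    rw [Real.norm_eq_abs]
    refine win_dom (f := fun x => t * Real.exp x * Real.exp (-π * (t * Real.exp x))) hk hM
      (fun x hx => ?_) x
    rw [abs_of_nonneg (by positivity)]
    have h1 : Real.exp x ≤ Real.exp 1 := Real.exp_le_exp.2 hx.2
    have h2 : 1 ≤ Real.exp x := by rw [← Real.exp_zero]; exact Real.exp_le_exp.2 hx.1
    have h3 : Real.exp (-π * (t * Real.exp x)) ≤ Real.exp (-(π * t)) := by
      apply Real.exp_le_exp.2
      have h4 : t * 1 ≤ t * Real.exp x := mul_le_mul_of_nonneg_left h2 ht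
      nlinarith [Real.pi_pos, mul_le_mul_of_nonneg_left h4 Real.pi_pos.le]
    calc t * Real.exp x * Real.exp (-π * (t * Real.exp x)) ≤
        t * Real.exp 1 * Real.exp (-(π * t)) := by gcongr
      _ = _ := by ring
  rw [← Real.norm_eq_abs]
  refine (norm_integral_le_of_norm_le (int_ind _) (Eventually.of_forall hb)).trans (le_of_eq ?_)
  exact integral_ind _

/-- the window of a series `∑ a n e^{-π n v}` -/
lemma win_series {k : ℝ → ℝ} (hk : Kn 0 k) {a : ℕ → ℝ} (ha : ∀ n, |a n| ≤ (n : ℝ) ^ 2) {u : ℝ}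
    (hu : 0 < u) :
    ∫ x, u * Real.exp x * (∑' n : ℕ, a n * Real.exp (-π * n * (u * Real.exp x))) * k x =
      ∑' n : ℕ, a n / n * kap k (n * u) := by
  have hc : 0 < π * u := by positivity
  have hs := Real.summable_pow_mul_exp_neg_nat_mul 2 hc
  set f : ℕ → ℝ → ℝ := fun n x =>
    (u * Real.exp x * (a n * Real.exp (-π * n * (u * Real.exp x)))) * k x with hf
  have hb : ∀ n x, ‖f n x‖ ≤ (Icc (0 : ℝ) 1).indicator
      (fun _ => u * Real.exp 1 * ((n : ℝ) ^ 2 * Real.exp (-(π * u) * n))) x := by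
    intro n x
    rw [Real.norm_eq_abs]
    refine win_dom (f := fun x => u * Real.exp x * (a n * Real.exp (-π * n * (u * Real.exp x))))
      hk (by positivity) (fun x hx => ?_) x
    have h1 : Real.exp x ≤ Real.exp 1 := Real.exp_le_exp.2 hx.2
    have h2 : 1 ≤ Real.exp x := by rw [← Real.exp_zero]; exact Real.exp_le_exp.2 hx.1
    have h3 : Real.exp (-π * n * (u * Real.exp x)) ≤ Real.exp (-(π * u) * n) := by
      apply Real.exp_le_exp.2
      have h4 : u * 1 ≤ u * Real.exp x := mul_le_mul_of_nonneg_left h2 hu.le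
      have h5 : (0 : ℝ) ≤ π * n := by positivity
      nlinarith [mul_le_mul_of_nonneg_left h4 h5]
    rw [abs_mul (u * Real.exp x), abs_mul (a n), abs_of_pos (by positivity : 0 < u * Real.exp x),
      abs_of_pos (Real.exp_pos _)]
    have := ha n
    gcongr
  have hcont : ∀ n, Continuous (f n) := by
    intro n
    have := hk.cont
    rw [hf]
    fun_prop
  have hint : ∀ n, Integrable (f n) := fun n =>
    (int_ind _).mono' (hcont n).aestronglyMeasurable (Eventually.of_forall (hb n))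
  have hsum : Summable fun n => ∫ x, ‖f n x‖ := by
    refine Summable.of_nonneg_of_le (fun n => integral_nonneg fun _ => norm_nonneg _) (fun n => ?_)
      (hs.mul_left (u * Real.exp 1))
    calc ∫ x, ‖f n x‖ ≤ ∫ x, (Icc (0 : ℝ) 1).indicator
          (fun _ => u * Real.exp 1 * ((n : ℝ) ^ 2 * Real.exp (-(π * u) * n))) x :=
          integral_mono_of_nonneg (Eventually.of_forall fun _ => norm_nonneg _) (int_ind _)
            (Eventually.of_forall (hb n))
      _ = _ := integral_ind _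
  have key := integral_tsum_of_summable_integral_norm hint hsum
  have e1 : ∀ x, u * Real.exp x * (∑' n : ℕ, a n * Real.exp (-π * n * (u * Real.exp x))) * k x =
      ∑' n, f n x := by
    intro x
    rw [hf]
    simp only
    rw [tsum_mul_right, tsum_mul_left]
  simp_rw [e1]
  rw [← key]
  refine tsum_congr fun n => ?_
  rcases Nat.eq_zero_or_pos n with h0 | h0
  · subst h0
    have h1 : a 0 = 0 := by
      have := ha 0
      simpa using this
    simp [hf, h1]
  · have hn : (n : ℝ) ≠ 0 := by exact_mod_cast h0.ne'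
    unfold kap
    rw [← integral_const_mul]
    refine integral_congr_ae (Eventually.of_forall fun x => ?_)
    simp only [hf]
    have e2 : -π * n * (u * Real.exp x) = -π * (n * u * Real.exp x) := by ring
    rw [e2]
    field_simp

variable [Crv]

lemma abs_ca_sq (n : ℕ) : |(ca n : ℝ)| ≤ (n : ℝ) ^ 2 := H1.abs_ca_le pfCoef n

open scoped Classical in
/-- coefficients of `Sw` -/
noncomputable def sc (h : ℤ) (q n : ℕ) : ℝ :=
  if Squarefree n ∧ n.Coprime q then (ca n : ℝ) * chi h n else 0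

lemma abs_sc_le (h : ℤ) (q n : ℕ) : |sc h q n| ≤ (n : ℝ) ^ 2 := by
  unfold sc
  split_ifs
  · rw [abs_mul]
    have h1 : |chi h n| ≤ 1 := P004.H1.abs_chi_le h n
    calc |(ca n : ℝ)| * |chi h n| ≤ (n : ℝ) ^ 2 * 1 :=
          mul_le_mul (abs_ca_sq n) h1 (abs_nonneg _) (by positivity)
      _ = _ := mul_one _
  · simp

lemma Uf_eq_sc (h : ℤ) (q : ℕ) (v : ℝ) :
    Uf h q v = ∑' n : ℕ, sc h q n * Real.exp (-π * n * v) := by
  unfold Uf sc
  refine tsum_congr fun n => ?_
  split_ifs <;> simp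

/-- series of `Sw` -/
lemma Sw_eq {k : ℝ → ℝ} (hk : Kn 0 k) (h : ℤ) (q : ℕ) {u : ℝ} (hu : 0 < u) :
    Sw h q u k = ∑' n : ℕ, sc h q n / n * kap k (n * u) := by
  rw [← win_series hk (abs_sc_le h q) hu]
  unfold Sw
  simp_rw [Uf_eq_sc]

/-- series of `Tw` -/
lemma Tw_eq {k : ℝ → ℝ} (hk : Kn 0 k) (h : ℤ) {u : ℝ} (hu : 0 < u) :
    Tw h u k = 4 * ∑' n : ℕ, (ca n : ℝ) * chi h n / n * kap k (n * u) := by
  have ha : ∀ n : ℕ, |(ca n : ℝ) * chi h n| ≤ (n : ℝ) ^ 2 := by
    intro n
    rw [abs_mul]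
    calc |(ca n : ℝ)| * |chi h n| ≤ (n : ℝ) ^ 2 * 1 :=
          mul_le_mul (abs_ca_sq n) (P004.H1.abs_chi_le h n) (abs_nonneg _) (by positivity)
      _ = _ := mul_one _
  rw [← win_series hk ha hu, ← integral_const_mul]
  unfold Tw theta
  refine integral_congr_ae (Eventually.of_forall fun x => ?_)
  simp only
  ring

end P004E
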