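import Vale.Agent.P004E.H394.K9

/-!
# P004E, module S1d: `StAdSep`
-/

open Real MeasureTheory Set Filter
open scoped ENNReal Topology

namespace P004E

open P004G

variable [Crv]

open P004G.H2 (Cnd cnd_iff cnd_mul sum_moebius_divisors dv_nonneg dv_le moebius_div_le lam_mul
  chi_mul P)

lemma bn_eq {q n : ℕ} (hP : P q n) (K : ℤ) {U : ℝ} (hU : 0 < U) (k : ℝ → ℝ) (v : ℝ) :
    bn K q U k n v = ((lam n * chi K n / n : ℝ) : ℂ) * Complex.exp (w1 v * (Real.log n : ℝ)) *
      Complex.exp (we v * (Real.log U : ℝ)) * (kap k (n * U) : ℂ) := by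
  have hn0 : 0 < n := Nat.pos_of_ne_zero hP.1.ne_zero
  have hn : (0 : ℝ) < n := by exact_mod_cast hn0
  have hT : 0 < n * U := by positivity
  have hne : ((n * U : ℝ) : ℂ) ≠ 0 := by exact_mod_cast hT.ne'
  have hP' : Squarefree n ∧ n.Coprime q := hP
  unfold bn sc
  rw [if_pos hP', Complex.cpow_def_of_ne_zero hne, ← Complex.ofReal_log hT.le,
    Real.log_mul hn.ne' hU.ne']
  have hsq : √(n : ℝ) = Real.exp (Real.log n / 2) := by
    rw [Real.sqrt_eq_rpow, Real.rpow_def_of_pos hn]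
    congr 1; ring
  have hca : (ca n : ℝ) = lam n * Real.exp (Real.log n / 2) := by
    unfold lam
    rw [← hsq]
    field_simp
  rw [hca]
  have e1 : Complex.exp (((Real.log n + Real.log U : ℝ) : ℂ) * we v) =
      Complex.exp ((Real.log n : ℝ) * we v) * Complex.exp (we v * (Real.log U : ℝ)) := by
    rw [← Complex.exp_add]
    congr 1
    push_cast
    ring
  have e2 : Complex.exp (w1 v * (Real.log n : ℝ)) =
      ((Real.exp (Real.log n / 2) : ℝ) : ℂ) * Complex.exp ((Real.log n : ℝ) * we v) := by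
    rw [Complex.ofReal_exp, ← Complex.exp_add]
    congr 1
    unfold w1 we
    push_cast
    ring
  rw [e1, e2]
  push_cast
  ring

lemma Fe3_eq_integral {H : ℝ} (hH : 0 < H) (j : ℕ) (K : ℤ) (g e r : ℕ) (hj : 0 < j) {u : ℝ}
    (hu : 0 < u) (k : ℝ → ℝ)
    (hge : (Squarefree g ∧ g.Coprime r) ∧ Squarefree e ∧ e.Coprime (g * r)) (n₁ n₂ : ℕ) :
    ((Fe3 H r j K u k g e (e * n₁) (e * n₂) : ℝ) : ℂ) =
      ∫ v : ℝ, Kc3 H u j K g e v *
        (bn K (e * g * r) (g * e * u) k n₁ v * bn K (e * g * r) (g * e * u) k n₂ v) := by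
  classical
  have he : 0 < e := Nat.pos_of_ne_zero hge.2.1.ne_zero
  have hg : 0 < g := Nat.pos_of_ne_zero hge.1.1.ne_zero
  have he' : (0 : ℝ) < e := by exact_mod_cast he
  have hg' : (0 : ℝ) < g := by exact_mod_cast hg
  have hU : 0 < (g : ℝ) * e * u := by positivity
  unfold Fe3
  have hiff : (Cnd r g (e * n₁) (e * n₂) ∧ e ∣ e * n₁ ∧ e ∣ e * n₂) ↔
      (P (e * g * r) n₁ ∧ P (e * g * r) n₂) := by
    rw [cnd_mul]
    simp only [dvd_mul_right, and_true]
    exact ⟨fun h => h.2, fun h => ⟨hge, h⟩⟩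
  by_cases h : P (e * g * r) n₁ ∧ P (e * g * r) n₂
  · rw [if_pos (hiff.mpr h)]
    obtain ⟨h₁, h₂⟩ := h
    have hn₁ : 0 < n₁ := Nat.pos_of_ne_zero h₁.1.ne_zero
    have hn₂ : 0 < n₂ := Nat.pos_of_ne_zero h₂.1.ne_zero
    have c₁ : e.Coprime n₁ := by
      have := h₁.2
      rw [mul_assoc, Nat.coprime_mul_iff_right] at this
      exact this.1.symm
    have c₂ : e.Coprime n₂ := by
      have := h₂.2
      rw [mul_assoc, Nat.coprime_mul_iff_right] at this
      exact this.1.symm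
    unfold base3
    rw [lam_mul pfCoef e n₁ c₁, lam_mul pfCoef e n₂ c₂,
      chi_mul K _ _ (by positivity) (by positivity),
      chi_mul K e n₁ (by positivity) (by positivity), chi_mul K e n₂ (by positivity)
      (by positivity), Complex.ofReal_mul, Complex.ofReal_mul, Complex.ofReal_mul,
      sum_Gk3 hH j g hj (e * n₁) (e * n₂) (by positivity) (by positivity)]
    rw [← integral_const_mul, ← integral_mul_const, ← integral_const_mul]
    refine integral_congr_ae (Filter.Eventually.of_forall fun v => ?_)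
    simp only
    rw [bn_eq h₁ K hU k v, bn_eq h₂ K hU k v]
    unfold Kc3
    have h₁' : (0 : ℝ) < n₁ := by exact_mod_cast hn₁
    have h₂' : (0 : ℝ) < n₂ := by exact_mod_cast hn₂
    have e1 : Complex.exp (w1 v * (Real.log (e * n₁ : ℕ) + Real.log (e * n₂ : ℕ) : ℝ)) =
        Complex.exp (w1 v * (2 * Real.log e : ℝ)) *
        Complex.exp (w1 v * (Real.log n₁ : ℝ)) * Complex.exp (w1 v * (Real.log n₂ : ℝ)) := by
      rw [← Complex.exp_add, ← Complex.exp_add]
      congr 1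
      push_cast
      rw [Real.log_mul he'.ne' h₁'.ne', Real.log_mul he'.ne' h₂'.ne']
      push_cast
      ring
    have e2 : (g : ℝ) * ((e * n₁ : ℕ) : ℝ) * u = n₁ * (g * e * u) := by push_cast; ring
    have e3 : (g : ℝ) * ((e * n₂ : ℕ) : ℝ) * u = n₂ * (g * e * u) := by push_cast; ring
    have e4 : Complex.exp (-we v * (2 * Real.log (g * e * u) : ℝ)) *
        (Complex.exp (we v * (Real.log (g * e * u) : ℝ)) *
          Complex.exp (we v * (Real.log (g * e * u) : ℝ))) = 1 := by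
      rw [← Complex.exp_add, ← Complex.exp_add]
      have : -we v * ((2 * Real.log (g * e * u) : ℝ) : ℂ) + (we v * (Real.log (g * e * u) : ℝ) +
          we v * (Real.log (g * e * u) : ℝ)) = 0 := by push_cast; ring
      rw [this, Complex.exp_zero]
    rw [e1, e2, e3]
    generalize Complex.exp (w1 v * (Real.log n₁ : ℝ)) = x1 at *
    generalize Complex.exp (w1 v * (Real.log n₂ : ℝ)) = x2 at *
    generalize Complex.exp (w1 v * (2 * Real.log e : ℝ)) = z1
    generalize Complex.exp (-w1 v * (Real.log (j * H) : ℝ)) = z2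
    generalize Complex.exp (-we v * (2 * Real.log (g * e * u) : ℝ)) = y0 at *
    generalize Complex.exp (we v * (Real.log (g * e * u) : ℝ)) = y1 at *
    generalize kap k (n₁ * (g * e * u)) = a1
    generalize kap k (n₂ * (g * e * u)) = a2
    have hec : (e : ℂ) ≠ 0 := by exact_mod_cast he'.ne'
    have h1c : (n₁ : ℂ) ≠ 0 := by exact_mod_cast h₁'.ne'
    have h2c : (n₂ : ℂ) ≠ 0 := by exact_mod_cast h₂'.ne'
    have hgc : (g : ℂ) ≠ 0 := by exact_mod_cast hg'.ne'
    push_cast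
    have hfin : ∀ Z : ℂ, Z * (y0 * (y1 * y1)) = Z := fun Z => by rw [e4, mul_one]
    have e5 : (ArithmeticFunction.moebius e : ℂ) * ((lam g : ℂ) ^ 2 / g) * ((lam e : ℂ) ^ 2 / e ^ 2) *
        (chi K e : ℂ) ^ 2 * gk v * z2 * z1 * y0 * D1 v j g *
        ((lam n₁ : ℂ) * (chi K n₁ : ℂ) / n₁ * x1 * y1 * a1 *
          ((lam n₂ : ℂ) * (chi K n₂ : ℂ) / n₂ * x2 * y1 * a2)) =
        ((ArithmeticFunction.moebius e : ℂ) * ((lam g : ℂ) ^ 2 / g) * ((lam e : ℂ) ^ 2 / e ^ 2) *
        (chi K e : ℂ) ^ 2 * gk v * z2 * z1 * D1 v j g *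
        ((lam n₁ : ℂ) * (chi K n₁ : ℂ) / n₁ * x1 * a1 *
          ((lam n₂ : ℂ) * (chi K n₂ : ℂ) / n₂ * x2 * a2))) * (y0 * (y1 * y1)) := by ring
    rw [e5, hfin]
    ring
  · rw [if_neg (fun h' => h (hiff.mp h'))]
    have : ∀ v, bn K (e * g * r) (g * e * u) k n₁ v *
        bn K (e * g * r) (g * e * u) k n₂ v = 0 := by
      intro v
      unfold bn sc
      by_cases h₁ : P (e * g * r) n₁
      · have h₂ : ¬ P (e * g * r) n₂ := fun h₂ => h ⟨h₁, h₂⟩
        unfold P at h₂
        rw [if_neg h₂]; simp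
      · unfold P at h₁
        rw [if_neg h₁]; simp
    simp [this]

lemma one_pair3 {k : ℝ → ℝ} (hk : Kn 0 k) {H : ℝ} (hH : 0 < H) (j : ℕ) (K : ℤ) (g e r : ℕ)
    (hj : 0 < j) {u : ℝ} (hu : 0 < u) (C : ℝ) (hC : 0 < C)
    (hb : ∀ v : ℝ, ‖gk v‖ ≤ C * Real.exp (-3 * π * |v|)) :
    ‖∑' m : ℕ × ℕ, Fe3 H r j K u k g e m.1 m.2‖ₑ ≤
      ENNReal.ofReal (C / (H * u) * (lam g ^ 2 / g ^ 2 * (lam e ^ 2 / e))) *
        ∫⁻ v : ℝ, ENNReal.ofReal (Real.exp (-3 * π * |v|)) *
          (ENNReal.ofReal (sgd j g / j) * ‖Sq K (e * g * r) (g * e * u) v k‖ₑ ^ 2) := by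
  by_cases hge : (Squarefree g ∧ g.Coprime r) ∧ Squarefree e ∧ e.Coprime (g * r)
  · have he : 0 < e := Nat.pos_of_ne_zero hge.2.1.ne_zero
    have hg : 0 < g := Nat.pos_of_ne_zero hge.1.1.ne_zero
    have hU : 0 < (g : ℝ) * e * u := by positivity
    -- reindex
    have hinj : Function.Injective (fun n : ℕ × ℕ => (e * n.1, e * n.2)) := by
      rintro ⟨a, b⟩ ⟨c, d⟩ h
      simp only [Prod.mk.injEq, mul_eq_mul_left_iff] at h
      obtain ⟨h1, h2⟩ := h
      ext <;> simp <;> omega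
    have hre : ∑' m : ℕ × ℕ, Fe3 H r j K u k g e m.1 m.2 =
        ∑' n : ℕ × ℕ, Fe3 H r j K u k g e (e * n.1) (e * n.2) := by
      refine (hinj.tsum_eq (f := fun m : ℕ × ℕ => Fe3 H r j K u k g e m.1 m.2) ?_).symm
      rintro ⟨m₁, m₂⟩ hm
      have h : Cnd r g m₁ m₂ ∧ e ∣ m₁ ∧ e ∣ m₂ := by
        by_contra h
        exact hm (if_neg h)
      obtain ⟨a, ha⟩ := h.2.1
      obtain ⟨b, hb⟩ := h.2.2
      exact ⟨(a, b), by simp [ha, hb]⟩
    have hcast : ‖∑' m : ℕ × ℕ, Fe3 H r j K u k g e m.1 m.2‖ₑ =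
        ‖∫ v : ℝ, Kc3 H u j K g e v * Sq K (e * g * r) (g * e * u) v k ^ 2‖ₑ := by
      rw [hre, ← tsum_integral3 hk K (e * g * r) hU _ (Kc3_int hH hu j K g e hj hg he)]
      simp_rw [← Fe3_eq_integral hH j K g e r hj hu k hge]
      rw [← Complex.ofReal_tsum]
      simp [enorm_eq_nnnorm]
    rw [hcast, ← lintegral_const_mul']
    · refine (enorm_integral_le_lintegral_enorm _).trans (lintegral_mono fun v => ?_)
      have h1 := Kc3_norm hH hu j K g e hj hg he v C (hb v) hC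
      have h2 : 0 ≤ sgd j g / j := div_nonneg (sgd_nonneg j g) (Nat.cast_nonneg _)
      have h3 : 0 ≤ C / (H * u) * (lam g ^ 2 / g ^ 2 * (lam e ^ 2 / e)) := by positivity
      rw [enorm_mul, enorm_pow]
      have h4 : ‖Kc3 H u j K g e v‖ₑ ≤ ENNReal.ofReal (C / (H * u) * (lam g ^ 2 / g ^ 2 *
          (lam e ^ 2 / e)) * (sgd j g / j) * Real.exp (-3 * π * |v|)) := by
        rw [← ofReal_norm]
        exact ENNReal.ofReal_le_ofReal h1
      calc ‖Kc3 H u j K g e v‖ₑ * ‖Sq K (e * g * r) (g * e * u) v k‖ₑ ^ 2 ≤ _ :=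
            mul_le_mul' h4 le_rfl
        _ = _ := by
            rw [ENNReal.ofReal_mul (by positivity), ENNReal.ofReal_mul h3]
            ring
    · exact ENNReal.ofReal_ne_top
  · have : ∀ m : ℕ × ℕ, Fe3 H r j K u k g e m.1 m.2 = 0 := by
      rintro ⟨m₁, m₂⟩
      simp only [Fe3]
      rw [if_neg]
      rintro ⟨h1, ⟨a, ha⟩, ⟨b, hb⟩⟩
      subst ha hb
      rw [cnd_mul] at h1
      exact hge h1.1
    simp [this]

lemma Sq_cont {k : ℝ → ℝ} (hk : Kn 0 k) (K : ℤ) (q : ℕ) {U : ℝ} (hU : 0 < U) :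
    Continuous fun v => Sq K q U v k := by
  have hs := (Real.summable_pow_mul_exp_neg_nat_mul 1 hU).mul_left (Real.exp 1)
  exact continuous_tsum (fun n => bn_cont K q hU k n) hs fun n v => bn_norm hk K q hU n v

/-- the total mass in `τ` -/
lemma tau_mass (n : ℕ) : ∃ C : ℝ, 1 ≤ C ∧
    ∫⁻ v : ℝ, ENNReal.ofReal (Real.exp (-3 * π * |v|)) *
      ENNReal.ofReal (4 * rho0 ^ 2 * Real.exp (π * |v|) * Mt n v ^ 2) ≤ ENNReal.ofReal C := by
  -- `(1+|v|)^{2n} ≤ (2n)! e^{1+|v|}`
  have h1 : ∀ v : ℝ, Real.exp (-3 * π * |v|) * (4 * rho0 ^ 2 * Real.exp (π * |v|) * Mt n v ^ 2) ≤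
      (4 * rho0 ^ 2 * (2 ^ n) ^ 2 * ((2 * n).factorial * Real.exp 1)) *
        Real.exp (-|v|) := by
    intro v
    have h2 : (1 + |v|) ^ (2 * n) ≤ (2 * n).factorial * Real.exp (1 + |v|) := by
      have h3 := Real.pow_div_factorial_le_exp (1 + |v|) (by positivity) (2 * n)
      rw [div_le_iff₀ (by positivity)] at h3
      linarith
    have h4 : Mt n v ^ 2 = (2 ^ n) ^ 2 * (1 + |v|) ^ (2 * n) := by
      unfold Mt
      rw [mul_pow, ← pow_mul (1 + |v|), mul_comm n 2]
    rw [h4]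
    have h5 : Real.exp (-3 * π * |v|) * Real.exp (π * |v|) * Real.exp (1 + |v|) ≤
        Real.exp 1 * Real.exp (-|v|) := by
      rw [← Real.exp_add, ← Real.exp_add, ← Real.exp_add]
      apply Real.exp_le_exp.2
      nlinarith [Real.pi_gt_three, abs_nonneg v, mul_nonneg (abs_nonneg v)
        (sub_nonneg.2 Real.pi_gt_three.le)]
    calc Real.exp (-3 * π * |v|) * (4 * rho0 ^ 2 * Real.exp (π * |v|) *
          ((2 ^ n) ^ 2 * (1 + |v|) ^ (2 * n))) =
          (4 * rho0 ^ 2 * (2 ^ n) ^ 2) * (Real.exp (-3 * π * |v|) * Real.exp (π * |v|)) *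
            (1 + |v|) ^ (2 * n) := by ring
      _ ≤ (4 * rho0 ^ 2 * (2 ^ n) ^ 2) * (Real.exp (-3 * π * |v|) * Real.exp (π * |v|)) *
            ((2 * n).factorial * Real.exp (1 + |v|)) := by gcongr
      _ = (4 * rho0 ^ 2 * (2 ^ n) ^ 2 * (2 * n).factorial) *
            (Real.exp (-3 * π * |v|) * Real.exp (π * |v|) * Real.exp (1 + |v|)) := by ring
      _ ≤ (4 * rho0 ^ 2 * (2 ^ n) ^ 2 * (2 * n).factorial) *
            (Real.exp 1 * Real.exp (-|v|)) := by gcongr
      _ = _ := by ring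
  set A := 4 * rho0 ^ 2 * (2 ^ n) ^ 2 * ((2 * n).factorial * Real.exp 1) with hA
  have hA0 : 0 ≤ A := by positivity
  have hint : Integrable fun v : ℝ => Real.exp (-|v|) := by
    refine (integrable_inv_one_add_sq.const_mul 2).mono'
      (by fun_prop : Continuous fun v : ℝ => Real.exp (-|v|)).aestronglyMeasurable ?_
    filter_upwards with v
    rw [Real.norm_of_nonneg (Real.exp_pos _).le, Real.exp_neg, ← div_eq_mul_inv,
      inv_eq_one_div, div_le_div_iff₀ (Real.exp_pos _) (by positivity)]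
    have h2 := Real.quadratic_le_exp_of_nonneg (abs_nonneg v)
    rw [sq_abs] at h2
    nlinarith [abs_nonneg v]
  refine ⟨A * (∫ v : ℝ, Real.exp (-|v|)) + 1, ?_, ?_⟩
  · have : 0 ≤ ∫ v : ℝ, Real.exp (-|v|) := integral_nonneg fun _ => (Real.exp_pos _).le
    have := mul_nonneg hA0 this
    linarith
  · calc ∫⁻ v : ℝ, ENNReal.ofReal (Real.exp (-3 * π * |v|)) *
          ENNReal.ofReal (4 * rho0 ^ 2 * Real.exp (π * |v|) * Mt n v ^ 2)
        ≤ ∫⁻ v : ℝ, ENNReal.ofReal (A * Real.exp (-|v|)) := by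
          refine lintegral_mono fun v => ?_
          rw [← ENNReal.ofReal_mul (Real.exp_pos _).le]
          exact ENNReal.ofReal_le_ofReal (h1 v)
      _ = ENNReal.ofReal (∫ v : ℝ, A * Real.exp (-|v|)) := by
          rw [ofReal_integral_eq_lintegral_ofReal (hint.const_mul A)
            (Eventually.of_forall fun v => by positivity)]
      _ ≤ _ := by
          rw [integral_const_mul]
          exact ENNReal.ofReal_le_ofReal (by linarith)

/-- Module S1d. -/
theorem pfAdSep : StAdSep := by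
  intro n
  obtain ⟨C, hC, hb⟩ := gk_bound
  obtain ⟨C', hC', hmass⟩ := tau_mass n
  refine ⟨(C + 1) * C', by nlinarith, ?_⟩
  intro H u R ε k J B hH1 hu hR hε hk hJ hB
  have hH : (0 : ℝ) < H := by exact_mod_cast hH1
  have hk0 : Kn 0 k := hk.mono (by omega)
  -- termwise
  have h1 : ∀ j ∈ J, ENNReal.ofReal |Ad H R (ε * j) u k| ≤ ∑' g : ℕ, ∑' e : ℕ,
      ENNReal.ofReal (C / (H * u) * (lam g ^ 2 / g ^ 2 * (lam e ^ 2 / e))) *
        ∫⁻ v : ℝ, ENNReal.ofReal (Real.exp (-3 * π * |v|)) *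
          (ENNReal.ofReal (sgd j g / j) * ‖Sq (ε * j) (e * g * R) (g * e * u) v k‖ₑ ^ 2) := by
    intro j hj
    refine (Ad_le hk0 H R j hε hu).trans ?_
    refine ENNReal.tsum_le_tsum fun g => ENNReal.tsum_le_tsum fun e => ?_
    exact one_pair3 hk0 hH j (ε * j) g e R (hJ j hj) hu C hC hb
  calc ∑ j ∈ J, ENNReal.ofReal |Ad H R (ε * j) u k| ≤ ∑ j ∈ J, ∑' g : ℕ, ∑' e : ℕ,
      ENNReal.ofReal (C / (H * u) * (lam g ^ 2 / g ^ 2 * (lam e ^ 2 / e))) *
        ∫⁻ v : ℝ, ENNReal.ofReal (Real.exp (-3 * π * |v|)) *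
          (ENNReal.ofReal (sgd j g / j) * ‖Sq (ε * j) (e * g * R) (g * e * u) v k‖ₑ ^ 2) :=
        Finset.sum_le_sum h1
    _ = ∑' g : ℕ, ∑' e : ℕ, ∑ j ∈ J,
      ENNReal.ofReal (C / (H * u) * (lam g ^ 2 / g ^ 2 * (lam e ^ 2 / e))) *
        ∫⁻ v : ℝ, ENNReal.ofReal (Real.exp (-3 * π * |v|)) *
          (ENNReal.ofReal (sgd j g / j) * ‖Sq (ε * j) (e * g * R) (g * e * u) v k‖ₑ ^ 2) := by
        rw [← Summable.tsum_finsetSum (fun _ _ => ENNReal.summable)]
        refine tsum_congr fun g => ?_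
        rw [← Summable.tsum_finsetSum (fun _ _ => ENNReal.summable)]
    _ ≤ ∑' g : ℕ, ∑' e : ℕ,
      ENNReal.ofReal (C / (H * u) * (lam g ^ 2 / g ^ 2 * (lam e ^ 2 / e))) *
        (ENNReal.ofReal C' * B g e) := by
        refine ENNReal.tsum_le_tsum fun g => ENNReal.tsum_le_tsum fun e => ?_
        rw [← Finset.mul_sum]
        rcases Nat.eq_zero_or_pos g with hg | hg
        · subst hg
          simp
        rcases Nat.eq_zero_or_pos e with he | he
        · subst he
          simp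
        have hg' : (0 : ℝ) < g := by exact_mod_cast hg
        have he' : (0 : ℝ) < e := by exact_mod_cast he
        have hU : 0 < (g : ℝ) * e * u := by positivity
        refine mul_le_mul' le_rfl ?_
        have hmeas : ∀ j ∈ J, Measurable fun v : ℝ => ENNReal.ofReal (Real.exp (-3 * π * |v|)) *
          (ENNReal.ofReal (sgd j g / j) * ‖Sq (ε * j) (e * g * R) (g * e * u) v k‖ₑ ^ 2) := by
          intro j _
          have hc := Sq_cont hk0 (ε * j) (e * g * R) hU
          have h2 : Measurable fun v : ℝ => ‖Sq (ε * j) (e * g * R) (g * e * u) v k‖ₑ ^ 2 :=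
            (hc.measurable.enorm).pow_const 2
          have h3 : Measurable fun v : ℝ => ENNReal.ofReal (Real.exp (-3 * π * |v|)) := by fun_prop
          exact h3.mul (h2.const_mul _)
        rw [← lintegral_finset_sum J hmeas]
        calc ∫⁻ v : ℝ, ∑ j ∈ J, ENNReal.ofReal (Real.exp (-3 * π * |v|)) *
              (ENNReal.ofReal (sgd j g / j) * ‖Sq (ε * j) (e * g * R) (g * e * u) v k‖ₑ ^ 2)
            ≤ ∫⁻ v : ℝ, ENNReal.ofReal (Real.exp (-3 * π * |v|)) *
              ENNReal.ofReal (4 * rho0 ^ 2 * Real.exp (π * |v|) * Mt n v ^ 2) * B g e := by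
              refine lintegral_mono fun v => ?_
              simp only
              rw [← Finset.mul_sum, mul_assoc (ENNReal.ofReal _) (ENNReal.ofReal _) (B g e)]
              refine mul_le_mul' le_rfl ?_
              refine Sq_ms hk v hU J (fun j => ENNReal.ofReal (sgd j g / j)) (fun j => ε * (j : ℤ))
                (e * g * R) (B g e) ?_
              intro u' hu' k' hk'
              refine le_trans (le_of_eq ?_) (hB g e hg he u' (by
                have : (0 : ℝ) ≤ g * e * u := hU.le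
                linarith) k' hk')
              refine Finset.sum_congr rfl fun j _ => ?_
              rw [← ENNReal.ofReal_mul (div_nonneg (sgd_nonneg j g) (Nat.cast_nonneg _))]
              rfl
          _ = (∫⁻ v : ℝ, ENNReal.ofReal (Real.exp (-3 * π * |v|)) *
              ENNReal.ofReal (4 * rho0 ^ 2 * Real.exp (π * |v|) * Mt n v ^ 2)) * B g e := by
              rw [lintegral_mul_const]
              have h3 : Measurable fun v : ℝ => ENNReal.ofReal (Real.exp (-3 * π * |v|)) := by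
                fun_prop
              have h4 : Measurable fun v : ℝ =>
                  ENNReal.ofReal (4 * rho0 ^ 2 * Real.exp (π * |v|) * Mt n v ^ 2) := by
                unfold Mt
                fun_prop
              exact h3.mul h4
          _ ≤ _ := mul_le_mul' hmass le_rfl
    _ ≤ _ := by
        rw [← ENNReal.tsum_mul_left]
        refine ENNReal.tsum_le_tsum fun g => ?_
        rw [← ENNReal.tsum_mul_left]
        refine ENNReal.tsum_le_tsum fun e => ?_
        rw [← mul_assoc (ENNReal.ofReal _) (ENNReal.ofReal C') _,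
          ← mul_assoc (ENNReal.ofReal _) (ENNReal.ofReal _) (B g e)]
        refine mul_le_mul' ?_ le_rfl
        have hn : 0 ≤ lam g ^ 2 / g ^ 2 * (lam e ^ 2 / e) := by positivity
        rw [← ENNReal.ofReal_mul (by positivity), ← ENNReal.ofReal_mul (by positivity)]
        apply ENNReal.ofReal_le_ofReal
        have h5 : C / (H * u) * (lam g ^ 2 / g ^ 2 * (lam e ^ 2 / e)) * C' =
          C * C' / (H * u) * (lam g ^ 2 / g ^ 2 * (lam e ^ 2 / e)) := by ring
        rw [h5]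
        gcongr
        linarith

end P004E
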