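import Vale.Agent.P004E.H394.K1
import Mathlib.Analysis.SpecialFunctions.Gamma.Beta

/-!
# P004E, module S1: fractional multiplication `t^{1/2+iτ} kap k t` as a superposition of windows
-/

open Real MeasureTheory Set Filter
open scoped ENNReal Topology

namespace P004E

open P004G

/-! ### products of windows with smooth functions -/

lemma iteratedDeriv_zero_of_out {n i : ℕ} {k : ℝ → ℝ} (h : Kn n k) {x : ℝ}
    (hx : x ∉ Icc (0 : ℝ) 1) : iteratedDeriv i k x = 0 := by
  have hU : (Icc (0 : ℝ) 1)ᶜ ∈ 𝓝 x := isClosed_Icc.isOpen_compl.mem_nhds hx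
  have h1 : k =ᶠ[𝓝 x] fun _ => (0 : ℝ) := by
    filter_upwards [hU] with y hy
    exact h.eq_zero hy
  have h2 := h1.iteratedDeriv_eq i
  rw [h2]
  simp [iteratedDeriv_const]

lemma Kn.mul_smooth {n : ℕ} {f s : ℝ → ℝ} (hf : Kn n f) (hs : ContDiff ℝ n s) {M : ℝ} (hM : 0 < M)
    (hb : ∀ i ≤ n, ∀ x ∈ Icc (0 : ℝ) 1, |iteratedDeriv i s x| ≤ M) :
    Kn n (fun x => s x * f x / (2 ^ n * M)) where
  smooth := (hs.mul hf.smooth).div_const _
  supp := fun x hx => hf.supp x (fun h0 => hx (by simp [h0]))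
  bound := by
    intro i hi x
    have hi' : ContDiff ℝ i (fun x => s x * f x) := (hs.mul hf.smooth).of_le (by exact_mod_cast hi)
    have e1 : iteratedDeriv i (fun x => s x * f x / (2 ^ n * M)) x =
        iteratedDeriv i (fun x => s x * f x) x / (2 ^ n * M) := by
      simp_rw [div_eq_inv_mul]
      rw [iteratedDeriv_const_mul_field]
    rw [e1, abs_div, abs_of_pos (by positivity : (0 : ℝ) < 2 ^ n * M), div_le_one (by positivity)]
    have h1 := norm_iteratedFDeriv_mul_le (𝕜 := ℝ) (N := i) (A := ℝ) (n := i)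
      (hs.of_le (by exact_mod_cast hi)) (hf.smooth.of_le (by exact_mod_cast hi)) x le_rfl
    simp only [norm_iteratedFDeriv_eq_norm_iteratedDeriv, Real.norm_eq_abs] at h1
    refine h1.trans ?_
    by_cases hx : x ∈ Icc (0 : ℝ) 1
    · calc ∑ l ∈ Finset.range (i + 1), (i.choose l : ℝ) * |iteratedDeriv l s x| *
            |iteratedDeriv (i - l) f x| ≤ ∑ l ∈ Finset.range (i + 1), (i.choose l : ℝ) * M * 1 := by
            refine Finset.sum_le_sum fun l hl => ?_
            have hl' : l ≤ i := by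
              have := Finset.mem_range.1 hl
              omega
            have h2 := hb l (hl'.trans hi) x hx
            have h3 := hf.bound (i - l) ((Nat.sub_le _ _).trans hi) x
            gcongr
        _ = 2 ^ i * M := by
            simp_rw [mul_one]
            rw [← Finset.sum_mul]
            congr 1
            exact_mod_cast Nat.sum_range_choose i
        _ ≤ 2 ^ n * M := by
            gcongr
            norm_num
    · have h4 : ∑ l ∈ Finset.range (i + 1), (i.choose l : ℝ) * |iteratedDeriv l s x| *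
            |iteratedDeriv (i - l) f x| = 0 := by
        refine Finset.sum_eq_zero fun l _ => ?_
        rw [iteratedDeriv_zero_of_out hf hx]
        simp
      rw [h4]
      positivity

lemma Kn.deriv {n : ℕ} {k : ℝ → ℝ} (h : Kn (n + 1) k) : Kn n (deriv k) where
  smooth := by
    have h2 := (contDiff_succ_iff_deriv (n := (n : WithTop ℕ∞)) (f := k)).1 (by exact_mod_cast h.smooth)
    exact h2.2.2
  supp := by
    intro x hx
    by_contra h0
    have hx' : x ∉ Icc (0 : ℝ) 1 := fun h1 => h0 ⟨h1.1, h1.2⟩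
    have h2 := iteratedDeriv_zero_of_out (i := 1) h hx'
    rw [iteratedDeriv_one] at h2
    exact hx h2
  bound := by
    intro i hi x
    have h1 := h.bound (i + 1) (by omega) x
    rw [iteratedDeriv_succ'] at h1
    exact h1

/-- the smooth factor -/
noncomputable def sf (c : ℂ) (τ x : ℝ) : ℝ := (c * Complex.exp (-(1 / 2 + τ * Complex.I) * x)).re

lemma iteratedDeriv_re_exp (a : ℂ) (i : ℕ) : ∀ c : ℂ,
    iteratedDeriv i (fun x : ℝ => (c * Complex.exp (a * x)).re) =
      fun x : ℝ => (c * a ^ i * Complex.exp (a * x)).re := by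
  induction i with
  | zero => intro c; simp
  | succ i ih =>
    intro c
    rw [iteratedDeriv_succ']
    have h1 : deriv (fun x : ℝ => (c * Complex.exp (a * x)).re) =
        fun x : ℝ => (c * a * Complex.exp (a * x)).re := by
      funext x
      have h2 : HasDerivAt (fun x : ℝ => c * Complex.exp (a * x)) (c * (Complex.exp (a * x) *
          (a * 1))) x := by
        have h3 : HasDerivAt (fun x : ℝ => a * (x : ℂ)) (a * 1) x :=
          (Complex.ofRealCLM.hasDerivAt (x := x)).const_mul a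
        exact (h3.cexp).const_mul c
      have h4 := (Complex.reCLM.hasFDerivAt (x := c * Complex.exp (a * x))).comp_hasDerivAt x h2
      have h5 := h4.deriv
      simp only [Function.comp_def, Complex.reCLM_apply] at h5
      rw [h5]
      congr 1
      ring
    rw [h1, ih]
    funext x
    congr 1
    ring

lemma sf_smooth (c : ℂ) (τ : ℝ) (n : ℕ) : ContDiff ℝ n (sf c τ) := by
  unfold sf
  have h1 : ContDiff ℝ n (fun x : ℝ => c * Complex.exp (-(1 / 2 + τ * Complex.I) * x)) := by
    have h2 : ContDiff ℝ n (fun x : ℝ => -(1 / 2 + τ * Complex.I) * (x : ℂ)) :=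
      contDiff_const.mul Complex.ofRealCLM.contDiff
    exact contDiff_const.mul h2.cexp
  exact Complex.reCLM.contDiff.comp h1

lemma sf_bound {c : ℂ} (hc : ‖c‖ ≤ 1) (τ : ℝ) (n i : ℕ) (hi : i ≤ n) (x : ℝ)
    (hx : x ∈ Icc (0 : ℝ) 1) : |iteratedDeriv i (sf c τ) x| ≤ (1 + |τ|) ^ n := by
  unfold sf
  rw [iteratedDeriv_re_exp]
  simp only
  refine (Complex.abs_re_le_norm _).trans ?_
  rw [norm_mul, norm_mul, norm_pow, norm_neg, Complex.norm_exp]
  have h1 : ‖(1 / 2 + τ * Complex.I : ℂ)‖ ≤ 1 + |τ| := by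
    refine (norm_add_le _ _).trans ?_
    rw [norm_mul, Complex.norm_I, mul_one, Complex.norm_real, Real.norm_eq_abs]
    have : ‖(1 / 2 : ℂ)‖ = 1 / 2 := by simp
    rw [this]
    linarith [abs_nonneg τ]
  have h2 : (-(1 / 2 + τ * Complex.I) * (x : ℂ)).re = -(x / 2) := by
    simp
    ring
  rw [h2]
  have h3 : Real.exp (-(x / 2)) ≤ 1 := by
    rw [Real.exp_le_one_iff]
    linarith [hx.1]
  have h4 : (1 : ℝ) ≤ 1 + |τ| := by linarith [abs_nonneg τ]
  calc ‖c‖ * ‖(1 / 2 + τ * Complex.I : ℂ)‖ ^ i * Real.exp (-(x / 2)) ≤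
        1 * (1 + |τ|) ^ i * 1 := by gcongr
    _ = (1 + |τ|) ^ i := by ring
    _ ≤ (1 + |τ|) ^ n := pow_le_pow_right₀ h4 hi

/-- the window `Re (c e^{-(1/2+iτ)x}) k'(x)` -/
noncomputable def ph (c : ℂ) (τ : ℝ) (k : ℝ → ℝ) (x : ℝ) : ℝ := sf c τ x * deriv k x

/-- its size -/
noncomputable def Mt (n : ℕ) (τ : ℝ) : ℝ := 2 ^ n * (1 + |τ|) ^ n

lemma Mt_pos (n : ℕ) (τ : ℝ) : 0 < Mt n τ := by
  unfold Mt
  positivity

lemma Kn_ph {n : ℕ} {k : ℝ → ℝ} (h : Kn (n + 1) k) {c : ℂ} (hc : ‖c‖ ≤ 1) (τ : ℝ) :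
    Kn n (fun x => ph c τ k x / Mt n τ) :=
  h.deriv.mul_smooth (sf_smooth c τ n) (by positivity) (sf_bound hc τ n)

/-! ### integration by parts -/

lemma kap_ibp {k : ℝ → ℝ} (hk : Kn 1 k) {t : ℝ} (_ : 0 < t) :
    ∫ x, Real.exp (-π * (t * Real.exp x)) * deriv k x = π * kap k t := by
  have hd : Kn 0 (deriv k) := hk.deriv
  have hu : ∀ x, HasDerivAt (fun x => Real.exp (-π * (t * Real.exp x)))
      (Real.exp (-π * (t * Real.exp x)) * (-π * (t * Real.exp x))) x := by
    intro x
    have h1 : HasDerivAt (fun x => -π * (t * Real.exp x)) (-π * (t * Real.exp x)) x :=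
      ((Real.hasDerivAt_exp x).const_mul t).const_mul (-π)
    exact h1.exp
  have hdiff : Differentiable ℝ k := hk.smooth.differentiable (by simp)
  have hv : ∀ x, HasDerivAt k (deriv k x) x := fun x => (hdiff x).hasDerivAt
  have hcs : ∀ {f g : ℝ → ℝ}, Continuous f → Continuous g → (∀ x, x ∉ Icc (0 : ℝ) 1 → g x = 0) →
      Integrable (f * g) := by
    intro f g hf hg h0
    refine (hf.mul hg).integrable_of_hasCompactSupport ?_
    refine HasCompactSupport.intro (isCompact_Icc (a := (0 : ℝ)) (b := 1)) fun x hx => ?_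
    simp [h0 x hx]
  have c1 : Continuous fun x => Real.exp (-π * (t * Real.exp x)) := by fun_prop
  have c2 : Continuous fun x => Real.exp (-π * (t * Real.exp x)) * (-π * (t * Real.exp x)) := by
    fun_prop
  have key := integral_mul_deriv_eq_deriv_mul_of_integrable (fun x _ => hu x)
    (fun x _ => hv x)
    (hcs c1 hd.cont fun x hx => hd.eq_zero hx) (hcs c2 hk.cont fun x hx => hk.eq_zero hx)
    (hcs c1 hk.cont fun x hx => hk.eq_zero hx)
  rw [key]
  unfold kap
  rw [← integral_const_mul, ← integral_neg]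
  refine integral_congr_ae (Eventually.of_forall fun x => ?_)
  simp only
  ring

end P004E
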