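import Vale.Agent.P004E.H394.K2

/-!
# P004E, module S1: the fractional kernel
-/

open Real MeasureTheory Set Filter
open scoped ENNReal Topology

namespace P004E

open P004G

/-- the exponent `1/2 + iτ` -/
noncomputable def we (τ : ℝ) : ℂ := 1 / 2 + τ * Complex.I

/-- the constant of the fractional kernel -/
noncomputable def cw (τ : ℝ) : ℂ := (π : ℂ) ^ (-we τ) / Complex.Gamma (1 - we τ)

lemma we_re (τ : ℝ) : (we τ).re = 1 / 2 := by
  unfold we; simp

lemma norm_gamma_sq (τ : ℝ) : ‖Complex.Gamma (1 - we τ)‖ ^ 2 = π / Real.cosh (π * τ) := by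
  have h1 := Complex.Gamma_mul_Gamma_one_sub (1 - we τ)
  have h2 : (1 : ℂ) - (1 - we τ) = (starRingEnd ℂ) (1 - we τ) := by
    apply Complex.ext
    · simp [we]
      norm_num
    · simp [we]
  rw [h2, Complex.Gamma_conj, Complex.mul_conj] at h1
  have h3 : Complex.sin (π * (1 - we τ)) = ((Real.cosh (π * τ) : ℝ) : ℂ) := by
    have : (π : ℂ) * (1 - we τ) = π / 2 - (π * τ : ℝ) * Complex.I := by
      unfold we
      push_cast
      ring
    rw [this, Complex.sin_pi_div_two_sub, Complex.cos_mul_I, Complex.ofReal_cosh]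
  rw [h3] at h1
  rw [← Complex.normSq_eq_norm_sq]
  exact_mod_cast h1

lemma gamma_ne (τ : ℝ) : Complex.Gamma (1 - we τ) ≠ 0 := by
  intro h0
  have h1 := norm_gamma_sq τ
  rw [h0, norm_zero, zero_pow two_ne_zero] at h1
  have h2 : 0 < π / Real.cosh (π * τ) := div_pos Real.pi_pos (Real.cosh_pos _)
  linarith

lemma cw_norm_sq (τ : ℝ) : ‖cw τ‖ ^ 2 ≤ Real.exp (π * |τ|) := by
  unfold cw
  rw [norm_div, div_pow, norm_gamma_sq, Complex.norm_cpow_eq_rpow_re_of_pos Real.pi_pos]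
  have h1 : (-we τ).re = -(1 / 2) := by
    rw [Complex.neg_re, we_re]
  rw [h1, ← Real.rpow_natCast, ← Real.rpow_mul Real.pi_pos.le]
  norm_num
  rw [Real.rpow_neg_one]
  have h2 : Real.cosh (π * τ) ≤ Real.exp (π * |τ|) := by
    rw [← Real.cosh_abs, abs_mul, abs_of_pos Real.pi_pos]
    have h3 : 0 ≤ π * |τ| := by positivity
    rw [Real.cosh_eq]
    have h4 : Real.exp (-(π * |τ|)) ≤ Real.exp (π * |τ|) := Real.exp_le_exp.2 (by linarith)
    linarith
  have h5 : (1 : ℝ) ≤ π := by linarith [Real.pi_gt_three]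
  have h6 : 0 < Real.cosh (π * τ) := Real.cosh_pos _
  have h7 : π⁻¹ ≤ 1 := inv_le_one_of_one_le₀ h5
  rw [div_div_eq_mul_div, div_le_iff₀ Real.pi_pos]
  calc π⁻¹ * Real.cosh (π * τ) ≤ 1 * Real.exp (π * |τ|) := by gcongr
    _ ≤ Real.exp (π * |τ|) * π := by
        rw [one_mul]
        exact le_mul_of_one_le_right (Real.exp_pos _).le h5

lemma gamma_piece {a : ℝ} (ha : 0 < a) (τ : ℝ) :
    ∫ s in Ioi (0 : ℝ), (s : ℂ) ^ (-we τ) * ((a * Real.exp (-π * (a * (1 + s))) : ℝ) : ℂ) =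
      Complex.Gamma (1 - we τ) * (π : ℂ) ^ (we τ - 1) * (a : ℂ) ^ (we τ) *
        ((Real.exp (-π * a) : ℝ) : ℂ) := by
  have hre : 0 < (1 - we τ).re := by
    rw [Complex.sub_re, we_re]
    norm_num
  have hpa : 0 < π * a := by positivity
  have h1 := Complex.integral_cpow_mul_exp_neg_mul_Ioi (a := 1 - we τ) (r := π * a) hre hpa
  have h2 : ∀ s : ℝ, (s : ℂ) ^ (-we τ) * ((a * Real.exp (-π * (a * (1 + s))) : ℝ) : ℂ) =
      ((a * Real.exp (-π * a) : ℝ) : ℂ) *
        ((s : ℂ) ^ (1 - we τ - 1) * Complex.exp (-(((π * a : ℝ) : ℂ) * s))) := by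
    intro s
    have e1 : (1 : ℂ) - we τ - 1 = -we τ := by ring
    have e2 : Real.exp (-π * (a * (1 + s))) = Real.exp (-π * a) * Real.exp (-(π * a * s)) := by
      rw [← Real.exp_add]
      congr 1
      ring
    rw [e1, e2]
    push_cast
    ring
  simp_rw [h2]
  rw [integral_const_mul, h1]
  have hane : (a : ℂ) ≠ 0 := by exact_mod_cast ha.ne'
  have hpne : (π : ℂ) ≠ 0 := by exact_mod_cast Real.pi_ne_zero
  have h3 : (1 / ((π * a : ℝ) : ℂ)) ^ (1 - we τ) = (π : ℂ) ^ (we τ - 1) * (a : ℂ) ^ (we τ - 1) := by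
    have e3 : (1 / ((π * a : ℝ) : ℂ)) = ((1 / (π * a) : ℝ) : ℂ) := by push_cast; ring
    have hne : ((1 / (π * a) : ℝ) : ℂ) ≠ 0 := by
      have : (1 / (π * a) : ℝ) ≠ 0 := by positivity
      exact_mod_cast this
    rw [e3, Complex.cpow_def_of_ne_zero hne, Complex.cpow_def_of_ne_zero hpne,
      Complex.cpow_def_of_ne_zero hane, ← Complex.ofReal_log (by positivity),
      ← Complex.ofReal_log Real.pi_pos.le, ← Complex.ofReal_log ha.le, ← Complex.exp_add,
      one_div, Real.log_inv, Real.log_mul Real.pi_ne_zero ha.ne']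
    congr 1
    push_cast
    ring
  rw [h3]
  have h4 : (a : ℂ) ^ (we τ) = (a : ℂ) ^ (we τ - 1) * a := by
    rw [Complex.cpow_sub _ _ hane, Complex.cpow_one]
    field_simp
  rw [h4]
  push_cast
  ring

/-- the weight `s^{-1/2}/(1+s)` -/
noncomputable def rhw (s : ℝ) : ℝ := s ^ (-(1 / 2) : ℝ) / (1 + s)

lemma rhw_nonneg {s : ℝ} (hs : 0 < s) : 0 ≤ rhw s := by
  unfold rhw; positivity

lemma rhw_int : IntegrableOn rhw (Ioi 0) := by
  have h0 : Ioi (0 : ℝ) = Ioc 0 1 ∪ Ioi 1 := (Ioc_union_Ioi_eq_Ioi zero_le_one).symm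
  have hm : Measurable rhw := by unfold rhw; fun_prop
  rw [h0]
  refine IntegrableOn.union ?_ ?_
  · have h1 : IntegrableOn (fun s : ℝ => s ^ (-(1 / 2) : ℝ)) (Ioc 0 1) := by
      have := intervalIntegral.intervalIntegrable_rpow' (a := 0) (b := 1) (r := -(1 / 2))
        (by norm_num)
      rwa [intervalIntegrable_iff_integrableOn_Ioc_of_le zero_le_one] at this
    refine Integrable.mono' h1 hm.aestronglyMeasurable ?_
    filter_upwards [ae_restrict_mem measurableSet_Ioc] with s hs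
    rw [Real.norm_of_nonneg (rhw_nonneg hs.1)]
    unfold rhw
    exact div_le_self (by have := hs.1; positivity) (by linarith [hs.1])
  · have h1 : IntegrableOn (fun s : ℝ => s ^ (-(3 / 2) : ℝ)) (Ioi 1) :=
      integrableOn_Ioi_rpow_of_lt (by norm_num) one_pos
    refine Integrable.mono' h1 hm.aestronglyMeasurable ?_
    filter_upwards [ae_restrict_mem measurableSet_Ioi] with s hs
    have hs1 : (1 : ℝ) < s := hs
    have hs0 : 0 < s := by linarith
    rw [Real.norm_of_nonneg (rhw_nonneg hs0)]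
    unfold rhw
    rw [div_le_iff₀ (by linarith)]
    have e1 : s ^ (-(3 / 2) : ℝ) * (1 + s) = s ^ (-(3 / 2) : ℝ) + s ^ (-(1 / 2) : ℝ) := by
      rw [mul_add, mul_one]
      congr 1
      rw [show (-(1 / 2) : ℝ) = -(3 / 2) + 1 by norm_num, Real.rpow_add hs0, Real.rpow_one]
    rw [e1]
    have : 0 ≤ s ^ (-(3 / 2) : ℝ) := by positivity
    linarith

/-- total mass of the weight -/
noncomputable def rho0 : ℝ := ∫ s in Ioi (0 : ℝ), rhw s

lemma rho0_nonneg : 0 ≤ rho0 := setIntegral_nonneg measurableSet_Ioi fun _ hs => rhw_nonneg hs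

/-- the complex window functional -/
noncomputable def kc (τ : ℝ) (k : ℝ → ℝ) (T : ℝ) : ℂ :=
  (kap (ph 1 τ k) T : ℂ) + Complex.I * (kap (ph (-Complex.I) τ k) T : ℂ)

end P004E
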