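import Vale.Agent.P004E.H394.K3

/-!
# P004E, module S1: the fractional kernel as a superposition
-/

open Real MeasureTheory Set Filter
open scoped ENNReal Topology

namespace P004E

open P004G

lemma Kn.integrable_mul {n : ℕ} {k : ℝ → ℝ} (hk : Kn n k) {f : ℝ → ℂ} (hf : Continuous f) :
    Integrable fun x => f x * (k x : ℂ) := by
  have h1 : Continuous fun x => f x * (k x : ℂ) :=
    hf.mul (Complex.continuous_ofReal.comp hk.cont)
  refine h1.integrable_of_hasCompactSupport ?_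
  refine HasCompactSupport.intro (isCompact_Icc (a := (0 : ℝ)) (b := 1)) fun x hx => ?_
  simp [hk.eq_zero hx]

lemma kc_eq {k : ℝ → ℝ} (hk : Kn 1 k) (τ T : ℝ) : kc τ k T =
    ∫ x : ℝ, ((T * Real.exp x * Real.exp (-π * (T * Real.exp x)) : ℝ) : ℂ) *
      Complex.exp (-we τ * x) * ((deriv k x : ℝ) : ℂ) := by
  have hd : Kn 0 (deriv k) := hk.deriv
  have e1 : ∀ c : ℂ, ((kap (ph c τ k) T : ℝ) : ℂ) =
      ∫ x : ℝ, (((T * Real.exp x * Real.exp (-π * (T * Real.exp x)) : ℝ) : ℂ) * (sf c τ x : ℂ)) *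
        ((deriv k x : ℝ) : ℂ) := by
    intro c
    unfold kap
    rw [← integral_complex_ofReal]
    refine integral_congr_ae (Eventually.of_forall fun x => ?_)
    simp only [ph]
    push_cast
    ring
  have hsf : ∀ c : ℂ, Continuous fun x : ℝ =>
      (((T * Real.exp x * Real.exp (-π * (T * Real.exp x)) : ℝ) : ℂ) * (sf c τ x : ℂ)) := by
    intro c
    have h1 : Continuous (sf c τ) := (sf_smooth c τ 0).continuous
    fun_prop
  unfold kc
  rw [e1, e1, ← integral_const_mul, ← integral_add (hd.integrable_mul (hsf 1))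
    ((hd.integrable_mul (hsf (-Complex.I))).const_mul _)]
  refine integral_congr_ae (Eventually.of_forall fun x => ?_)
  simp only [sf]
  have h2 : ((1 * Complex.exp (-(1 / 2 + τ * Complex.I) * x)).re : ℂ) +
      Complex.I * ((-Complex.I * Complex.exp (-(1 / 2 + τ * Complex.I) * x)).re : ℂ) =
      Complex.exp (-we τ * x) := by
    have h3 : -(1 / 2 + (τ : ℂ) * Complex.I) * (x : ℂ) = -we τ * x := by unfold we; ring
    rw [h3]
    set E := Complex.exp (-we τ * x) with hE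
    apply Complex.ext <;> simp
  linear_combination (((T * Real.exp x * Real.exp (-π * (T * Real.exp x)) : ℝ) : ℂ) *
    ((deriv k x : ℝ) : ℂ)) * h2

/-- the two-variable integrand -/
noncomputable def G2 (τ : ℝ) (k : ℝ → ℝ) (t s x : ℝ) : ℂ :=
  (s : ℂ) ^ (-we τ) * ((t * Real.exp x * Real.exp (-π * (t * Real.exp x * (1 + s))) : ℝ) : ℂ) *
    Complex.exp (-we τ * x) * ((deriv k x : ℝ) : ℂ)

lemma G2_meas {k : ℝ → ℝ} (hk : Kn 1 k) (τ t : ℝ) : Measurable (Function.uncurry (G2 τ k t)) := by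
  have hd : Continuous (deriv k) := (hk.deriv).cont
  unfold G2 Function.uncurry
  have h1 : Measurable (fun p : ℝ × ℝ => ((p.1 : ℝ) : ℂ) ^ (-we τ)) := by fun_prop
  have h2 : Measurable (fun p : ℝ × ℝ =>
      ((t * Real.exp p.2 * Real.exp (-π * (t * Real.exp p.2 * (1 + p.1))) : ℝ) : ℂ)) := by fun_prop
  have h3 : Measurable (fun p : ℝ × ℝ => Complex.exp (-we τ * (p.2 : ℂ))) := by fun_prop
  have h4 : Measurable (fun p : ℝ × ℝ => ((deriv k p.2 : ℝ) : ℂ)) :=
    (Complex.continuous_ofReal.comp (hd.comp continuous_snd)).measurable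
  exact ((h1.mul h2).mul h3).mul h4

lemma norm_cexp_we (τ x : ℝ) : ‖Complex.exp (-we τ * x)‖ = Real.exp (-(x / 2)) := by
  rw [Complex.norm_exp]
  congr 1
  unfold we
  simp
  ring

lemma G2_norm {k : ℝ → ℝ} (hk : Kn 1 k) (τ : ℝ) {t s : ℝ} (ht : 0 < t) (hs : 0 < s) (x : ℝ) :
    ‖G2 τ k t s x‖ ≤ (s ^ (-(1 / 2) : ℝ) * Real.exp (-(π * t) * s ^ (1 : ℝ))) *
      (Icc (0 : ℝ) 1).indicator (fun _ => t * Real.exp 1) x := by
  have hd : Kn 0 (deriv k) := hk.deriv
  by_cases hx : x ∈ Icc (0 : ℝ) 1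
  · rw [indicator_of_mem hx]
    unfold G2
    rw [norm_mul, norm_mul, norm_mul, norm_cexp_we, Complex.norm_cpow_eq_rpow_re_of_pos hs,
      Complex.neg_re, we_re, Complex.norm_real, Complex.norm_real, Real.norm_eq_abs,
      Real.norm_eq_abs, abs_of_nonneg (by positivity :
        0 ≤ t * Real.exp x * Real.exp (-π * (t * Real.exp x * (1 + s)))), Real.rpow_one]
    have h1 : Real.exp x ≤ Real.exp 1 := Real.exp_le_exp.2 hx.2
    have h2 : 1 ≤ Real.exp x := by rw [← Real.exp_zero]; exact Real.exp_le_exp.2 hx.1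
    have h3 : Real.exp (-(x / 2)) ≤ 1 := by
      rw [Real.exp_le_one_iff]
      linarith [hx.1]
    have h4 := hd.abs_le x
    have h5 : Real.exp (-π * (t * Real.exp x * (1 + s))) ≤ Real.exp (-(π * t) * s) := by
      apply Real.exp_le_exp.2
      have h6 : t * s ≤ t * Real.exp x * (1 + s) := by
        have h7 : t * 1 ≤ t * Real.exp x := mul_le_mul_of_nonneg_left h2 ht.le
        nlinarith
      nlinarith [mul_le_mul_of_nonneg_left h6 Real.pi_pos.le]
    calc s ^ (-(1 / 2) : ℝ) * (t * Real.exp x * Real.exp (-π * (t * Real.exp x * (1 + s)))) *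
          Real.exp (-(x / 2)) * |deriv k x| ≤
        s ^ (-(1 / 2) : ℝ) * (t * Real.exp 1 * Real.exp (-(π * t) * s)) * 1 * 1 := by gcongr
      _ = _ := by ring
  · rw [indicator_of_notMem hx, mul_zero]
    unfold G2
    rw [hd.eq_zero hx]
    simp

lemma G2_int {k : ℝ → ℝ} (hk : Kn 1 k) (τ : ℝ) {t : ℝ} (ht : 0 < t) :
    Integrable (Function.uncurry (G2 τ k t)) ((volume.restrict (Ioi (0 : ℝ))).prod volume) := by
  have h1 : IntegrableOn (fun s : ℝ => s ^ (-(1 / 2) : ℝ) * Real.exp (-(π * t) * s ^ (1 : ℝ)))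
      (Ioi 0) := integrableOn_rpow_mul_exp_neg_mul_rpow (by norm_num) one_pos (by positivity)
  have h2 := Integrable.mul_prod (f := fun s : ℝ => s ^ (-(1 / 2) : ℝ) *
    Real.exp (-(π * t) * s ^ (1 : ℝ))) (g := (Icc (0 : ℝ) 1).indicator (fun _ => t * Real.exp 1))
    (μ := volume.restrict (Ioi (0 : ℝ))) (ν := volume) h1 (int_ind _)
  refine h2.mono' (G2_meas hk τ t).aestronglyMeasurable ?_
  have h3 : ∀ᵐ p : ℝ × ℝ ∂((volume.restrict (Ioi (0 : ℝ))).prod volume), p.1 ∈ Ioi (0 : ℝ) :=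
    Measure.quasiMeasurePreserving_fst.ae (ae_restrict_mem measurableSet_Ioi)
  filter_upwards [h3] with p hp
  exact G2_norm hk τ ht hp p.2

/-- fractional multiplication is a superposition of windows -/
lemma frac {k : ℝ → ℝ} (hk : Kn 1 k) (τ : ℝ) {t : ℝ} (ht : 0 < t) :
    (t : ℂ) ^ (we τ) * (kap k t : ℂ) =
      cw τ * ∫ s in Ioi (0 : ℝ), (s : ℂ) ^ (-we τ) / (1 + s) * kc τ k (t * (1 + s)) := by
  have htne : (t : ℂ) ≠ 0 := by exact_mod_cast ht.ne'
  have e1 : ∀ s ∈ Ioi (0 : ℝ), (s : ℂ) ^ (-we τ) / (1 + s) * kc τ k (t * (1 + s)) =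
      ∫ x : ℝ, G2 τ k t s x := by
    intro s hs
    have hs' : (0 : ℝ) < s := hs
    have h1s : (1 + (s : ℂ)) ≠ 0 := by
      have : (1 + s : ℝ) ≠ 0 := by positivity
      exact_mod_cast this
    rw [kc_eq hk, ← integral_const_mul]
    refine integral_congr_ae (Eventually.of_forall fun x => ?_)
    simp only [G2]
    have e3 : -π * (t * (1 + s) * Real.exp x) = -π * (t * Real.exp x * (1 + s)) := by ring
    rw [e3]
    push_cast
    field_simp
  rw [setIntegral_congr_fun measurableSet_Ioi e1, integral_integral_swap (G2_int hk τ ht)]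
  have e2 : ∀ x : ℝ, ∫ s in Ioi (0 : ℝ), G2 τ k t s x =
      (Complex.Gamma (1 - we τ) * (π : ℂ) ^ (we τ - 1) * (t : ℂ) ^ (we τ)) *
        (((Real.exp (-π * (t * Real.exp x)) * deriv k x : ℝ)) : ℂ) := by
    intro x
    have ha : 0 < t * Real.exp x := by positivity
    have h1 := gamma_piece ha τ
    have h2 : ∀ s : ℝ, G2 τ k t s x = (Complex.exp (-we τ * x) * ((deriv k x : ℝ) : ℂ)) *
        ((s : ℂ) ^ (-we τ) * ((t * Real.exp x * Real.exp (-π * (t * Real.exp x * (1 + s))) : ℝ) :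
          ℂ)) := by
      intro s
      unfold G2
      ring
    simp_rw [h2]
    rw [integral_const_mul, h1]
    have h3 : ((t * Real.exp x : ℝ) : ℂ) ^ (we τ) = (t : ℂ) ^ (we τ) * Complex.exp (we τ * x) := by
      have hne : ((t * Real.exp x : ℝ) : ℂ) ≠ 0 := by exact_mod_cast ha.ne'
      rw [Complex.cpow_def_of_ne_zero hne, Complex.cpow_def_of_ne_zero htne,
        ← Complex.ofReal_log ha.le, ← Complex.ofReal_log ht.le, ← Complex.exp_add,
        Real.log_mul ht.ne' (Real.exp_pos x).ne', Real.log_exp]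
      congr 1
      push_cast
      ring
    rw [h3]
    have h4 : Complex.exp (-we τ * x) * Complex.exp (we τ * x) = 1 := by
      rw [← Complex.exp_add]
      simp
    push_cast
    linear_combination (Complex.Gamma (1 - we τ) * (π : ℂ) ^ (we τ - 1) * (t : ℂ) ^ (we τ) *
      Complex.exp (-π * (t * Complex.exp x)) * ((deriv k x : ℝ) : ℂ)) * h4
  simp_rw [e2]
  rw [integral_const_mul, integral_complex_ofReal, kap_ibp hk ht]
  unfold cw
  have hg := gamma_ne τ
  have hpne : (π : ℂ) ≠ 0 := by exact_mod_cast Real.pi_ne_zero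
  have h5 : (π : ℂ) ^ (-we τ) * (π : ℂ) ^ (we τ - 1) * π = 1 := by
    rw [← Complex.cpow_add _ _ hpne]
    have : -we τ + (we τ - 1) = -1 := by ring
    rw [this, Complex.cpow_neg_one]
    field_simp
  push_cast
  rw [div_mul_eq_mul_div, eq_div_iff hg]
  linear_combination -((t : ℂ) ^ (we τ) * (kap k t : ℂ) * Complex.Gamma (1 - we τ)) * h5

end P004E
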