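import Vale.Agent.P004E.H394.K4

/-!
# P004E, module S1: the separated sums and their mean squares
-/

open Real MeasureTheory Set Filter
open scoped ENNReal Topology

namespace P004E

open P004G

/-- Cauchy-Schwarz with a weight -/
lemma cs_w {α : Type*} [MeasurableSpace α] (μ : Measure α) {ρ G : α → ℝ≥0∞} (hρ : AEMeasurable ρ μ)
    (hG : AEMeasurable G μ) :
    (∫⁻ x, ρ x * G x ∂μ) ^ 2 ≤ (∫⁻ x, ρ x ∂μ) * ∫⁻ x, ρ x * G x ^ 2 ∂μ := by
  have hpq : (2 : ℝ).HolderConjugate 2 := Real.HolderConjugate.two_two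
  have h1 := ENNReal.lintegral_mul_le_Lp_mul_Lq μ hpq
    (f := fun x => ρ x ^ (1 / 2 : ℝ)) (g := fun x => ρ x ^ (1 / 2 : ℝ) * G x)
    (hρ.pow_const _) ((hρ.pow_const _).mul hG)
  have e1 : ∀ x, ((fun x => ρ x ^ (1 / 2 : ℝ)) * fun x => ρ x ^ (1 / 2 : ℝ) * G x) x =
      ρ x * G x := by
    intro x
    simp only [Pi.mul_apply]
    rw [← mul_assoc, ← ENNReal.rpow_add_of_nonneg _ _ (by norm_num) (by norm_num)]
    norm_num
  have e2 : ∀ x, (ρ x ^ (1 / 2 : ℝ)) ^ (2 : ℝ) = ρ x := by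
    intro x
    rw [← ENNReal.rpow_mul]
    norm_num
  have e3 : ∀ x, (ρ x ^ (1 / 2 : ℝ) * G x) ^ (2 : ℝ) = ρ x * G x ^ 2 := by
    intro x
    rw [ENNReal.mul_rpow_of_nonneg _ _ (by norm_num : (0 : ℝ) ≤ 2), e2]
    congr 1
    exact_mod_cast ENNReal.rpow_natCast (G x) 2
  simp_rw [e1, e2, e3] at h1
  calc (∫⁻ x, ρ x * G x ∂μ) ^ 2 ≤ ((∫⁻ x, ρ x ∂μ) ^ (1 / 2 : ℝ) *
        (∫⁻ x, ρ x * G x ^ 2 ∂μ) ^ (1 / 2 : ℝ)) ^ 2 := by gcongr
    _ = _ := by
        rw [mul_pow, ← ENNReal.rpow_natCast, ← ENNReal.rpow_natCast, ← ENNReal.rpow_mul,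
          ← ENNReal.rpow_mul]
        norm_num

lemma Kn0_ph {k : ℝ → ℝ} (hk : Kn 1 k) {c : ℂ} (hc : ‖c‖ ≤ 1) (τ : ℝ) : Kn 0 (ph c τ k) := by
  have h := Kn_ph (n := 0) hk hc τ
  simpa [Mt] using h

lemma norm_kc_le {k : ℝ → ℝ} (hk : Kn 1 k) (τ : ℝ) {T : ℝ} (hT : 0 ≤ T) :
    ‖kc τ k T‖ ≤ 2 * Real.exp 1 * Real.exp (-T) := by
  have h1 := kap_abs_le (Kn0_ph hk (c := 1) (by simp) τ) hT
  have h2 := kap_abs_le (Kn0_ph hk (c := -Complex.I) (by simp) τ) hT
  have h3 : T * Real.exp (-(π * T)) ≤ Real.exp (-T) := by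
    have h4 : T ≤ Real.exp T := by linarith [Real.add_one_le_exp T]
    calc T * Real.exp (-(π * T)) ≤ Real.exp T * Real.exp (-(π * T)) := by gcongr
      _ = Real.exp (T - π * T) := by rw [← Real.exp_add]; congr 1
      _ ≤ Real.exp (-T) := by
          apply Real.exp_le_exp.2
          nlinarith [Real.pi_gt_three]
  unfold kc
  refine (norm_add_le _ _).trans ?_
  rw [norm_mul, Complex.norm_I, one_mul, Complex.norm_real, Complex.norm_real, Real.norm_eq_abs,
    Real.norm_eq_abs]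
  have h5 : Real.exp 1 * T * Real.exp (-(π * T)) ≤ Real.exp 1 * Real.exp (-T) := by
    rw [mul_assoc]
    gcongr
  linarith

variable [Crv]

/-- the separated sum -/
noncomputable def Sq (h : ℤ) (q : ℕ) (v τ : ℝ) (k : ℝ → ℝ) : ℂ :=
  ∑' n : ℕ, ((sc h q n / n : ℝ) : ℂ) * (((n * v : ℝ) : ℂ) ^ (we τ) * (kap k (n * v) : ℂ))

lemma sc_zero (h : ℤ) (q : ℕ) : sc h q 0 = 0 := by
  have := abs_sc_le h q 0
  simpa using this

lemma abs_sc_div (h : ℤ) (q n : ℕ) : |sc h q n / n| ≤ n := by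
  rcases Nat.eq_zero_or_pos n with h0 | h0
  · subst h0; simp
  · have hn : (0 : ℝ) < n := by exact_mod_cast h0
    rw [abs_div, abs_of_pos hn, div_le_iff₀ hn]
    have := abs_sc_le h q n
    nlinarith

lemma measurable_Sw {k : ℝ → ℝ} (hk : Continuous k) (h : ℤ) (q : ℕ) :
    Measurable fun v : ℝ => Sw h q v k := by
  unfold Sw
  have h1 : Measurable (Function.uncurry fun v x : ℝ =>
      v * Real.exp x * Uf h q (v * Real.exp x) * k x) := by
    unfold Function.uncurry
    have hU := H3.measurable_Uf h q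
    have h2 : Measurable fun p : ℝ × ℝ => p.1 * Real.exp p.2 := by fun_prop
    have h3 : Measurable fun p : ℝ × ℝ => k p.2 := (hk.comp continuous_snd).measurable
    exact (h2.mul (hU.comp h2)).mul h3
  exact (h1.stronglyMeasurable.integral_prod_right).measurable

/-- `kc` in the series -/
lemma series_kc {k : ℝ → ℝ} (hk : Kn 1 k) (h : ℤ) (q : ℕ) (τ : ℝ) {v : ℝ} (hv : 0 < v) :
    ∑' n : ℕ, ((sc h q n / n : ℝ) : ℂ) * kc τ k (n * v) =
      (Sw h q v (ph 1 τ k) : ℂ) + Complex.I * (Sw h q v (ph (-Complex.I) τ k) : ℂ) := by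
  have k1 := Kn0_ph hk (c := 1) (by simp) τ
  have k2 := Kn0_ph hk (c := -Complex.I) (by simp) τ
  have hs : ∀ {k' : ℝ → ℝ}, Kn 0 k' → Summable fun n : ℕ => sc h q n / n * kap k' (n * v) := by
    intro k' hk'
    have hsum := Real.summable_pow_mul_exp_neg_nat_mul 2 (by positivity : 0 < π * v)
    refine Summable.of_norm_bounded (hsum.mul_left (Real.exp 1 * v)) fun n => ?_
    rw [Real.norm_eq_abs, abs_mul]
    have h1 := abs_sc_div h q n
    have h2 := kap_abs_le hk' (by positivity : (0 : ℝ) ≤ n * v)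
    calc |sc h q n / n| * |kap k' (n * v)| ≤ n * (Real.exp 1 * (n * v) *
          Real.exp (-(π * (n * v)))) := by gcongr
      _ = _ := by
          rw [show -(π * ((n : ℝ) * v)) = -(π * v) * n by ring]
          ring
  rw [Sw_eq k1 h q hv, Sw_eq k2 h q hv, Complex.ofReal_tsum, Complex.ofReal_tsum, ← tsum_mul_left,
    ← Summable.tsum_add]
  · refine tsum_congr fun n => ?_
    unfold kc
    push_cast
    ring
  · exact_mod_cast (hs k1)
  · exact (Summable.mul_left _ (by exact_mod_cast (hs k2)))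

/-- the separated sum as a superposition -/
lemma Sq_eq {k : ℝ → ℝ} (hk : Kn 1 k) (h : ℤ) (q : ℕ) (τ : ℝ) {v : ℝ} (hv : 0 < v) :
    Sq h q v τ k = cw τ * ∫ s in Ioi (0 : ℝ), (s : ℂ) ^ (-we τ) / (1 + s) *
      ((Sw h q (v * (1 + s)) (ph 1 τ k) : ℂ) +
        Complex.I * (Sw h q (v * (1 + s)) (ph (-Complex.I) τ k) : ℂ)) := by
  set f : ℕ → ℝ → ℂ := fun n s => (s : ℂ) ^ (-we τ) / (1 + s) *
    (((sc h q n / n : ℝ) : ℂ) * kc τ k (n * (v * (1 + s)))) with hf
  have hb : ∀ n, ∀ s ∈ Ioi (0 : ℝ), ‖f n s‖ ≤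
      rhw s * ((n : ℝ) ^ 1 * Real.exp (-v * n) * (2 * Real.exp 1)) := by
    intro n s hs
    have hs' : (0 : ℝ) < s := hs
    simp only [hf]
    rw [norm_mul, norm_mul, norm_div, Complex.norm_cpow_eq_rpow_re_of_pos hs', Complex.neg_re,
      we_re, Complex.norm_real, Real.norm_eq_abs]
    have h1 : ‖(1 + s : ℂ)‖ = 1 + s := by
      rw [show (1 + s : ℂ) = ((1 + s : ℝ) : ℂ) by push_cast; ring, Complex.norm_real,
        Real.norm_of_nonneg (by positivity)]
    rw [h1]
    have h2 := abs_sc_div h q n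
    have h3 := norm_kc_le hk τ (T := n * (v * (1 + s))) (by positivity)
    have h4 : Real.exp (-(n * (v * (1 + s)))) ≤ Real.exp (-v * n) := by
      apply Real.exp_le_exp.2
      have : (0 : ℝ) ≤ n * (v * s) := by positivity
      nlinarith
    have h5 : (s ^ (-(1 / 2 : ℝ)) / (1 + s)) = rhw s := rfl
    rw [h5]
    have h6 := rhw_nonneg hs'
    calc rhw s * (|sc h q n / n| * ‖kc τ k (n * (v * (1 + s)))‖) ≤
          rhw s * (n * (2 * Real.exp 1 * Real.exp (-v * n))) := by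
          gcongr
          exact h3.trans (by gcongr)
      _ = _ := by ring
  have hkcm : Measurable (kc τ k) := by
    unfold kc kap
    have hp : ∀ c : ℂ, ‖c‖ ≤ 1 → Measurable fun T : ℝ =>
        ∫ x, T * Real.exp x * Real.exp (-π * (T * Real.exp x)) * ph c τ k x := by
      intro c hc
      have hcont := (Kn0_ph hk hc τ).cont
      have h1 : Measurable (Function.uncurry fun T x : ℝ =>
          T * Real.exp x * Real.exp (-π * (T * Real.exp x)) * ph c τ k x) := by
        unfold Function.uncurry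
        have h3 : Measurable fun p : ℝ × ℝ => ph c τ k p.2 := (hcont.comp continuous_snd).measurable
        have h2 : Measurable fun p : ℝ × ℝ =>
          p.1 * Real.exp p.2 * Real.exp (-π * (p.1 * Real.exp p.2)) := by fun_prop
        exact h2.mul h3
      exact (h1.stronglyMeasurable.integral_prod_right).measurable
    have h1 := hp 1 (by simp)
    have h2 := hp (-Complex.I) (by simp)
    exact (Complex.measurable_ofReal.comp h1).add
      ((Complex.measurable_ofReal.comp h2).const_mul _)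
  have hm : ∀ n, Measurable (f n) := by
    intro n
    rw [hf]
    have h1 : Measurable fun s : ℝ => (s : ℂ) ^ (-we τ) / (1 + s) := by fun_prop
    have h2 : Measurable fun s : ℝ => kc τ k (n * (v * (1 + s))) := hkcm.comp (by fun_prop)
    exact h1.mul (h2.const_mul _)
  have hs1 := Real.summable_pow_mul_exp_neg_nat_mul 1 hv
  have hint : ∀ n, Integrable (f n) (volume.restrict (Ioi 0)) := by
    intro n
    refine Integrable.mono' (rhw_int.mul_const ((n : ℝ) ^ 1 * Real.exp (-v * n) *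
      (2 * Real.exp 1))) (hm n).aestronglyMeasurable ?_
    filter_upwards [ae_restrict_mem measurableSet_Ioi] with s hs
    exact hb n s hs
  have hsum : Summable fun n => ∫ s in Ioi (0 : ℝ), ‖f n s‖ := by
    refine Summable.of_nonneg_of_le (fun n => integral_nonneg fun _ => norm_nonneg _) (fun n => ?_)
      ((hs1.mul_right (2 * Real.exp 1)).mul_left rho0)
    have h1 : ∫ s in Ioi (0 : ℝ), ‖f n s‖ ≤ ∫ s in Ioi (0 : ℝ),
        rhw s * ((n : ℝ) ^ 1 * Real.exp (-v * n) * (2 * Real.exp 1)) :=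
      setIntegral_mono_on (hint n).norm (rhw_int.mul_const _) measurableSet_Ioi (hb n)
    refine h1.trans (le_of_eq ?_)
    rw [integral_mul_const]
    rfl
  have key := integral_tsum_of_summable_integral_norm hint hsum
  have e1 : ∀ s ∈ Ioi (0 : ℝ), (s : ℂ) ^ (-we τ) / (1 + s) *
      ((Sw h q (v * (1 + s)) (ph 1 τ k) : ℂ) +
        Complex.I * (Sw h q (v * (1 + s)) (ph (-Complex.I) τ k) : ℂ)) = ∑' n, f n s := by
    intro s hs
    have hs' : (0 : ℝ) < s := hs
    rw [← series_kc hk h q τ (by positivity : 0 < v * (1 + s)), ← tsum_mul_left]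
  rw [setIntegral_congr_fun measurableSet_Ioi e1, ← key, ← tsum_mul_left]
  unfold Sq
  refine tsum_congr fun n => ?_
  rcases Nat.eq_zero_or_pos n with h0 | h0
  · subst h0
    simp [hf, sc_zero]
  · have hn : (0 : ℝ) < n := by exact_mod_cast h0
    rw [frac hk τ (by positivity : 0 < n * v)]
    simp only [hf]
    have e2 : ∀ s : ℝ, (s : ℂ) ^ (-we τ) / (1 + s) *
        (((sc h q n / n : ℝ) : ℂ) * kc τ k (n * (v * (1 + s)))) = ((sc h q n / n : ℝ) : ℂ) *
        ((s : ℂ) ^ (-we τ) / (1 + s) * kc τ k (n * v * (1 + s))) := by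
      intro s
      rw [show (n : ℝ) * (v * (1 + s)) = n * v * (1 + s) by ring]
      ring
    simp_rw [e2]
    rw [integral_const_mul]
    ring

end P004E
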