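import Vale.Agent.P004E.H394.K5

/-!
# P004E, module S1: mean squares of the separated sums
-/

open Real MeasureTheory Set Filter
open scoped ENNReal Topology

namespace P004E

open P004G

variable [Crv]

lemma Sw_smul (h : ℤ) (q : ℕ) (v M : ℝ) (k : ℝ → ℝ) :
    Sw h q v (fun x => M * k x) = M * Sw h q v k := by
  unfold Sw
  rw [← integral_const_mul]
  refine integral_congr_ae (Eventually.of_forall fun x => ?_)
  simp only
  ring

lemma Sw_div (h : ℤ) (q : ℕ) (v : ℝ) {M : ℝ} (hM : M ≠ 0) (k : ℝ → ℝ) :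
    Sw h q v k = M * Sw h q v (fun x => k x / M) := by
  rw [← Sw_smul]
  congr 1
  funext x
  field_simp

/-- the mean square of the separated sums -/
lemma Sq_ms {ι : Type*} {n : ℕ} {k : ℝ → ℝ} (hk : Kn (n + 1) k) (τ : ℝ) {v : ℝ} (hv : 0 < v)
    (J : Finset ι) (w : ι → ℝ≥0∞) (hh : ι → ℤ) (q : ℕ) (B : ℝ≥0∞)
    (hB : ∀ u' : ℝ, v ≤ u' → ∀ k', Kn n k' →
      ∑ j ∈ J, w j * ENNReal.ofReal (Sw (hh j) q u' k' ^ 2) ≤ B) :
    ∑ j ∈ J, w j * ‖Sq (hh j) q v τ k‖ₑ ^ 2 ≤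
      ENNReal.ofReal (4 * rho0 ^ 2 * Real.exp (π * |τ|) * Mt n τ ^ 2) * B := by
  have hk1 : Kn 1 k := hk.mono (by omega)
  set M := Mt n τ with hM
  have hMpos : 0 < M := Mt_pos n τ
  set g : ℂ → ι → ℝ → ℝ≥0∞ := fun c j s => ‖Sw (hh j) q (v * (1 + s)) (ph c τ k)‖ₑ with hg
  have hgm : ∀ c : ℂ, ‖c‖ ≤ 1 → ∀ j, Measurable (g c j) := by
    intro c hc j
    have h1 := measurable_Sw (Kn0_ph hk1 hc τ).cont (hh j) q
    have h2 : Measurable fun s : ℝ => v * (1 + s) := by fun_prop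
    exact (h1.comp h2).enorm
  set ρ : ℝ → ℝ≥0∞ := fun s => ENNReal.ofReal (rhw s) with hρ
  have hρm : Measurable ρ := by
    have : Measurable rhw := by unfold rhw; fun_prop
    exact this.ennreal_ofReal
  have hρ0 : ∫⁻ s in Ioi (0 : ℝ), ρ s = ENNReal.ofReal rho0 := by
    rw [hρ, rho0, ofReal_integral_eq_lintegral_ofReal rhw_int]
    filter_upwards [ae_restrict_mem measurableSet_Ioi] with s hs
    exact rhw_nonneg hs
  have h1c : ‖(1 : ℂ)‖ ≤ 1 := by simp
  have hIc : ‖(-Complex.I : ℂ)‖ ≤ 1 := by simp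
  -- the bound for one `j`
  have hone : ∀ j, ‖Sq (hh j) q v τ k‖ₑ ^ 2 ≤ ‖cw τ‖ₑ ^ 2 * (ENNReal.ofReal rho0 *
      ∫⁻ s in Ioi (0 : ℝ), ρ s * (g 1 j s + g (-Complex.I) j s) ^ 2) := by
    intro j
    rw [Sq_eq hk1 (hh j) q τ hv, enorm_mul, mul_pow]
    gcongr
    rw [← hρ0]
    refine le_trans ?_ (cs_w (volume.restrict (Ioi (0 : ℝ))) hρm.aemeasurable
      ((hgm 1 h1c j).add (hgm _ hIc j)).aemeasurable)
    gcongr
    refine (enorm_integral_le_lintegral_enorm _).trans (setLIntegral_mono' measurableSet_Ioi ?_)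
    intro s hs
    have hs' : (0 : ℝ) < s := hs
    rw [enorm_mul]
    have e1 : ‖(s : ℂ) ^ (-we τ) / (1 + s)‖ₑ = ρ s := by
      rw [← ofReal_norm, norm_div, Complex.norm_cpow_eq_rpow_re_of_pos hs', Complex.neg_re, we_re]
      have h1 : ‖(1 + s : ℂ)‖ = 1 + s := by
        rw [show (1 + s : ℂ) = ((1 + s : ℝ) : ℂ) by push_cast; ring, Complex.norm_real,
          Real.norm_of_nonneg (by positivity)]
      rw [h1]
      rfl
    rw [e1]
    gcongr
    refine (enorm_add_le _ _).trans ?_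
    rw [enorm_mul]
    have e2 : ‖Complex.I‖ₑ = 1 := by
      rw [← ofReal_norm, Complex.norm_I, ENNReal.ofReal_one]
    rw [e2, one_mul]
    have e3 : ∀ x : ℝ, ‖(x : ℂ)‖ₑ = ‖x‖ₑ := by
      intro x
      rw [← ofReal_norm, ← ofReal_norm, Complex.norm_real]
    rw [e3, e3]
  -- the sum over `j` for fixed `s`
  have hsum : ∀ s ∈ Ioi (0 : ℝ), ∑ j ∈ J, w j * (g 1 j s + g (-Complex.I) j s) ^ 2 ≤
      ENNReal.ofReal (4 * M ^ 2) * B := by
    intro s hs
    have hs' : (0 : ℝ) < s := hs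
    have hu' : v ≤ v * (1 + s) := by nlinarith
    have hgc : ∀ c : ℂ, ‖c‖ ≤ 1 → ∑ j ∈ J, w j * g c j s ^ 2 ≤ ENNReal.ofReal (M ^ 2) * B := by
      intro c hc
      have h1 := hB (v * (1 + s)) hu' _ (Kn_ph hk hc τ)
      calc ∑ j ∈ J, w j * g c j s ^ 2 = ∑ j ∈ J, ENNReal.ofReal (M ^ 2) * (w j *
            ENNReal.ofReal (Sw (hh j) q (v * (1 + s)) (fun x => ph c τ k x / Mt n τ) ^ 2)) := by
            refine Finset.sum_congr rfl fun j _ => ?_
            simp only [hg]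
            rw [Sw_div (hh j) q (v * (1 + s)) hMpos.ne' (ph c τ k), enorm_mul, mul_pow,
              Real.enorm_eq_ofReal hMpos.le, ← ENNReal.ofReal_pow hMpos.le,
              Real.enorm_eq_ofReal_abs, ← ENNReal.ofReal_pow (abs_nonneg _), sq_abs]
            ring
        _ = ENNReal.ofReal (M ^ 2) * ∑ j ∈ J, (w j *
            ENNReal.ofReal (Sw (hh j) q (v * (1 + s)) (fun x => ph c τ k x / Mt n τ) ^ 2)) :=
            (Finset.mul_sum _ _ _).symm
        _ ≤ _ := by gcongr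
    have h2 : ∀ a b : ℝ≥0∞, (a + b) ^ 2 ≤ 2 * (a ^ 2 + b ^ 2) := by
      intro a b
      have h3 := ENNReal.rpow_add_le_mul_rpow_add_rpow a b (p := 2) (by norm_num)
      have e4 : ∀ x : ℝ≥0∞, x ^ (2 : ℝ) = x ^ 2 := fun x => by
        exact_mod_cast ENNReal.rpow_natCast x 2
      rw [e4, e4, e4] at h3
      refine h3.trans (le_of_eq ?_)
      norm_num
    calc ∑ j ∈ J, w j * (g 1 j s + g (-Complex.I) j s) ^ 2 ≤
          ∑ j ∈ J, w j * (2 * (g 1 j s ^ 2 + g (-Complex.I) j s ^ 2)) := by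
          gcongr with j _
          exact h2 _ _
      _ = 2 * (∑ j ∈ J, w j * g 1 j s ^ 2 + ∑ j ∈ J, w j * g (-Complex.I) j s ^ 2) := by
          rw [← Finset.sum_add_distrib, Finset.mul_sum]
          refine Finset.sum_congr rfl fun j _ => ?_
          ring
      _ ≤ 2 * (ENNReal.ofReal (M ^ 2) * B + ENNReal.ofReal (M ^ 2) * B) := by
          gcongr
          · exact hgc 1 h1c
          · exact hgc _ hIc
      _ = ENNReal.ofReal (4 * M ^ 2) * B := by
          rw [ENNReal.ofReal_mul (by norm_num)]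
          have : ENNReal.ofReal 4 = 4 := by
            rw [show (4 : ℝ) = ((4 : ℕ) : ℝ) by norm_num, ENNReal.ofReal_natCast]; norm_num
          rw [this]
          ring
  calc ∑ j ∈ J, w j * ‖Sq (hh j) q v τ k‖ₑ ^ 2 ≤ ∑ j ∈ J, w j * (‖cw τ‖ₑ ^ 2 *
        (ENNReal.ofReal rho0 * ∫⁻ s in Ioi (0 : ℝ), ρ s * (g 1 j s + g (-Complex.I) j s) ^ 2)) := by
        gcongr with j _
        exact hone j
    _ = ‖cw τ‖ₑ ^ 2 * (ENNReal.ofReal rho0 * ∑ j ∈ J,
        w j * ∫⁻ s in Ioi (0 : ℝ), ρ s * (g 1 j s + g (-Complex.I) j s) ^ 2) := by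
        rw [Finset.mul_sum, Finset.mul_sum]
        refine Finset.sum_congr rfl fun j _ => ?_
        ring
    _ ≤ ‖cw τ‖ₑ ^ 2 * (ENNReal.ofReal rho0 * ∫⁻ s in Ioi (0 : ℝ),
        ρ s * ∑ j ∈ J, w j * (g 1 j s + g (-Complex.I) j s) ^ 2) := by
        gcongr
        have e1 : ∀ s, ρ s * ∑ j ∈ J, w j * (g 1 j s + g (-Complex.I) j s) ^ 2 =
            ∑ j ∈ J, w j * (ρ s * (g 1 j s + g (-Complex.I) j s) ^ 2) := by
          intro s
          rw [Finset.mul_sum]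
          refine Finset.sum_congr rfl fun j _ => ?_
          ring
        have hmj : ∀ j, Measurable fun s => ρ s * (g 1 j s + g (-Complex.I) j s) ^ 2 := fun j =>
          hρm.mul (((hgm 1 h1c j).add (hgm _ hIc j)).pow_const _)
        simp_rw [e1]
        rw [lintegral_finset_sum _ fun j _ => (hmj j).const_mul _]
        refine Finset.sum_le_sum fun j _ => ?_
        rw [lintegral_const_mul _ (hmj j)]
    _ ≤ ‖cw τ‖ₑ ^ 2 * (ENNReal.ofReal rho0 * ∫⁻ s in Ioi (0 : ℝ),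
        ρ s * (ENNReal.ofReal (4 * M ^ 2) * B)) := by
        refine mul_le_mul' le_rfl (mul_le_mul' le_rfl ?_)
        exact setLIntegral_mono' measurableSet_Ioi fun s hs => mul_le_mul' le_rfl (hsum s hs)
    _ = ‖cw τ‖ₑ ^ 2 * (ENNReal.ofReal rho0 * (ENNReal.ofReal rho0 *
        (ENNReal.ofReal (4 * M ^ 2) * B))) := by
        rw [lintegral_mul_const _ hρm, hρ0]
    _ ≤ ENNReal.ofReal (Real.exp (π * |τ|)) * (ENNReal.ofReal rho0 * (ENNReal.ofReal rho0 *
        (ENNReal.ofReal (4 * M ^ 2) * B))) := by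
        gcongr
        rw [← ofReal_norm, ← ENNReal.ofReal_pow (norm_nonneg _)]
        exact ENNReal.ofReal_le_ofReal (cw_norm_sq τ)
    _ = _ := by
        have h0 := rho0_nonneg
        rw [← mul_assoc, ← mul_assoc, ← mul_assoc, ← ENNReal.ofReal_mul (Real.exp_pos _).le,
          ← ENNReal.ofReal_mul (by positivity), ← ENNReal.ofReal_mul (by positivity)]
        congr 2
        ring

end P004E
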