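import Vale.Agent.P004E.H394.K6
import Vale.Agent.P004.E

/-!
# P004E, module S1: the kernel on the line `Re s = 1`
-/

open Real MeasureTheory Set Filter
open scoped ENNReal Topology

namespace P004E

open P004G

/-- the exponent `1 + iτ` -/
noncomputable def w1 (τ : ℝ) : ℂ := 1 + τ * Complex.I

lemma w1_re (τ : ℝ) : (w1 τ).re = 1 := by unfold w1; simp

lemma w1_im (τ : ℝ) : (w1 τ).im = τ := by unfold w1; simp

lemma w1_cont : Continuous w1 := by unfold w1; fun_prop

/-- the separating weight on the line `Re s = 1` -/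
noncomputable def gk (τ : ℝ) : ℂ := (1 / (2 * π) : ℝ) * mellin (fun y : ℝ => (Gk y : ℂ)) (w1 τ)

lemma gk_eq (τ : ℝ) : gk τ = (1 / (2 * Real.pi) : ℝ) *
      (1 / 2 * ((1 / Real.pi : ℂ) ^ (w1 τ / 2) * Complex.Gamma (w1 τ / 2)) *
          Complex.Gamma (8 * w1 τ + 8)) := by
  unfold gk
  rw [P004.E.mellin_Gk (by rw [w1_re]; norm_num)]

lemma gk_cont : Continuous gk := by
  rw [show gk = fun v => _ from funext fun v => gk_eq v]
  have hne : ∀ s : ℂ, 0 < s.re → ∀ m : ℕ, s ≠ -m := by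
    intro s hs m h
    rw [h] at hs
    simp at hs
    have : (0 : ℝ) ≤ m := Nat.cast_nonneg m
    linarith
  have hpi : (1 / Real.pi : ℂ) ≠ 0 := by
    have := Real.pi_ne_zero
    simp [this]
  have hw := w1_cont
  rw [continuous_iff_continuousAt]
  intro v
  have c1 : ContinuousAt (fun v : ℝ => w1 v / 2) v := by fun_prop
  have c2 : ContinuousAt (fun v : ℝ => 8 * w1 v + 8) v := by fun_prop
  have g1 : ContinuousAt Complex.Gamma (w1 v / 2) :=
    (Complex.differentiableAt_Gamma _ (hne _ (by simp [w1]))).continuousAt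
  have g2 : ContinuousAt Complex.Gamma (8 * w1 v + 8) :=
    (Complex.differentiableAt_Gamma _ (hne _ (by simp [w1]))).continuousAt
  have g3 : ContinuousAt (fun z : ℂ => (1 / Real.pi : ℂ) ^ z) (w1 v / 2) :=
    continuousAt_const_cpow hpi
  refine continuousAt_const.mul (ContinuousAt.mul (continuousAt_const.mul (ContinuousAt.mul ?_ ?_)) ?_)
  · exact ContinuousAt.comp (f := fun v : ℝ => w1 v / 2) g3 c1
  · exact ContinuousAt.comp (f := fun v : ℝ => w1 v / 2) g1 c1
  · exact ContinuousAt.comp (f := fun v : ℝ => 8 * w1 v + 8) g2 c2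

lemma gk_bound : ∃ C : ℝ, 0 < C ∧ ∀ τ : ℝ, ‖gk τ‖ ≤ C * Real.exp (-3 * Real.pi * |τ|) := by
  have hφ : 3 * Real.pi / 8 < Real.pi / 2 := by
    have := Real.pi_pos
    linarith
  have hφ0 : 0 ≤ 3 * Real.pi / 8 := by
    have := Real.pi_pos
    positivity
  have hcos : 0 < Real.cos (3 * Real.pi / 8) :=
    Real.cos_pos_of_mem_Ioo ⟨by linarith, hφ⟩
  set c := (Real.cos (3 * Real.pi / 8))⁻¹ with hc
  have hc0 : 0 < c := inv_pos.2 hcos
  have hG1 : 0 < Real.Gamma (1 / 2) := Real.Gamma_pos_of_pos (by norm_num)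
  have hG2 : 0 < Real.Gamma 16 := Real.Gamma_pos_of_pos (by norm_num)
  refine ⟨Real.Gamma (1 / 2) * (Real.Gamma 16 * c ^ (16 : ℝ)), by positivity, ?_⟩
  intro τ
  rw [gk_eq]
  have h1 : ‖((1 / (2 * Real.pi) : ℝ) : ℂ)‖ ≤ 1 := by
    rw [Complex.norm_real, Real.norm_of_nonneg (by positivity), div_le_one (by positivity)]
    have := Real.pi_gt_three
    linarith
  have hre2 : (w1 τ / 2).re = 1 / 2 := by simp [w1]
  have h2 : ‖(1 / Real.pi : ℂ) ^ (w1 τ / 2)‖ ≤ 1 := by
    have e1 : (1 / Real.pi : ℂ) = ((1 / Real.pi : ℝ) : ℂ) := by push_cast; rfl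
    rw [e1, Complex.norm_cpow_eq_rpow_re_of_pos (by positivity)]
    apply Real.rpow_le_one (by positivity)
    · rw [div_le_one Real.pi_pos]
      linarith [Real.pi_gt_three]
    · rw [hre2]; norm_num
  have h3 : ‖Complex.Gamma (w1 τ / 2)‖ ≤ Real.Gamma (1 / 2) := by
    have h4 := P004.E.norm_Gamma_le (a := w1 τ / 2) (by rw [hre2]; norm_num) (φ := 0) le_rfl
      (by have := Real.pi_pos; positivity)
    rw [Real.cos_zero, inv_one, Real.one_rpow, mul_one, neg_zero, zero_mul, Real.exp_zero, mul_one,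
      hre2] at h4
    exact h4
  have h5 : ‖Complex.Gamma (8 * w1 τ + 8)‖ ≤ Real.Gamma 16 * c ^ (16 : ℝ) *
      Real.exp (-3 * Real.pi * |τ|) := by
    have hre : (8 * w1 τ + 8).re = 16 := by simp [w1]; norm_num
    have him : (8 * w1 τ + 8).im = 8 * τ := by simp [w1]
    have h6 := P004.E.norm_Gamma_le (a := 8 * w1 τ + 8) (by rw [hre]; norm_num) hφ0 hφ
    rw [hre, him, ← hc] at h6
    refine h6.trans (le_of_eq ?_)
    have e3 : -(3 * Real.pi / 8) * |8 * τ| = -3 * Real.pi * |τ| := by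
      rw [abs_mul, abs_of_pos (by norm_num : (0 : ℝ) < 8)]
      ring
    rw [e3]
  rw [norm_mul, norm_mul, norm_mul, norm_mul]
  have h8 : ‖(1 / 2 : ℂ)‖ ≤ 1 := by simp; norm_num
  calc ‖((1 / (2 * Real.pi) : ℝ) : ℂ)‖ * (‖(1 / 2 : ℂ)‖ * (‖(1 / Real.pi : ℂ) ^ (w1 τ / 2)‖ *
        ‖Complex.Gamma (w1 τ / 2)‖) * ‖Complex.Gamma (8 * w1 τ + 8)‖) ≤
      1 * (1 * (1 * Real.Gamma (1 / 2)) * (Real.Gamma 16 * c ^ (16 : ℝ) *
        Real.exp (-3 * Real.pi * |τ|))) := by
        gcongr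
    _ = _ := by ring

lemma gk_repr {y : ℝ} (hy : 0 < y) :
    (Gk y : ℂ) = ∫ v : ℝ, gk v * (y : ℂ) ^ (-(w1 v)) := by
  obtain ⟨C, hC0, hC⟩ := gk_bound
  have hmel : ∀ v : ℝ, mellin (fun y : ℝ => (Gk y : ℂ)) (((1 : ℝ) : ℂ) + v * Complex.I) =
      (2 * Real.pi : ℝ) * gk v := by
    intro v
    unfold gk w1
    rw [← mul_assoc, ← Complex.ofReal_mul]
    have : (2 * Real.pi) * (1 / (2 * Real.pi)) = 1 := by
      have := Real.pi_ne_zero
      field_simp
    rw [this, Complex.ofReal_one, one_mul]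
  have hint : Integrable gk :=
    (P004.E.integrable_exp_abs.const_mul C).mono' gk_cont.aestronglyMeasurable
      (Eventually.of_forall fun v => hC v)
  have h1 := mellinInv_mellin_eq 1 (fun y : ℝ => (Gk y : ℂ)) hy
    (P004.E.mellinConvergent_Gk (by simp)) ?_ ?_
  · rw [← h1, mellinInv]
    simp_rw [hmel]
    rw [Complex.real_smul, ← integral_const_mul]
    apply integral_congr_ae
    filter_upwards with v
    have e1 : ((1 / (2 * Real.pi) : ℝ) : ℂ) * ((2 * Real.pi : ℝ) : ℂ) = 1 := by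
      rw [← Complex.ofReal_mul]
      have := Real.pi_ne_zero
      have e2 : (1 / (2 * Real.pi)) * (2 * Real.pi) = 1 := by field_simp
      rw [e2, Complex.ofReal_one]
    rw [smul_eq_mul]
    have e3 : (((1 : ℝ) : ℂ) + v * Complex.I) = w1 v := by unfold w1; push_cast; ring
    rw [e3]
    linear_combination (gk v * (y : ℂ) ^ (-(w1 v))) * e1
  · unfold Complex.VerticalIntegrable
    simp_rw [hmel]
    exact hint.const_mul _
  · exact (Complex.continuous_ofReal.comp P004.E.Gk_cont).continuousAt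

end P004E
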