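import Vale.Agent.P004E.H394.K7
import Vale.Agent.P004G.H2

/-!
# P004E, module S1d: separation of variables on the line `Re w = 1`
-/

open Real MeasureTheory Set Filter
open scoped ENNReal Topology

namespace P004E

open P004G

variable [Crv]

open P004G.H2 (Cnd cnd_iff cnd_mul sum_moebius_divisors dv_nonneg dv_le moebius_div_le lam_mul
  chi_mul)

/-- the base term (without coprimality conditions) -/
noncomputable def base3 (H : ℝ) (j : ℕ) (K : ℤ) (u : ℝ) (k : ℝ → ℝ) (g m₁ m₂ : ℕ) : ℝ :=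
  lam g ^ 2 / g * (lam m₁ * lam m₂ / (m₁ * m₂)) * chi K (m₁ * m₂) *
      (∑ d ∈ g.divisors, if d ∣ j then
        (ArithmeticFunction.moebius d : ℝ) / d *
          Gk ((j : ℝ) * H / ((d : ℝ) ^ 2 * (m₁ * m₂))) else 0) *
      (kap k (g * m₁ * u) * kap k (g * m₂ * u))

open Classical in
/-- the terms after opening the condition `(m₁, m₂) = 1` -/
noncomputable def Fe3 (H : ℝ) (R j : ℕ) (K : ℤ) (u : ℝ) (k : ℝ → ℝ) (g e m₁ m₂ : ℕ) : ℝ :=
  if Cnd R g m₁ m₂ ∧ e ∣ m₁ ∧ e ∣ m₂ then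
    (ArithmeticFunction.moebius e : ℝ) * base3 H j K u k g m₁ m₂ else 0

lemma eps_cases {ε : ℤ} (hε : ε.natAbs = 1) : ε = 1 ∨ ε = -1 := by omega

lemma AdTerm_eq (H : ℝ) (R j : ℕ) {ε : ℤ} (hε : ε.natAbs = 1) (u : ℝ) (k : ℝ → ℝ) (g m₁ m₂ : ℕ) :
    AdTerm H R (ε * j) u k (g, m₁, m₂) = ∑' e : ℕ, Fe3 H R j (ε * j) u k g e m₁ m₂ := by
  classical
  have habs : |((ε * j : ℤ) : ℝ)| = j := by
    rcases eps_cases hε with h | h <;> simp [h]
  have hdvd : ∀ d : ℕ, ((d : ℤ) ∣ ε * j) ↔ d ∣ j := by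
    intro d
    rcases eps_cases hε with h | h
    · rw [h, one_mul, Int.natCast_dvd_natCast]
    · rw [h, neg_one_mul, dvd_neg, Int.natCast_dvd_natCast]
  unfold AdTerm Fe3
  simp only [cnd_iff, habs, hdvd]
  by_cases hC : Cnd R g m₁ m₂
  · have hm : m₁.gcd m₂ ≠ 0 := by
      intro h
      have := hC.2.1.1.ne_zero
      exact this (Nat.eq_zero_of_gcd_eq_zero_left h)
    simp only [hC, true_and]
    rw [tsum_eq_sum (s := (m₁.gcd m₂).divisors)]
    · have : ∀ e ∈ (m₁.gcd m₂).divisors, (if e ∣ m₁ ∧ e ∣ m₂ then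
          (ArithmeticFunction.moebius e : ℝ) * base3 H j (ε * j) u k g m₁ m₂ else 0) =
          (ArithmeticFunction.moebius e : ℝ) * base3 H j (ε * j) u k g m₁ m₂ := by
        intro e he
        rw [Nat.mem_divisors, Nat.dvd_gcd_iff] at he
        rw [if_pos he.1]
      rw [Finset.sum_congr rfl this, ← Finset.sum_mul, sum_moebius_divisors]
      split_ifs with h
      · simp [base3]
      · simp
    · intro e he
      rw [Nat.mem_divisors, Nat.dvd_gcd_iff] at he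
      rw [if_neg]
      exact fun h => he ⟨h, hm⟩
  · simp [hC]

lemma abs_lam_le (n : ℕ) : |lam n| ≤ dv n := P004G.H2.lam_le pfCoef n

lemma abs_lam_div (n : ℕ) : |lam n / n| ≤ 1 := by
  rcases Nat.eq_zero_or_pos n with h | h
  · subst h; simp
  · have hn : (0 : ℝ) < n := by exact_mod_cast h
    rw [abs_div, abs_of_pos hn, div_le_one hn]
    exact (abs_lam_le n).trans (dv_le n)

lemma kap_le_exp {k : ℝ → ℝ} (hk : Kn 0 k) {T : ℝ} (hT : 0 ≤ T) :
    |kap k T| ≤ Real.exp 1 * Real.exp (-T) := by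
  refine (kap_abs_le hk hT).trans ?_
  have h3 : T * Real.exp (-(π * T)) ≤ Real.exp (-T) := by
    have h4 : T ≤ Real.exp T := by linarith [Real.add_one_le_exp T]
    calc T * Real.exp (-(π * T)) ≤ Real.exp T * Real.exp (-(π * T)) := by gcongr
      _ = Real.exp (T - π * T) := by rw [← Real.exp_add]; congr 1
      _ ≤ Real.exp (-T) := by
          apply Real.exp_le_exp.2
          nlinarith [Real.pi_gt_three]
  rw [mul_assoc]
  gcongr

lemma base3_le {k : ℝ → ℝ} (hk : Kn 0 k) (H : ℝ) (j : ℕ) (K : ℤ) {u : ℝ} (hu : 0 < u)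
    (g m₁ m₂ : ℕ) : |base3 H j K u k g m₁ m₂| ≤ lam g ^ 2 * (5040 * Real.exp 1 ^ 2) *
      (Real.exp (-(g * u) * m₁) * Real.exp (-(g * u) * m₂)) := by
  unfold base3
  rcases Nat.eq_zero_or_pos g with hg | hg
  · subst hg; simp
    positivity
  have hg' : (0 : ℝ) < g := by exact_mod_cast hg
  have h1 : |∑ d ∈ g.divisors, if d ∣ j then
        (ArithmeticFunction.moebius d : ℝ) / d *
          Gk ((j : ℝ) * H / ((d : ℝ) ^ 2 * (m₁ * m₂))) else 0| ≤ 5040 * g := by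
    refine (Finset.abs_sum_le_sum_abs _ _).trans ?_
    have : ∀ d ∈ g.divisors, |if d ∣ j then
        (ArithmeticFunction.moebius d : ℝ) / d *
          Gk ((j : ℝ) * H / ((d : ℝ) ^ 2 * (m₁ * m₂))) else 0| ≤ 5040 := by
      intro d _
      split_ifs
      · rw [abs_mul]
        calc _ ≤ 1 * 5040 := mul_le_mul (moebius_div_le d)
              (P004G.H2.Gk_abs_le P004.pfKer _) (abs_nonneg _) zero_le_one
          _ = 5040 := by norm_num
      · simp
    refine (Finset.sum_le_sum this).trans ?_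
    rw [Finset.sum_const, nsmul_eq_mul, mul_comm]
    have := dv_le g
    unfold dv at this
    linarith
  have h2 := kap_le_exp hk (T := g * m₁ * u) (by positivity)
  have h3 := kap_le_exp hk (T := g * m₂ * u) (by positivity)
  rw [show -((g : ℝ) * m₁ * u) = -(g * u) * m₁ by ring] at h2
  rw [show -((g : ℝ) * m₂ * u) = -(g * u) * m₂ by ring] at h3
  have h4 : |lam m₁ * lam m₂ / (m₁ * m₂)| ≤ 1 := by
    have e1 : lam m₁ * lam m₂ / (m₁ * m₂) = (lam m₁ / m₁) * (lam m₂ / m₂) := by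
      rw [div_mul_div_comm]
    rw [e1, abs_mul]
    calc _ ≤ (1 : ℝ) * 1 := mul_le_mul (abs_lam_div _) (abs_lam_div _) (abs_nonneg _) zero_le_one
      _ = 1 := one_mul 1
  have h5 : |chi K (m₁ * m₂)| ≤ 1 := P004.H1.abs_chi_le _ _
  rw [abs_mul, abs_mul, abs_mul, abs_mul, abs_mul (kap k _), abs_div, abs_of_nonneg (sq_nonneg _),
    abs_of_pos hg']
  calc lam g ^ 2 / g * |lam m₁ * lam m₂ / (m₁ * m₂)| * |chi K (m₁ * m₂)| * _ *
        (|kap k (g * m₁ * u)| * |kap k (g * m₂ * u)|)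
      ≤ lam g ^ 2 / g * 1 * 1 * (5040 * g) * ((Real.exp 1 * Real.exp (-(g * u) * m₁)) *
        (Real.exp 1 * Real.exp (-(g * u) * m₂))) := by gcongr
    _ = _ := by
        field_simp

lemma Fe3_le {k : ℝ → ℝ} (hk : Kn 0 k) (H : ℝ) (R j : ℕ) (K : ℤ) {u : ℝ} (hu : 0 < u)
    (g e m₁ m₂ : ℕ) :
    |Fe3 H R j K u k g e m₁ m₂| ≤ lam g ^ 2 * (5040 * Real.exp 1 ^ 2) *
      (((m₁ : ℝ) ^ 2 * Real.exp (-(g * u) * m₁)) *
        ((m₂ : ℝ) ^ 0 * Real.exp (-(g * u) * m₂)) * (1 / (e : ℝ) ^ 2)) := by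
  unfold Fe3
  split_ifs with h
  · have hm : m₁ ≠ 0 := h.1.2.1.1.ne_zero
    have he : 0 < e := Nat.pos_of_dvd_of_pos h.2.1 (Nat.pos_of_ne_zero hm)
    have hle : (e : ℝ) ≤ m₁ := by exact_mod_cast Nat.le_of_dvd (Nat.pos_of_ne_zero hm) h.2.1
    have he' : (0 : ℝ) < e := by exact_mod_cast he
    have h1 : |(ArithmeticFunction.moebius e : ℝ)| ≤ 1 := by
      have := ArithmeticFunction.abs_moebius_le_one (n := e)
      exact_mod_cast this
    have h2 : (1 : ℝ) ≤ (m₁ : ℝ) ^ 2 * (1 / (e : ℝ) ^ 2) := by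
      rw [mul_one_div, le_div_iff₀ (by positivity), one_mul]
      gcongr
    rw [abs_mul]
    calc _ ≤ 1 * |base3 H j K u k g m₁ m₂| := by gcongr
      _ ≤ 1 * (lam g ^ 2 * (5040 * Real.exp 1 ^ 2) *
      (Real.exp (-(g * u) * m₁) * Real.exp (-(g * u) * m₂))) := by
          gcongr; exact base3_le hk H j K hu g m₁ m₂
      _ ≤ ((m₁ : ℝ) ^ 2 * (1 / (e : ℝ) ^ 2)) * (lam g ^ 2 * (5040 * Real.exp 1 ^ 2) *
      (Real.exp (-(g * u) * m₁) * Real.exp (-(g * u) * m₂))) := by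
          gcongr
      _ = _ := by ring
  · simp only [abs_zero]; positivity

lemma summable_Fe3 {k : ℝ → ℝ} (hk : Kn 0 k) (H : ℝ) (R j : ℕ) (K : ℤ) {u : ℝ} (hu : 0 < u)
    (g : ℕ) (hg : 0 < g) :
    Summable (fun t : (ℕ × ℕ) × ℕ => Fe3 H R j K u k g t.2 t.1.1 t.1.2) := by
  have hc : 0 < (g : ℝ) * u := by positivity
  have s1 := Real.summable_pow_mul_exp_neg_nat_mul 2 hc
  have s2 := Real.summable_pow_mul_exp_neg_nat_mul 0 hc
  have s3 : Summable (fun e : ℕ => 1 / (e : ℝ) ^ 2) :=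
    Real.summable_one_div_nat_pow.mpr (by norm_num)
  have s4 := (s1.mul_of_nonneg s2 (fun _ => by positivity) (fun _ => by positivity))
  have s5 := (s4.mul_of_nonneg s3 (fun _ => by positivity) (fun _ => by positivity)).mul_left
    (lam g ^ 2 * (5040 * Real.exp 1 ^ 2))
  refine Summable.of_norm_bounded s5 ?_
  rintro ⟨⟨m₁, m₂⟩, e⟩
  exact Fe3_le hk H R j K hu g e m₁ m₂

lemma Ad_le {k : ℝ → ℝ} (hk : Kn 0 k) (H : ℝ) (R j : ℕ) {ε : ℤ} (hε : ε.natAbs = 1) {u : ℝ}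
    (hu : 0 < u) :
    ENNReal.ofReal |Ad H R (ε * j) u k| ≤
      ∑' g : ℕ, ∑' e : ℕ, ‖∑' m : ℕ × ℕ, Fe3 H R j (ε * j) u k g e m.1 m.2‖ₑ := by
  rw [← Real.enorm_eq_ofReal_abs]
  unfold Ad
  by_cases hs : Summable (AdTerm H R (ε * j) u k)
  · rw [hs.tsum_prod]
    refine enorm_tsum_le_tsum_enorm.trans (ENNReal.tsum_le_tsum fun g => ?_)
    refine le_trans (le_of_eq ?_) (enorm_tsum_le_tsum_enorm (f := fun e : ℕ =>
      ∑' m : ℕ × ℕ, Fe3 H R j (ε * j) u k g e m.1 m.2))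
    congr 1
    have h1 : ∀ m : ℕ × ℕ, AdTerm H R (ε * j) u k (g, m) =
        ∑' e : ℕ, Fe3 H R j (ε * j) u k g e m.1 m.2 :=
      fun m => AdTerm_eq H R j hε u k g m.1 m.2
    simp_rw [h1]
    rcases Nat.eq_zero_or_pos g with hg | hg
    · subst hg
      have : ∀ (e : ℕ) (m : ℕ × ℕ), Fe3 H R j (ε * j) u k 0 e m.1 m.2 = 0 := by
        intro e m
        unfold Fe3
        rw [if_neg]
        intro h
        exact not_squarefree_zero h.1.1.1
      simp [this]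
    · exact (Summable.tsum_comm (f := fun (m : ℕ × ℕ) (e : ℕ) =>
        Fe3 H R j (ε * j) u k g e m.1 m.2)
        (summable_Fe3 hk H R j (ε * j) hu g hg)).symm
  · rw [tsum_eq_zero_of_not_summable hs]
    simp

end P004E
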