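import Vale.Agent.P004E.H394.K8

/-!
# P004E, module S1d: one pair `(g, e)`
-/

open Real MeasureTheory Set Filter
open scoped ENNReal Topology

namespace P004E

open P004G

variable [Crv]

open P004G.H2 (Cnd cnd_iff cnd_mul sum_moebius_divisors dv_nonneg dv_le moebius_div_le lam_mul
  chi_mul P)

/-- the divisor sum -/
noncomputable def D1 (v : ℝ) (j g : ℕ) : ℂ :=
  ∑ d ∈ g.divisors, if d ∣ j then
    (((ArithmeticFunction.moebius d : ℝ) / d : ℝ) : ℂ) *
      Complex.exp (w1 v * (2 * Real.log d : ℝ)) else 0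

/-- the weight in `v` -/
noncomputable def Kc3 (H u : ℝ) (j : ℕ) (K : ℤ) (g e : ℕ) (v : ℝ) : ℂ :=
  (((ArithmeticFunction.moebius e : ℝ) * (lam g ^ 2 / g) * (lam e ^ 2 / e ^ 2) * chi K e ^ 2 : ℝ) :
    ℂ) * gk v * Complex.exp (-w1 v * (Real.log (j * H) : ℝ)) *
    Complex.exp (w1 v * (2 * Real.log e : ℝ)) * Complex.exp (-we v * (2 * Real.log (g * e * u) : ℝ)) *
    D1 v j g

lemma D1_cont (j g : ℕ) : Continuous (fun v : ℝ => D1 v j g) := by
  unfold D1
  refine continuous_finsetSum _ fun d _ => ?_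
  split_ifs
  · have := w1_cont
    fun_prop
  · exact continuous_const

lemma we_cont : Continuous we := by unfold we; fun_prop

lemma Kc3_cont (H u : ℝ) (j : ℕ) (K : ℤ) (g e : ℕ) : Continuous (Kc3 H u j K g e) := by
  have h1 := gk_cont
  have h2 := w1_cont
  have h3 := D1_cont j g
  have h4 := we_cont
  unfold Kc3
  fun_prop

/-- the sum of the common divisors -/
noncomputable def sgd (j g : ℕ) : ℝ := ∑ d ∈ g.divisors.filter (· ∣ j), (d : ℝ)

lemma sgd_nonneg (j g : ℕ) : 0 ≤ sgd j g := Finset.sum_nonneg fun _ _ => Nat.cast_nonneg _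

lemma D1_norm (v : ℝ) (j g : ℕ) : ‖D1 v j g‖ ≤ sgd j g := by
  unfold D1 sgd
  rw [Finset.sum_filter]
  refine (norm_sum_le _ _).trans (Finset.sum_le_sum fun d hd => ?_)
  have hd0 : 0 < d := Nat.pos_of_mem_divisors hd
  have hd' : (0 : ℝ) < d := by exact_mod_cast hd0
  split_ifs
  · rw [norm_mul, Complex.norm_exp, Complex.re_mul_ofReal, w1_re, Complex.norm_real,
      Real.norm_eq_abs, abs_div, abs_of_pos hd', one_mul]
    have hmu : |(ArithmeticFunction.moebius d : ℝ)| ≤ 1 := by
      have := ArithmeticFunction.abs_moebius_le_one (n := d)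
      exact_mod_cast this
    have h1 : Real.exp (2 * Real.log d) = d * d := by
      rw [two_mul, Real.exp_add, Real.exp_log hd']
    rw [h1]
    calc |(ArithmeticFunction.moebius d : ℝ)| / d * (d * d) ≤ 1 / d * (d * d) := by gcongr
      _ = d := by field_simp
  · simp

lemma Kc3_norm {H u : ℝ} (hH : 0 < H) (hu : 0 < u) (j : ℕ) (K : ℤ) (g e : ℕ) (hj : 0 < j)
    (hg : 0 < g) (he : 0 < e) (v C : ℝ)
    (hb : ‖gk v‖ ≤ C * Real.exp (-3 * π * |v|)) (hC : 0 < C) :
    ‖Kc3 H u j K g e v‖ ≤ C / (H * u) * (lam g ^ 2 / g ^ 2 * (lam e ^ 2 / e)) * (sgd j g / j) *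
      Real.exp (-3 * π * |v|) := by
  have hjH : 0 < (j : ℝ) * H := by positivity
  have he' : (0 : ℝ) < e := by exact_mod_cast he
  have hg' : (0 : ℝ) < g := by exact_mod_cast hg
  have hj' : (0 : ℝ) < j := by exact_mod_cast hj
  have hgeu : 0 < (g : ℝ) * e * u := by positivity
  have h1 : ‖Complex.exp (-w1 v * (Real.log (j * H) : ℝ))‖ = (j * H)⁻¹ := by
    rw [Complex.norm_exp, Complex.re_mul_ofReal, Complex.neg_re, w1_re, neg_one_mul, Real.exp_neg,
      Real.exp_log hjH]
  have h2 : ‖Complex.exp (w1 v * (2 * Real.log e : ℝ))‖ = e * e := by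
    rw [Complex.norm_exp, Complex.re_mul_ofReal, w1_re, one_mul, two_mul, Real.exp_add,
      Real.exp_log he']
  have h3 : ‖Complex.exp (-we v * (2 * Real.log (g * e * u) : ℝ))‖ = (g * e * u)⁻¹ := by
    rw [Complex.norm_exp, Complex.re_mul_ofReal, Complex.neg_re, we_re]
    have : -(1 / 2 : ℝ) * (2 * Real.log (g * e * u)) = -Real.log (g * e * u) := by ring
    rw [this, Real.exp_neg, Real.exp_log hgeu]
  have h4 : |(ArithmeticFunction.moebius e : ℝ) * (lam g ^ 2 / g) * (lam e ^ 2 / e ^ 2) *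
      chi K e ^ 2| ≤ 1 * (lam g ^ 2 / g) * (lam e ^ 2 / e ^ 2) * 1 := by
    rw [abs_mul, abs_mul, abs_mul, abs_of_nonneg (by positivity : 0 ≤ lam g ^ 2 / g),
      abs_of_nonneg (by positivity : 0 ≤ lam e ^ 2 / (e : ℝ) ^ 2), abs_pow]
    have hmu : |(ArithmeticFunction.moebius e : ℝ)| ≤ 1 := by
      have := ArithmeticFunction.abs_moebius_le_one (n := e)
      exact_mod_cast this
    have hx : |chi K e| ^ 2 ≤ 1 := by
      have h0 : |chi K e| ≤ 1 := P004.H1.abs_chi_le _ _
      calc |chi K e| ^ 2 ≤ 1 ^ 2 := by gcongr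
        _ = 1 := by norm_num
    gcongr
  have h5 := D1_norm v j g
  have h6 := sgd_nonneg j g
  unfold Kc3
  rw [norm_mul, norm_mul, norm_mul, norm_mul, norm_mul, h1, h2, h3, Complex.norm_real,
    Real.norm_eq_abs]
  calc _ ≤ (1 * (lam g ^ 2 / g) * (lam e ^ 2 / e ^ 2) * 1) * (C * Real.exp (-3 * π * |v|)) *
        (j * H)⁻¹ * (e * e) * (g * e * u)⁻¹ * sgd j g := by gcongr
    _ = _ := by
        field_simp

lemma Kc3_int {H u : ℝ} (hH : 0 < H) (hu : 0 < u) (j : ℕ) (K : ℤ) (g e : ℕ) (hj : 0 < j)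
    (hg : 0 < g) (he : 0 < e) : Integrable (Kc3 H u j K g e) := by
  obtain ⟨C, hC, hb⟩ := gk_bound
  refine Integrable.mono' (P004.E.integrable_exp_abs.const_mul (C / (H * u) *
    (lam g ^ 2 / g ^ 2 * (lam e ^ 2 / e)) * (sgd j g / j)))
    (Kc3_cont H u j K g e).aestronglyMeasurable ?_
  exact Filter.Eventually.of_forall fun v =>
    Kc3_norm hH hu j K g e hj hg he v C (hb v) hC

/-- the terms of `Sq` -/
noncomputable def bn (K : ℤ) (q : ℕ) (U : ℝ) (k : ℝ → ℝ) (n : ℕ) (v : ℝ) : ℂ :=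
  ((sc K q n / n : ℝ) : ℂ) * (((n * U : ℝ) : ℂ) ^ (we v) * (kap k (n * U) : ℂ))

lemma bn_norm {k : ℝ → ℝ} (hk : Kn 0 k) (K : ℤ) (q : ℕ) {U : ℝ} (hU : 0 < U) (n : ℕ) (v : ℝ) :
    ‖bn K q U k n v‖ ≤ Real.exp 1 * ((n : ℝ) ^ 1 * Real.exp (-U * n)) := by
  rcases Nat.eq_zero_or_pos n with h | h
  · subst h
    simp [bn, sc_zero]
  have hn : (0 : ℝ) < n := by exact_mod_cast h
  have hT : 0 < n * U := by positivity
  unfold bn
  rw [norm_mul, norm_mul, Complex.norm_real, Complex.norm_real, Real.norm_eq_abs, Real.norm_eq_abs,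
    Complex.norm_cpow_eq_rpow_re_of_pos hT, we_re]
  have h1 := abs_sc_div K q n
  have h2 := kap_abs_le hk hT.le
  set T := n * U with hTd
  have h3 : T ^ (1 / 2 : ℝ) * (T * Real.exp (-(π * T))) ≤ Real.exp (-T) := by
    have h4 : T ≤ Real.exp T := by linarith [Real.add_one_le_exp T]
    have h5 : T ^ (1 / 2 : ℝ) ≤ Real.exp T := by
      calc T ^ (1 / 2 : ℝ) ≤ (Real.exp T) ^ (1 / 2 : ℝ) := by gcongr
        _ = Real.exp (T * (1 / 2)) := by rw [← Real.exp_mul]
        _ ≤ Real.exp T := Real.exp_le_exp.2 (by linarith)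
    calc T ^ (1 / 2 : ℝ) * (T * Real.exp (-(π * T))) ≤
          Real.exp T * (Real.exp T * Real.exp (-(π * T))) := by gcongr
      _ = Real.exp (T + (T - π * T)) := by rw [← Real.exp_add, ← Real.exp_add]; congr 1
      _ ≤ Real.exp (-T) := by
          apply Real.exp_le_exp.2
          nlinarith [Real.pi_gt_three]
  have h6 : Real.exp (-T) = Real.exp (-U * n) := by
    rw [hTd]; congr 1; ring
  calc |sc K q n / n| * (T ^ (1 / 2 : ℝ) * |kap k T|) ≤
        n * (T ^ (1 / 2 : ℝ) * (Real.exp 1 * T * Real.exp (-(π * T)))) := by gcongr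
    _ = n * Real.exp 1 * (T ^ (1 / 2 : ℝ) * (T * Real.exp (-(π * T)))) := by ring
    _ ≤ n * Real.exp 1 * Real.exp (-T) := by gcongr
    _ = _ := by rw [h6]; ring

lemma bn_cont (K : ℤ) (q : ℕ) {U : ℝ} (hU : 0 < U) (k : ℝ → ℝ) (n : ℕ) :
    Continuous (bn K q U k n) := by
  unfold bn
  rcases Nat.eq_zero_or_pos n with h | h
  · subst h
    simp only [sc_zero]
    simpa using continuous_const
  have hn : ((n * U : ℝ) : ℂ) ≠ 0 := by
    have : (n * U : ℝ) ≠ 0 := by positivity
    exact_mod_cast this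
  refine continuous_const.mul (Continuous.mul ?_ continuous_const)
  exact Continuous.const_cpow we_cont (Or.inl hn)

/-- exchange of the sum over `(n₁, n₂)` and the integral -/
lemma tsum_integral3 {k : ℝ → ℝ} (hk : Kn 0 k) (K : ℤ) (q : ℕ) {U : ℝ} (hU : 0 < U)
    (F : ℝ → ℂ) (hF0 : Integrable F) :
    ∑' t : ℕ × ℕ, ∫ v : ℝ, F v * (bn K q U k t.1 v * bn K q U k t.2 v) =
      ∫ v : ℝ, F v * Sq K q U v k ^ 2 := by
  have hs := Real.summable_pow_mul_exp_neg_nat_mul 1 hU
  have hs' := hs.mul_left (Real.exp 1)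
  have hF : ∀ t : ℕ × ℕ, Integrable
      (fun v => F v * (bn K q U k t.1 v * bn K q U k t.2 v)) := by
    intro t
    refine Integrable.mono' (hF0.norm.mul_const ((Real.exp 1 * ((t.1 : ℝ) ^ 1 *
      Real.exp (-U * t.1))) * (Real.exp 1 * ((t.2 : ℝ) ^ 1 * Real.exp (-U * t.2)))))
      (hF0.aestronglyMeasurable.mul
        ((bn_cont K q hU k t.1).mul (bn_cont K q hU k t.2)).aestronglyMeasurable) ?_
    refine Filter.Eventually.of_forall fun v => ?_
    rw [norm_mul, norm_mul]
    have h1 := bn_norm hk K q hU t.1 v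
    have h2 := bn_norm hk K q hU t.2 v
    gcongr
  rw [integral_tsum_of_summable_integral_norm hF]
  · refine integral_congr_ae (Filter.Eventually.of_forall fun v => ?_)
    simp only
    rw [tsum_mul_left, sq]
    congr 1
    have hn : Summable (fun n => ‖bn K q U k n v‖) :=
      Summable.of_nonneg_of_le (fun _ => norm_nonneg _)
        (fun n => bn_norm hk K q hU n v) hs'
    exact (tsum_mul_tsum_of_summable_norm hn hn).symm
  · refine Summable.of_nonneg_of_le (fun _ => integral_nonneg fun _ => norm_nonneg _)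
      (fun t => ?_) ((hs'.mul_of_nonneg hs' (fun _ => by positivity)
        (fun _ => by positivity)).mul_left (∫ v, ‖F v‖))
    rw [← integral_mul_const]
    refine integral_mono_of_nonneg (Filter.Eventually.of_forall fun _ => norm_nonneg _)
      (hF0.norm.mul_const _) (Filter.Eventually.of_forall fun v => ?_)
    simp only
    rw [norm_mul, norm_mul]
    have h1 := bn_norm hk K q hU t.1 v
    have h2 := bn_norm hk K q hU t.2 v
    gcongr

lemma gk_exp_int (c : ℝ) : Integrable (fun v => gk v * Complex.exp (w1 v * (c : ℝ))) := by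
  obtain ⟨C, hC, hb⟩ := gk_bound
  refine Integrable.mono' (P004.E.integrable_exp_abs.const_mul (C * Real.exp c)) ?_ ?_
  · have h1 := gk_cont
    have h2 := w1_cont
    exact Continuous.aestronglyMeasurable (by fun_prop)
  · refine Filter.Eventually.of_forall fun v => ?_
    rw [norm_mul, Complex.norm_exp, Complex.re_mul_ofReal, w1_re, one_mul]
    calc _ ≤ (C * Real.exp (-3 * π * |v|)) * Real.exp c := by
          gcongr; exact hb v
      _ = _ := by ring

/-- the representation of the sum over `d` -/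
lemma sum_Gk3 {H : ℝ} (hH : 0 < H) (j g : ℕ) (hj : 0 < j) (m₁ m₂ : ℕ) (h₁ : 0 < m₁)
    (h₂ : 0 < m₂) :
    ((∑ d ∈ g.divisors, if d ∣ j then
        (ArithmeticFunction.moebius d : ℝ) / d *
          Gk ((j : ℝ) * H / ((d : ℝ) ^ 2 * (m₁ * m₂))) else 0 : ℝ) : ℂ) =
    ∫ v : ℝ, gk v * Complex.exp (-w1 v * (Real.log (j * H) : ℝ)) *
      D1 v j g * Complex.exp (w1 v * (Real.log m₁ + Real.log m₂ : ℝ)) := by
  have hj' : (0 : ℝ) < j := by exact_mod_cast hj
  have h₁' : (0 : ℝ) < m₁ := by exact_mod_cast h₁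
  have h₂' : (0 : ℝ) < m₂ := by exact_mod_cast h₂
  have key : ∀ v : ℝ, gk v * Complex.exp (-w1 v * (Real.log (j * H) : ℝ)) *
      D1 v j g * Complex.exp (w1 v * (Real.log m₁ + Real.log m₂ : ℝ)) =
      ∑ d ∈ g.divisors, if d ∣ j then
        (((ArithmeticFunction.moebius d : ℝ) / d : ℝ) : ℂ) * (gk v *
          Complex.exp (w1 v * ((-Real.log (j * H) + 2 * Real.log d +
            Real.log m₁ + Real.log m₂ : ℝ) : ℂ))) else 0 := by
    intro v
    unfold D1
    rw [Finset.mul_sum, Finset.sum_mul]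
    refine Finset.sum_congr rfl fun d _ => ?_
    split_ifs
    · have : Complex.exp (w1 v * ((-Real.log (j * H) + 2 * Real.log d +
            Real.log m₁ + Real.log m₂ : ℝ) : ℂ)) =
          Complex.exp (-w1 v * (Real.log (j * H) : ℝ)) *
          Complex.exp (w1 v * (2 * Real.log d : ℝ)) *
          Complex.exp (w1 v * (Real.log m₁ + Real.log m₂ : ℝ)) := by
        rw [← Complex.exp_add, ← Complex.exp_add]
        congr 1
        push_cast
        ring
      rw [this]
      ring
    · simp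
  simp_rw [key]
  rw [integral_finsetSum]
  · push_cast
    refine Finset.sum_congr rfl fun d hd => ?_
    have hd0 : 0 < d := Nat.pos_of_mem_divisors hd
    have hd' : (0 : ℝ) < d := by exact_mod_cast hd0
    split_ifs
    · rw [integral_const_mul]
      push_cast
      congr 1
      have hy : 0 < (j : ℝ) * H / ((d : ℝ) ^ 2 * (m₁ * m₂)) := by
        positivity
      have h := gk_repr hy
      push_cast at h
      rw [h]
      refine integral_congr_ae (Filter.Eventually.of_forall fun v => ?_)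
      simp only
      congr 1
      have hlog : Real.log ((j : ℝ) * H / ((d : ℝ) ^ 2 * (m₁ * m₂))) =
          Real.log (j * H) - 2 * Real.log d - Real.log m₁ - Real.log m₂ := by
        rw [Real.log_div (by positivity)
          (by positivity), Real.log_mul (x := (d : ℝ) ^ 2) (by positivity) (by positivity),
          Real.log_mul (x := (m₁ : ℝ)) (by positivity) (by positivity), Real.log_pow]
        push_cast; ring
      have hne : (((j : ℝ) * H / ((d : ℝ) ^ 2 * (m₁ * m₂)) : ℝ) : ℂ) ≠ 0 := by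
        exact_mod_cast hy.ne'
      have h7 := Complex.cpow_def_of_ne_zero hne (-(w1 v))
      rw [← Complex.ofReal_log hy.le, hlog] at h7
      push_cast at h7 ⊢
      rw [h7]
      congr 1
      push_cast
      ring
    · simp
  · intro d _
    split_ifs
    · exact (gk_exp_int _).const_mul _
    · exact integrable_zero _ _ _

end P004E
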