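import Vale.Agent.P004E.H394.K8
import Vale.Agent.P004G.H1
import Vale.Agent.P004G.H3.Tw01

/-!
# P004E, module S1a: Poisson summation for windows (after P004G/H1.lean)
-/

open Real MeasureTheory Set

namespace P004E.PW

open P004G
open P004.H1 (Gk_decay cj cj_nonneg summable_cj qq Gk_bound abs_moebius_le qq_ne_zero
  abs_term_le gcd_facts abs_chi_le chi_mul ah ah_nonneg summable_ah c0 c0_pos integral_eq_tsum)

variable [Crv]

/-- the weight -/
noncomputable def wk (r : ℕ) (u : ℝ) (k : ℝ → ℝ) (n : ℕ) : ℝ :=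
  if Squarefree n ∧ n.Coprime r then (ca n : ℝ) / n * kap k (n * u) else 0

theorem Sw_eq_wk {k : ℝ → ℝ} (hk : Kn 0 k) (h : ℤ) (r : ℕ) {u : ℝ} (hu : 0 < u) :
    Sw h r u k = ∑' n, wk r u k n * chi h n := by
  rw [Sw_eq hk h r hu]
  refine tsum_congr fun n => ?_
  unfold wk sc
  split_ifs <;> ring

theorem abs_wk_le {k : ℝ → ℝ} (hk : Kn 0 k) (r : ℕ) {u : ℝ} (hu : 0 < u) (n : ℕ) :
    |wk r u k n| ≤ Real.exp 1 * ((n : ℝ) ^ 1 * Real.exp (-u * n)) := by
  unfold wk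
  split_ifs with h
  · have h1 : |(ca n : ℝ) / n| ≤ n := by
      rcases Nat.eq_zero_or_pos n with h0 | h0
      · subst h0; simp
      · have hn : (0 : ℝ) < n := by exact_mod_cast h0
        rw [abs_div, abs_of_pos hn, div_le_iff₀ hn]
        have := abs_ca_sq n
        nlinarith
    have h2 := kap_le_exp hk (T := n * u) (by positivity)
    rw [abs_mul]
    calc |(ca n : ℝ) / n| * |kap k (n * u)| ≤ n * (Real.exp 1 * Real.exp (-(n * u))) := by gcongr
      _ = _ := by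
          rw [show -((n : ℝ) * u) = -u * n by ring]
          ring
  · simp only [abs_zero]; positivity

theorem summable_wk {k : ℝ → ℝ} (hk : Kn 0 k) (r : ℕ) {u : ℝ} (hu : 0 < u) (l : ℕ) :
    Summable fun n : ℕ => |wk r u k n| * (n : ℝ) ^ l := by
  have h1 := (Real.summable_pow_mul_exp_neg_nat_mul (l + 1) (r := u) hu).mul_left (Real.exp 1)
  refine Summable.of_nonneg_of_le (fun n => by positivity) (fun n => ?_) h1
  calc |wk r u k n| * (n : ℝ) ^ l ≤ (Real.exp 1 * ((n : ℝ) ^ 1 * Real.exp (-u * n))) *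
        (n : ℝ) ^ l := mul_le_mul_of_nonneg_right (abs_wk_le hk r hu n) (by positivity)
    _ = Real.exp 1 * ((n : ℝ) ^ (l + 1) * Real.exp (-u * n)) := by ring

theorem wk_ne_zero {r : ℕ} {u : ℝ} {k : ℝ → ℝ} {n : ℕ} (h : wk r u k n ≠ 0) :
    Squarefree n ∧ n.Coprime r ∧ ca n ≠ 0 := by
  unfold wk at h
  split_ifs at h with h1
  · refine ⟨h1.1, h1.2, ?_⟩
    intro h2
    simp [h2] at h
  · exact absurd rfl h

/-- the terms after Poisson summation -/
noncomputable def Bt (H : ℝ) (r : ℕ) (u : ℝ) (k : ℝ → ℝ) (p : ℕ × ℕ) (j : ℤ) : ℝ :=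
  wk r u k p.1 * wk r u k p.2 * ∑ d ∈ (p.1.gcd p.2).divisors,
    (ArithmeticFunction.moebius d : ℝ) / (d * √(qq p : ℝ)) *
      (if (d : ℤ) ∣ j then chi j (qq p) * Gk (|(j : ℝ)| * H / ((d : ℝ) ^ 2 * (qq p : ℝ))) else 0)

/-- the summable majorant in `p` -/
noncomputable def Wp (r : ℕ) (u : ℝ) (k : ℝ → ℝ) (p : ℕ × ℕ) : ℝ :=
  (|wk r u k p.1| * (p.1 : ℝ) ^ 1) * (|wk r u k p.2| * (p.2 : ℝ) ^ 0) +
    (|wk r u k p.1| * (p.1 : ℝ) ^ 3) * (|wk r u k p.2| * (p.2 : ℝ) ^ 2)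

theorem Wp_nonneg (r : ℕ) (u : ℝ) (k : ℝ → ℝ) (p : ℕ × ℕ) : 0 ≤ Wp r u k p := by
  unfold Wp; positivity

theorem summable_Wp {k : ℝ → ℝ} (hk : Kn 0 k) (r : ℕ) {u : ℝ} (hu : 0 < u) : Summable (Wp r u k) := by
  refine Summable.add ?_ ?_
  · exact (summable_wk hk r hu 1).mul_of_nonneg (summable_wk hk r hu 0)
      (fun n => by positivity) (fun n => by positivity)
  · exact (summable_wk hk r hu 3).mul_of_nonneg (summable_wk hk r hu 2)
      (fun n => by positivity) (fun n => by positivity)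

theorem abs_Bt_le {H : ℝ} (hH : 0 < H) : ∃ M : ℝ, 0 < M ∧
    ∀ (r : ℕ) (u : ℝ) (k : ℝ → ℝ) (p : ℕ × ℕ) (j : ℤ), |Bt H r u k p j| ≤ M * (Wp r u k p * cj j) := by
  obtain ⟨M, hM, hb⟩ := abs_term_le P004.pfKer hH
  refine ⟨M, hM, fun r u k p j => ?_⟩
  by_cases h1 : p.1 = 0
  · have : wk r u k p.1 = 0 := by
      rw [h1]; unfold wk; rw [if_neg]; simp
    unfold Bt
    rw [this]
    simp only [zero_mul, abs_zero]
    have := Wp_nonneg r u k p
    have := cj_nonneg j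
    positivity
  by_cases h2 : p.2 = 0
  · have : wk r u k p.2 = 0 := by
      rw [h2]; unfold wk; rw [if_neg]; simp
    unfold Bt
    rw [this]
    simp only [zero_mul, mul_zero, abs_zero]
    have := Wp_nonneg r u k p
    have := cj_nonneg j
    positivity
  unfold Bt
  rw [abs_mul, abs_mul]
  have h3 : |∑ d ∈ (p.1.gcd p.2).divisors, (ArithmeticFunction.moebius d : ℝ) /
      (d * √(qq p : ℝ)) * (if (d : ℤ) ∣ j then chi j (qq p) *
      Gk (|(j : ℝ)| * H / ((d : ℝ) ^ 2 * (qq p : ℝ))) else 0)| ≤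
      (p.1 : ℝ) * (M * (1 + ((p.1 : ℝ) * p.2) ^ 2) * cj j) := by
    refine (Finset.abs_sum_le_sum_abs _ _).trans ?_
    refine (Finset.sum_le_card_nsmul _ _ _ fun d hd => hb p j d h1 h2 hd).trans ?_
    rw [nsmul_eq_mul]
    have h4 : ((p.1.gcd p.2).divisors.card : ℝ) ≤ (p.1 : ℝ) := by
      have : (p.1.gcd p.2).divisors.card ≤ p.1 :=
        (Nat.card_divisors_le_self _).trans
          (Nat.le_of_dvd (Nat.pos_of_ne_zero h1) (Nat.gcd_dvd_left _ _))
      exact_mod_cast this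
    refine mul_le_mul_of_nonneg_right h4 ?_
    have := cj_nonneg j
    positivity
  calc |wk r u k p.1| * |wk r u k p.2| * _ ≤ |wk r u k p.1| * |wk r u k p.2| *
        ((p.1 : ℝ) * (M * (1 + ((p.1 : ℝ) * p.2) ^ 2) * cj j)) :=
        mul_le_mul_of_nonneg_left h3 (by positivity)
    _ = M * (Wp r u k p * cj j) := by unfold Wp; ring

theorem summable_Bt {k : ℝ → ℝ} (hk : Kn 0 k) {H : ℝ} (hH : 0 < H) (r : ℕ) {u : ℝ} (hu : 0 < u) :
    Summable (Function.uncurry (Bt H r u k)) := by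
  obtain ⟨M, hM, hb⟩ := abs_Bt_le hH
  have h1 := ((summable_Wp hk r hu).mul_of_nonneg summable_cj (Wp_nonneg r u k) cj_nonneg).mul_left M
  refine Summable.of_norm_bounded h1 fun x => ?_
  exact hb r u k x.1 x.2

/-- Poisson summation for one pair -/
theorem pair_eq (hP : StPair) {H : ℝ} (hH : 0 < H) (r : ℕ)
    (u : ℝ) (k : ℝ → ℝ) (p : ℕ × ℕ) :
    wk r u k p.1 * wk r u k p.2 * ∑' h : ℤ, ah H h * chi h (p.1 * p.2) =
      H * ∑' j : ℤ, Bt H r u k p j := by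
  by_cases h1 : wk r u k p.1 = 0
  · have : ∀ j, Bt H r u k p j = 0 := fun j => by unfold Bt; rw [h1]; ring
    simp [this, h1]
  by_cases h2 : wk r u k p.2 = 0
  · have : ∀ j, Bt H r u k p j = 0 := fun j => by unfold Bt; rw [h2]; ring
    simp [this, h2]
  obtain ⟨s1, -, c1⟩ := wk_ne_zero h1
  obtain ⟨s2, -, c2⟩ := wk_ne_zero h2
  have n1 : p.1 ≠ 0 := s1.ne_zero
  have n2 : p.2 ≠ 0 := s2.ne_zero
  have key := hP p.1 p.2 s1 s2 (Good.of_ca c1).odd (Good.of_ca c2).odd H hH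
  rw [integral_eq_tsum hH] at key
  rw [key]
  obtain ⟨M, hM, hb⟩ := abs_term_le P004.pfKer hH
  have hsum : ∀ d ∈ (p.1.gcd p.2).divisors, Summable fun j : ℤ =>
      (ArithmeticFunction.moebius d : ℝ) / (d * √(qq p : ℝ)) *
      (if (d : ℤ) ∣ j then chi j (qq p) *
        Gk (|(j : ℝ)| * H / ((d : ℝ) ^ 2 * (qq p : ℝ))) else 0) := by
    intro d hd
    refine Summable.of_norm_bounded (summable_cj.mul_left (M * (1 + ((p.1 : ℝ) * p.2) ^ 2)))
      fun j => ?_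
    exact hb p j d n1 n2 hd
  have e1 : ∑' j : ℤ, Bt H r u k p j = wk r u k p.1 * wk r u k p.2 *
      ∑ d ∈ (p.1.gcd p.2).divisors, (ArithmeticFunction.moebius d : ℝ) / (d * √(qq p : ℝ)) *
        ∑' j : ℤ, (if (d : ℤ) ∣ j then chi j (qq p) *
          Gk (|(j : ℝ)| * H / ((d : ℝ) ^ 2 * (qq p : ℝ))) else 0) := by
    unfold Bt
    rw [tsum_mul_left, Summable.tsum_finsetSum hsum]
    congr 1
    refine Finset.sum_congr rfl fun d _ => ?_
    rw [tsum_mul_left]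
  rw [e1]
  unfold qq
  ring

/-- the first double series -/
theorem summable_first {k : ℝ → ℝ} (hk : Kn 0 k) {H : ℝ} (hH : 0 < H) (r : ℕ) {u : ℝ} (hu : 0 < u) :
    Summable (Function.uncurry fun (h : ℤ) (p : ℕ × ℕ) =>
      ah H h * (wk r u k p.1 * wk r u k p.2 * chi h (p.1 * p.2))) := by
  have h0 := summable_wk hk r hu 0
  have h1 : Summable fun p : ℕ × ℕ => |wk r u k p.1| * |wk r u k p.2| := by
    have := h0.mul_of_nonneg h0 (fun n => by positivity) (fun n => by positivity)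
    simpa using this
  have h2 := (summable_ah hH).mul_of_nonneg h1 (ah_nonneg H) (fun n => by positivity)
  refine Summable.of_norm_bounded h2 fun x => ?_
  simp only [Function.uncurry]
  rw [norm_mul, norm_mul, norm_mul, Real.norm_eq_abs, Real.norm_eq_abs, Real.norm_eq_abs,
    Real.norm_eq_abs, abs_of_nonneg (ah_nonneg H x.1)]
  refine mul_le_mul_of_nonneg_left ?_ (ah_nonneg H x.1)
  exact mul_le_of_le_one_right (by positivity) (abs_chi_le _ _)

theorem Sw_sq {k : ℝ → ℝ} (hk : Kn 0 k) (h : ℤ) (r : ℕ) {u : ℝ} (hu : 0 < u) :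
    Sw h r u k ^ 2 = ∑' p : ℕ × ℕ, wk r u k p.1 * wk r u k p.2 * chi h (p.1 * p.2) := by
  have h0 : Summable fun n : ℕ => ‖wk r u k n * chi h n‖ := by
    have := summable_wk hk r hu 0
    refine Summable.of_nonneg_of_le (fun n => norm_nonneg _) (fun n => ?_) this
    rw [norm_mul, Real.norm_eq_abs, Real.norm_eq_abs, pow_zero, mul_one]
    exact mul_le_of_le_one_right (abs_nonneg _) (abs_chi_le _ _)
  rw [Sw_eq_wk hk h r hu, sq, tsum_mul_tsum_of_summable_norm h0 h0]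
  refine tsum_congr fun p => ?_
  by_cases h1 : p.1 = 0
  · have : wk r u k p.1 = 0 := by
      rw [h1]; unfold wk; rw [if_neg]; simp
    rw [this]; ring
  by_cases h2 : p.2 = 0
  · have : wk r u k p.2 = 0 := by
      rw [h2]; unfold wk; rw [if_neg]; simp
    rw [this]; ring
  rw [chi_mul h h1 h2]
  ring

/-- `S = H ∑_j ∑_p Bt` -/
theorem S_eq (hP : StPair) {k : ℝ → ℝ} (hk : Kn 0 k) {H : ℝ} (hH : 0 < H) (r : ℕ)
    {u : ℝ} (hu : 0 < u) :
    ∑' h : ℤ, ah H h * Sw h r u k ^ 2 = H * ∑' j : ℤ, ∑' p : ℕ × ℕ, Bt H r u k p j := by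
  have e1 : ∑' h : ℤ, ah H h * Sw h r u k ^ 2 =
      ∑' (h : ℤ) (p : ℕ × ℕ), ah H h * (wk r u k p.1 * wk r u k p.2 * chi h (p.1 * p.2)) := by
    refine tsum_congr fun h => ?_
    rw [Sw_sq hk h r hu, tsum_mul_left]
  rw [e1, ← (summable_first hk hH r hu).tsum_comm]
  have e2 : ∀ p : ℕ × ℕ, ∑' h : ℤ, ah H h * (wk r u k p.1 * wk r u k p.2 * chi h (p.1 * p.2)) =
      H * ∑' j : ℤ, Bt H r u k p j := by
    intro p
    rw [← pair_eq hP hH, ← tsum_mul_left]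
    refine tsum_congr fun h => ?_
    ring
  rw [tsum_congr e2, tsum_mul_left, (summable_Bt hk hH r hu).tsum_comm]

theorem term_eq (k : ℝ → ℝ) (H : ℝ) (r : ℕ) (u : ℝ) (j : ℤ) {g m₁ m₂ : ℕ}
    (hs : Squarefree (g * m₁ * m₂)) (hc : (g * m₁ * m₂).Coprime r) :
    Bt H r u k (g * m₁, g * m₂) j = AdTerm H r j u k (g, m₁, m₂) := by
  obtain ⟨hg, hm1, hm2, c1, c2, hgcd, hqq⟩ := gcd_facts hs
  have s1 : Squarefree (g * m₁) := hs.squarefree_of_dvd (Dvd.intro m₂ rfl)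
  have s2 : Squarefree (g * m₂) := hs.squarefree_of_dvd ⟨m₁, by ring⟩
  have r1 : (g * m₁).Coprime r := Nat.Coprime.coprime_dvd_left (Dvd.intro m₂ rfl) hc
  have r2 : (g * m₂).Coprime r := Nat.Coprime.coprime_dvd_left ⟨m₁, by ring⟩ hc
  unfold Bt AdTerm
  simp only
  rw [hgcd, hqq, if_pos ⟨hs, hc⟩]
  unfold wk
  rw [if_pos ⟨s1, r1⟩, if_pos ⟨s2, r2⟩, pfCoef.mul _ _ c1, pfCoef.mul _ _ c2]
  have e1 : √((m₁ * m₂ : ℕ) : ℝ) = √(m₁ : ℝ) * √(m₂ : ℝ) := by
    push_cast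
    rw [Real.sqrt_mul (by positivity)]
  have e2 : ∑ d ∈ g.divisors, (ArithmeticFunction.moebius d : ℝ) / (d * √((m₁ * m₂ : ℕ) : ℝ)) *
      (if (d : ℤ) ∣ j then chi j (m₁ * m₂) *
        Gk (|(j : ℝ)| * H / ((d : ℝ) ^ 2 * ((m₁ * m₂ : ℕ) : ℝ))) else 0) =
      (1 / (√(m₁ : ℝ) * √(m₂ : ℝ))) * chi j (m₁ * m₂) *
      ∑ d ∈ g.divisors, if (d : ℤ) ∣ j then
        (ArithmeticFunction.moebius d : ℝ) / d *
          Gk (|(j : ℝ)| * H / ((d : ℝ) ^ 2 * (m₁ * m₂))) else 0 := by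
    rw [Finset.mul_sum]
    refine Finset.sum_congr rfl fun d _ => ?_
    rw [e1]
    split_ifs
    · push_cast
      ring
    · ring
  rw [e2]
  have m1p : (0 : ℝ) < √(m₁ : ℝ) := Real.sqrt_pos.2 (by exact_mod_cast Nat.pos_of_ne_zero hm1)
  have m2p : (0 : ℝ) < √(m₂ : ℝ) := Real.sqrt_pos.2 (by exact_mod_cast Nat.pos_of_ne_zero hm2)
  have hgp : (0 : ℝ) < g := by exact_mod_cast Nat.pos_of_ne_zero hg
  have hm1p : (0 : ℝ) < m₁ := by exact_mod_cast Nat.pos_of_ne_zero hm1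
  have hm2p : (0 : ℝ) < m₂ := by exact_mod_cast Nat.pos_of_ne_zero hm2
  have eg : lam g ^ 2 = (ca g : ℝ) ^ 2 / g := by
    unfold lam
    rw [div_pow, Real.sq_sqrt hgp.le]
  rw [eg]
  unfold lam
  push_cast
  field_simp

/-- regrouping by the greatest common divisor -/
theorem Ad_eq (k : ℝ → ℝ) (H : ℝ) (r : ℕ) (u : ℝ) (j : ℤ) :
    ∑' p : ℕ × ℕ, Bt H r u k p j = Ad H r j u k := by
  unfold Ad
  have hT : ∀ t : ℕ × ℕ × ℕ, AdTerm H r j u k t ≠ 0 →
      Squarefree (t.1 * t.2.1 * t.2.2) ∧ (t.1 * t.2.1 * t.2.2).Coprime r := by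
    intro t ht
    unfold AdTerm at ht
    by_contra h
    rw [if_neg h] at ht
    exact ht rfl
  refine tsum_eq_tsum_of_ne_zero_bij
    (fun t : Function.support (AdTerm H r j u k) => (t.1.1 * t.1.2.1, t.1.1 * t.1.2.2)) ?_ ?_ ?_
  · rintro ⟨⟨g, m₁, m₂⟩, ht⟩ ⟨⟨g', m₁', m₂'⟩, ht'⟩ h
    obtain ⟨hs, -⟩ := hT _ ht
    obtain ⟨hs', -⟩ := hT _ ht'
    obtain ⟨hg, -, -, -, -, hgcd, -⟩ := gcd_facts hs
    obtain ⟨hg', -, -, -, -, hgcd', -⟩ := gcd_facts hs'
    simp only [Prod.mk.injEq] at h hgcd hgcd' hg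
    obtain ⟨h1, h2⟩ := h
    have e : g = g' := by rw [← hgcd, ← hgcd', h1, h2]
    subst e
    have e1 : m₁ = m₁' := Nat.eq_of_mul_eq_mul_left (Nat.pos_of_ne_zero hg) h1
    have e2 : m₂ = m₂' := Nat.eq_of_mul_eq_mul_left (Nat.pos_of_ne_zero hg) h2
    subst e1; subst e2
    rfl
  · intro p hp
    have hp' : Bt H r u k p j ≠ 0 := hp
    have w1 : wk r u k p.1 ≠ 0 := by
      intro h; apply hp'; unfold Bt; rw [h]; ring
    have w2 : wk r u k p.2 ≠ 0 := by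
      intro h; apply hp'; unfold Bt; rw [h]; ring
    obtain ⟨s1, r1, -⟩ := wk_ne_zero w1
    obtain ⟨s2, r2, -⟩ := wk_ne_zero w2
    obtain ⟨n₁, n₂⟩ := p
    simp only at s1 s2 r1 r2
    obtain ⟨a, ha⟩ := Nat.gcd_dvd_left n₁ n₂
    obtain ⟨b, hb⟩ := Nat.gcd_dvd_right n₁ n₂
    set g := n₁.gcd n₂ with hgdef
    have hg0 : 0 < g := Nat.gcd_pos_of_pos_left _ (Nat.pos_of_ne_zero s1.ne_zero)
    have hab : Nat.Coprime a b := by
      have h1 := Nat.coprime_div_gcd_div_gcd (m := n₁) (n := n₂) hg0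
      rw [← hgdef] at h1
      have ea : n₁ / g = a := Nat.div_eq_of_eq_mul_right hg0 ha
      have eb : n₂ / g = b := Nat.div_eq_of_eq_mul_right hg0 hb
      rwa [ea, eb] at h1
    rw [ha] at s1 r1
    rw [hb] at s2 r2
    have hgb : Nat.Coprime g b := ((Nat.squarefree_mul_iff).1 s2).1
    have hcop : Nat.Coprime (g * a) b := Nat.Coprime.mul_left hgb hab
    have hs : Squarefree (g * a * b) := by
      rw [Nat.squarefree_mul_iff]
      exact ⟨hcop, s1, ((Nat.squarefree_mul_iff).1 s2).2.2⟩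
    have hr : (g * a * b).Coprime r :=
      Nat.Coprime.mul_left r1 (Nat.Coprime.coprime_dvd_left (Dvd.intro_left g rfl) r2)
    have key := term_eq k H r u j hs hr
    refine ⟨⟨(g, a, b), ?_⟩, ?_⟩
    · rw [Function.mem_support, ← key, ← ha, ← hb]
      exact hp'
    · simp only [Prod.mk.injEq]
      exact ⟨ha.symm, hb.symm⟩
  · rintro ⟨⟨g, m₁, m₂⟩, ht⟩
    obtain ⟨hs, hr⟩ := hT _ ht
    exact term_eq k H r u j hs hr


/-- the sum over all `h` -/
theorem sum_eq (hP : StPair) {k : ℝ → ℝ} (hk : Kn 0 k) {H : ℝ} (hH : 0 < H) (r : ℕ)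
    {u : ℝ} (hu : 0 < u) :
    ∑' h : ℤ, ah H h * Sw h r u k ^ 2 = H * ∑' j : ℤ, Ad H r j u k := by
  rw [S_eq hP hk hH r hu, tsum_congr (Ad_eq k H r u)]

theorem tsum_abs_Ad (H : ℝ) (r : ℕ) (u : ℝ) (k : ℝ → ℝ) :
    ∑' j : ℤ, ENNReal.ofReal |Ad H r j u k| = ENNReal.ofReal |Ad H r 0 u k| +
      ∑' j : ℕ, (ENNReal.ofReal |Ad H r (j + 1) u k| +
        ENNReal.ofReal |Ad H r (-(j + 1)) u k|) := by
  rw [tsum_of_nat_of_neg_add_one ENNReal.summable ENNReal.summable]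
  have e1 : ∑' n : ℕ, ENNReal.ofReal |Ad H r (n : ℤ) u k| =
      ENNReal.ofReal |Ad H r 0 u k| + ∑' j : ℕ, ENNReal.ofReal |Ad H r (j + 1) u k| := by
    rw [tsum_eq_zero_add' ENNReal.summable]
    push_cast
    rfl
  rw [e1, ENNReal.tsum_add, add_assoc]

end P004E.PW

namespace P004E

open P004G PW
open P004.H1 (ah ah_nonneg summable_ah c0 c0_pos)

variable [Crv]

/-- Module S1a. -/
theorem pfPoiW : StPoiW := by
  have hP : StPair := pfPair (pfPois P004.pfTw)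
  have hc := c0_pos
  refine ⟨1 / c0 + 1, by have : 0 < 1 / c0 := by positivity
                         linarith, fun H u R k hH1 hu hR hk => ?_⟩
  have hH : (0 : ℝ) < H := by exact_mod_cast hH1
  have hW : ∀ h : ℤ, Sw h R u k ^ 2 ≤ (∑' n, |wk R u k n|) ^ 2 := by
    intro h
    have h0 : Summable fun n : ℕ => |wk R u k n| := by
      have := summable_wk hk R hu 0
      simpa using this
    have h1 : |Sw h R u k| ≤ ∑' n, |wk R u k n| := by
      rw [Sw_eq_wk hk h R hu]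
      have h2 : ∀ n, ‖wk R u k n * chi h n‖ ≤ |wk R u k n| := fun n => by
        rw [norm_mul, Real.norm_eq_abs, Real.norm_eq_abs]
        exact mul_le_of_le_one_right (abs_nonneg _) (P004.H1.abs_chi_le _ _)
      exact tsum_of_norm_bounded h0.hasSum h2
    rw [← sq_abs (Sw h R u k)]
    exact pow_le_pow_left₀ (abs_nonneg _) h1 2
  have hsum : Summable fun h : ℤ => ah H h * Sw h R u k ^ 2 := by
    refine Summable.of_nonneg_of_le (fun h => mul_nonneg (ah_nonneg H h) (sq_nonneg _))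
      (fun h => mul_le_mul_of_nonneg_left (hW h) (ah_nonneg H h))
      ((summable_ah hH).mul_right _)
  have hlow : c0 * ∑ h ∈ hZ H, Sw h R u k ^ 2 ≤ ∑' h : ℤ, ah H h * Sw h R u k ^ 2 := by
    rw [Finset.mul_sum]
    have h1 : ∑ h ∈ hZ H, c0 * Sw h R u k ^ 2 ≤ ∑ h ∈ hZ H, ah H h * Sw h R u k ^ 2 := by
      refine Finset.sum_le_sum fun m hm => ?_
      refine mul_le_mul_of_nonneg_right ?_ (sq_nonneg _)
      refine P004G.H1.c0_le_int hH ?_
      have h2 : m ∈ Finset.Icc (-(H : ℤ)) H := Finset.mem_of_mem_erase hm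
      rw [Finset.mem_Icc] at h2
      rw [abs_le]
      constructor
      · have := h2.1
        exact_mod_cast this
      · have := h2.2
        exact_mod_cast this
    refine h1.trans ?_
    exact hsum.sum_le_tsum _ fun h _ => mul_nonneg (ah_nonneg H h) (sq_nonneg _)
  rw [sum_eq hP hk hH R hu] at hlow
  have habs : ENNReal.ofReal (∑' j : ℤ, Ad H R j u k) ≤
      ∑' j : ℤ, ENNReal.ofReal |Ad H R j u k| := by
    by_cases hs : Summable fun j : ℤ => |Ad H R j u k|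
    · rw [← ENNReal.ofReal_tsum_of_nonneg (fun j => abs_nonneg _) hs]
      refine ENNReal.ofReal_le_ofReal ?_
      refine Summable.tsum_le_tsum (fun j => le_abs_self _) ?_ hs
      exact Summable.of_abs hs
    · have : ¬ Summable fun j : ℤ => Ad H R j u k := fun h => hs h.abs
      rw [tsum_eq_zero_of_not_summable this]
      simp
  calc ENNReal.ofReal (∑ h ∈ hZ H, Sw h R u k ^ 2)
      ≤ ENNReal.ofReal (1 / c0 * H) * ENNReal.ofReal (∑' j : ℤ, Ad H R j u k) := by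
        rw [← ENNReal.ofReal_mul (by positivity)]
        refine ENNReal.ofReal_le_ofReal ?_
        rw [one_div, inv_mul_eq_div, div_mul_eq_mul_div, le_div_iff₀ hc]
        linarith
    _ ≤ ENNReal.ofReal ((1 / c0 + 1) * H) * ∑' j : ℤ, ENNReal.ofReal |Ad H R j u k| := by
        gcongr
        linarith
    _ = _ := by rw [tsum_abs_Ad]

end P004E
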