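import Vale.Agent.P004E.SDefs
import Mathlib.NumberTheory.Chebyshev

/-!
# P004E, module S6: primes between `L^{3/4}` and `L^{19/25}`
-/

open Real MeasureTheory Set Filter
open scoped ENNReal Topology

namespace P004E

open P004G

variable [Crv]

open scoped Classical in
/-- the good primes `p` with `L^{3/4} < p ≤ L^{19/25}` -/
noncomputable def PL (L : ℝ) : Finset ℕ :=
  (Finset.range (⌊L ^ (19 / 25 : ℝ)⌋₊ + 1)).filter
    (fun p => p.Prime ∧ ¬ p ∣ bd ∧ L ^ (3 / 4 : ℝ) < p)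

lemma mem_PL {L : ℝ} (hL : 1 ≤ L) {p : ℕ} (hp : p ∈ PL L) :
    p.Prime ∧ ¬ p ∣ bd ∧ L ^ (3 / 4 : ℝ) < p ∧ (p : ℝ) ≤ L ^ (19 / 25 : ℝ) := by
  unfold PL at hp
  rw [Finset.mem_filter, Finset.mem_range] at hp
  refine ⟨hp.2.1, hp.2.2.1, hp.2.2.2, ?_⟩
  have h1 : p ≤ ⌊L ^ (19 / 25 : ℝ)⌋₊ := by omega
  exact (Nat.cast_le.2 h1).trans (Nat.floor_le (by positivity))

open scoped Classical in
lemma primeCounting_le (L : ℝ) (hL : 1 ≤ L) :
    (Nat.primeCounting ⌊L ^ (19 / 25 : ℝ)⌋₊ : ℝ) ≤ (PL L).card + (L ^ (3 / 4 : ℝ) + 1) + (bd + 1) := by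
  set N := ⌊L ^ (19 / 25 : ℝ)⌋₊ with hN
  have h1 : Nat.primeCounting N = ((Finset.range (N + 1)).filter Nat.Prime).card := by
    rw [Nat.primeCounting, Nat.primeCounting', Nat.count_eq_card_filter_range]
  have h2 : (Finset.range (N + 1)).filter Nat.Prime ⊆
      PL L ∪ (Finset.range (⌊L ^ (3 / 4 : ℝ)⌋₊ + 1)) ∪ (Finset.range (bd + 1)) := by
    intro p hp
    rw [Finset.mem_filter] at hp
    rw [Finset.mem_union, Finset.mem_union]
    by_cases h3 : p ∣ bd
    · right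
      rw [Finset.mem_range]
      have := Nat.le_of_dvd (Nat.pos_of_ne_zero P004G.bd_ne) h3
      omega
    · left
      by_cases h4 : L ^ (3 / 4 : ℝ) < p
      · left
        unfold PL
        rw [Finset.mem_filter]
        exact ⟨hp.1, hp.2, h3, h4⟩
      · right
        rw [Finset.mem_range]
        have := Nat.le_floor (not_lt.1 h4)
        omega
  have h3 := Finset.card_le_card h2
  have h4 := (Finset.card_union_le (PL L ∪ (Finset.range (⌊L ^ (3 / 4 : ℝ)⌋₊ + 1)))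
    (Finset.range (bd + 1)))
  have h5 := Finset.card_union_le (PL L) (Finset.range (⌊L ^ (3 / 4 : ℝ)⌋₊ + 1))
  rw [Finset.card_range] at h4 h5
  have h6 : ((⌊L ^ (3 / 4 : ℝ)⌋₊ : ℕ) : ℝ) ≤ L ^ (3 / 4 : ℝ) := Nat.floor_le (by positivity)
  have h7 : Nat.primeCounting N ≤ (PL L).card + (⌊L ^ (3 / 4 : ℝ)⌋₊ + 1) + (bd + 1) := by
    rw [h1]
    omega
  have h8 : (Nat.primeCounting N : ℝ) ≤ (((PL L).card + (⌊L ^ (3 / 4 : ℝ)⌋₊ + 1) + (bd + 1) : ℕ) :
    ℝ) := by exact_mod_cast h7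
  push_cast at h8
  linarith

/-- lower bound for the number of primes -/
theorem PL_card : ∃ L₀ : ℝ, 1 ≤ L₀ ∧ ∀ L : ℝ, L₀ ≤ L → L ^ (759 / 1000 : ℝ) ≤ (PL L).card := by
  -- everything is eventually true
  have hev : ∀ᶠ L : ℝ in atTop, L ^ (759 / 1000 : ℝ) ≤ (PL L).card := by
    have t1 : Tendsto (fun L : ℝ => L ^ (1 / 10000 : ℝ)) atTop atTop :=
      tendsto_rpow_atTop (by norm_num)
    have t2 : Tendsto (fun L : ℝ => L ^ (9 / 1000 : ℝ)) atTop atTop :=
      tendsto_rpow_atTop (by norm_num)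
    have t3 : Tendsto (fun L : ℝ => L ^ (19 / 25 : ℝ)) atTop atTop :=
      tendsto_rpow_atTop (by norm_num)
    have t4 : Tendsto (fun L : ℝ => L ^ (759 / 1000 : ℝ)) atTop atTop :=
      tendsto_rpow_atTop (by norm_num)
    filter_upwards [eventually_ge_atTop 1, t1.eventually_ge_atTop 100000,
      t2.eventually_ge_atTop 10, t3.eventually_ge_atTop 1000,
      t4.eventually_ge_atTop (2 * (bd + 2 : ℝ))] with L hL h1 h2 h3 h4
    have hL0 : 0 < L := by linarith
    set N := ⌊L ^ (19 / 25 : ℝ)⌋₊ with hN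
    have hNle : (N : ℝ) ≤ L ^ (19 / 25 : ℝ) := Nat.floor_le (by positivity)
    have hNge : L ^ (19 / 25 : ℝ) < N + 1 := Nat.lt_floor_add_one _
    have hN1 : (999 : ℝ) < N := by linarith
    have hN0 : (0 : ℝ) < N := by linarith
    have hpi := Chebyshev.pi_ge N
    have hlog0 : 0 < Real.log N := Real.log_pos (by linarith)
    -- `log (N+1) ≤ N/10`
    have hlogN1 : Real.log (N + 1) ≤ N / 10 := by
      have e1 := Real.log_le_rpow_div (x := (N : ℝ) + 1) (by linarith) (ε := 1 / 2) (by norm_num)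
      have e2 : ((N : ℝ) + 1) ^ (1 / 2 : ℝ) = √((N : ℝ) + 1) := (Real.sqrt_eq_rpow _).symm
      rw [e2] at e1
      have e3 : √((N : ℝ) + 1) ≤ N / 20 := by
        rw [Real.sqrt_le_left (by linarith)]
        nlinarith
      linarith
    have hlog2 : (0.69 : ℝ) < Real.log 2 := by
      have := Real.log_two_gt_d9
      linarith
    have hnum : (N : ℝ) / 2 ≤ N * Real.log 2 - Real.log (N + 1) := by nlinarith
    -- `log N ≤ 10000 * L^{1/10000}`
    have hlogN : Real.log N ≤ 10000 * L ^ (1 / 10000 : ℝ) := by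
      have e1 : Real.log N ≤ Real.log (L ^ (19 / 25 : ℝ)) := Real.log_le_log hN0 hNle
      rw [Real.log_rpow hL0] at e1
      have e2 := Real.log_le_rpow_div hL0.le (ε := 1 / 10000) (by norm_num)
      have e3 : 0 ≤ Real.log L := Real.log_nonneg hL
      have e4 : Real.log L ≤ 10000 * L ^ (1 / 10000 : ℝ) := by linarith
      linarith
    have hmain : L ^ (19 / 25 : ℝ) / 40000 / L ^ (1 / 10000 : ℝ) ≤ Nat.primeCounting N := by
      have e1 : ((N : ℝ) / 2) / (10000 * L ^ (1 / 10000 : ℝ)) ≤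
          (N * Real.log 2 - Real.log (N + 1)) / Real.log N := by
        gcongr
        linarith
      have e2 : L ^ (19 / 25 : ℝ) / 2 ≤ N := by linarith
      calc L ^ (19 / 25 : ℝ) / 40000 / L ^ (1 / 10000 : ℝ) =
            ((L ^ (19 / 25 : ℝ) / 2) / 2) / (10000 * L ^ (1 / 10000 : ℝ)) := by
            field_simp
            norm_num
        _ ≤ ((N : ℝ) / 2) / (10000 * L ^ (1 / 10000 : ℝ)) := by gcongr
        _ ≤ _ := e1
        _ ≤ _ := hpi
    have e5 : L ^ (19 / 25 : ℝ) = L ^ (759 / 1000 : ℝ) * (L ^ (1 / 10000 : ℝ) *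
        L ^ (1 / 10000 : ℝ) * L ^ (8 / 10000 : ℝ)) := by
      rw [← Real.rpow_add hL0, ← Real.rpow_add hL0, ← Real.rpow_add hL0]
      norm_num
    have e6 : 1 ≤ L ^ (8 / 10000 : ℝ) := Real.one_le_rpow hL (by norm_num)
    have e7 : 2.5 * L ^ (759 / 1000 : ℝ) ≤ Nat.primeCounting N := by
      refine le_trans ?_ hmain
      rw [e5]
      have e8 : 0 < L ^ (1 / 10000 : ℝ) := by positivity
      have e9 : L ^ (759 / 1000 : ℝ) * (L ^ (1 / 10000 : ℝ) * L ^ (1 / 10000 : ℝ) *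
          L ^ (8 / 10000 : ℝ)) / 40000 / L ^ (1 / 10000 : ℝ) =
          L ^ (759 / 1000 : ℝ) * (L ^ (1 / 10000 : ℝ) * L ^ (8 / 10000 : ℝ) / 40000) := by
        field_simp
      rw [e9, mul_comm (2.5 : ℝ)]
      have e10 : 0 < L ^ (759 / 1000 : ℝ) := by positivity
      refine mul_le_mul_of_nonneg_left ?_ e10.le
      nlinarith
    have hle := primeCounting_le L hL
    have e11 : L ^ (759 / 1000 : ℝ) = L ^ (3 / 4 : ℝ) * L ^ (9 / 1000 : ℝ) := by
      rw [← Real.rpow_add hL0]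
      norm_num
    have e12 : 10 * L ^ (3 / 4 : ℝ) ≤ L ^ (759 / 1000 : ℝ) := by
      rw [e11]
      have : 0 < L ^ (3 / 4 : ℝ) := by positivity
      nlinarith
    have e13 : (bd : ℝ) + 2 ≤ L ^ (759 / 1000 : ℝ) / 2 := by linarith
    have e14 : 0 < L ^ (759 / 1000 : ℝ) := by positivity
    linarith
  obtain ⟨L₀, hL₀⟩ := (eventually_atTop.1 hev)
  exact ⟨max 1 L₀, le_max_left _ _, fun L hL => hL₀ L ((le_max_right _ _).trans hL)⟩

end P004E
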