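import Vale.Agent.P004E.H394.S6a
import Vale.Agent.P004E.H394.K1
import Vale.Agent.P004G.H3.Edge2
import Vale.Agent.P004G.H2

/-!
# P004E, module S6: the primal step
-/

open Real MeasureTheory Set Filter
open scoped ENNReal Topology

namespace P004E

open P004G

variable [Crv]

lemma sqZ_ne {X : ℕ} {m : ℤ} (hm : m ∈ sqZ X) : m ≠ 0 := by
  rintro rfl
  exact not_squarefree_zero (mem_sqZ.1 hm).2

lemma MT_nonneg (X : ℕ) (u : ℝ) (k : ℝ → ℝ) : 0 ≤ MT X u k :=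
  Finset.sum_nonneg fun _ _ => sq_nonneg _

lemma abs_lam_prime {p : ℕ} (hp : p.Prime) : |lam p| ≤ 2 := by
  refine (P004G.H2.lam_le pfCoef p).trans (le_of_eq ?_)
  unfold P004.dv
  rw [Nat.Prime.divisors hp, Finset.card_pair hp.one_lt.ne]
  norm_num

/-- one prime, one `m` -/
lemma one_prime (hTp : StTp) {m : ℤ} (hm : m ≠ 0) {p : ℕ} (hp : p.Prime) (hb : ¬ p ∣ bd) {u : ℝ}
    (hu : 0 < u) {k : ℝ → ℝ} (hk : Kn 0 k) :
    Tw m u k ^ 2 ≤ 3 * Tw (m * p ^ 2) u k ^ 2 + 12 / p * Tw m (p * u) k ^ 2 +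
      3 / p * Tw m (p ^ 2 * u) k ^ 2 := by
  have h := hTp m p u k hm hp hb hu hk
  have hp1 : (1 : ℝ) < p := by exact_mod_cast hp.one_lt
  have hp0 : (0 : ℝ) < p := by linarith
  set A := Tw (m * p ^ 2) u k
  set B := Tw m (p * u) k
  set D := Tw m (p ^ 2 * u) k
  set a := lam p * chi m p / √(p : ℝ) * B with ha
  set b := chi m p ^ 2 / p * D with hb'
  have e1 : Tw m u k = A + a - b := by
    rw [h]; ring
  have h1 : a ^ 2 ≤ 4 / p * B ^ 2 := by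
    rw [ha, mul_pow, div_pow, mul_pow, Real.sq_sqrt hp0.le]
    have h2 : lam p ^ 2 ≤ 4 := by
      have := abs_lam_prime hp
      rw [← sq_abs]
      nlinarith [abs_nonneg (lam p)]
    have h3 : chi m p ^ 2 ≤ 1 := by
      have := P004.H1.abs_chi_le m p
      rw [← sq_abs]
      nlinarith [abs_nonneg (chi m p)]
    have h4 : lam p ^ 2 * chi m p ^ 2 ≤ 4 * 1 := mul_le_mul h2 h3 (sq_nonneg _) (by norm_num)
    have h5 : lam p ^ 2 * chi m p ^ 2 / p ≤ 4 / p := by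
      gcongr
      linarith
    exact mul_le_mul_of_nonneg_right h5 (sq_nonneg _)
  have h2 : b ^ 2 ≤ 1 / p * D ^ 2 := by
    rw [hb', mul_pow, div_pow]
    have h3 : chi m p ^ 2 ≤ 1 := by
      have := P004.H1.abs_chi_le m p
      rw [← sq_abs]
      nlinarith [abs_nonneg (chi m p)]
    have h4 : (chi m p ^ 2) ^ 2 ≤ 1 := pow_le_one₀ (sq_nonneg _) h3
    have h5 : (chi m p ^ 2) ^ 2 / (p : ℝ) ^ 2 ≤ 1 / p := by
      rw [div_le_div_iff₀ (by positivity) hp0]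
      nlinarith
    exact mul_le_mul_of_nonneg_right h5 (sq_nonneg _)
  rw [e1]
  have h3 : (A + a - b) ^ 2 ≤ 3 * (A ^ 2 + a ^ 2 + b ^ 2) := by
    nlinarith [sq_nonneg (A - a), sq_nonneg (A + b), sq_nonneg (a + b)]
  calc (A + a - b) ^ 2 ≤ 3 * (A ^ 2 + a ^ 2 + b ^ 2) := h3
    _ ≤ 3 * (A ^ 2 + 4 / p * B ^ 2 + 1 / p * D ^ 2) := by linarith
    _ = _ := by ring

open scoped Classical in
/-- the integers `m p²` -/
noncomputable def mp2 (X : ℕ) (L : ℝ) : Finset ℤ :=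
  (sqZ X ×ˢ PL L).image (fun t => t.1 * (t.2 : ℤ) ^ 2)

lemma mp2_sum (X : ℕ) {L : ℝ} (hL : 1 ≤ L) (f : ℤ → ℝ) :
    ∑ p ∈ PL L, ∑ m ∈ sqZ X, f (m * (p : ℤ) ^ 2) = ∑ h ∈ mp2 X L, f h := by
  classical
  unfold mp2
  rw [Finset.sum_image, Finset.sum_product_right]
  rintro ⟨m, p⟩ h1 ⟨n, q⟩ h2 h
  simp only [Finset.coe_product, Set.mem_prod, Finset.mem_coe] at h1 h2 h
  have h3 : (p : ℤ) ^ 2 * m = (q : ℤ) ^ 2 * n := by linarith
  obtain ⟨h4, h5⟩ := P004G.H3.sq_mul_inj_int (mem_PL hL h1.2).1 (mem_PL hL h2.2).1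
    (mem_sqZ.1 h1.1).2 (mem_sqZ.1 h2.1).2 h3
  simp [h4, h5]

lemma mp2_sub (X : ℕ) {L : ℝ} (hL : 1 ≤ L) {h : ℤ} (hh : h ∈ mp2 X L) :
    h ∈ hZ (X * ⌊L ^ (19 / 25 : ℝ)⌋₊ ^ 2) := by
  classical
  unfold mp2 at hh
  rw [Finset.mem_image] at hh
  obtain ⟨⟨m, p⟩, h1, rfl⟩ := hh
  rw [Finset.mem_product] at h1
  obtain ⟨h2, h3⟩ := h1
  simp only at h2 h3 ⊢
  have hm := (mem_sqZ.1 h2).1
  have hp := mem_PL hL h3
  have hpN : p ≤ ⌊L ^ (19 / 25 : ℝ)⌋₊ := Nat.le_floor hp.2.2.2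
  unfold hZ
  rw [Finset.mem_erase, Finset.mem_Icc]
  refine ⟨mul_ne_zero (sqZ_ne h2) (pow_ne_zero _ (by exact_mod_cast hp.1.ne_zero)), ?_⟩
  have h4 : |m * (p : ℤ) ^ 2| ≤ ((X * ⌊L ^ (19 / 25 : ℝ)⌋₊ ^ 2 : ℕ) : ℤ) := by
    rw [abs_mul, abs_of_nonneg (by positivity : (0 : ℤ) ≤ (p : ℤ) ^ 2)]
    push_cast
    have h5 : |m| ≤ X := by
      rw [Int.abs_eq_natAbs]
      exact_mod_cast hm
    have h6 : (p : ℤ) ^ 2 ≤ (⌊L ^ (19 / 25 : ℝ)⌋₊ : ℤ) ^ 2 := by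
      have : (p : ℤ) ≤ (⌊L ^ (19 / 25 : ℝ)⌋₊ : ℤ) := by exact_mod_cast hpN
      gcongr
    exact mul_le_mul h5 h6 (by positivity) (by positivity)
  exact abs_le.1 h4

omit [Crv] in
lemma fin1 {L α β : ℝ} (hL : 1 ≤ L) (hβ1 : 77 / 100 ≤ β) (hβ2 : α - 1 / 2 ≤ β) :
    L ^ (1 / 1000 : ℝ) * (L ^ (152 / 100 : ℝ) + L ^ (1 / 1000 : ℝ) * (L + L ^ α)) ≤
        3 * (L ^ β * L ^ (759 / 1000 : ℝ)) := by
  have hL0 : 0 < L := by linarith
  have q1 : L ^ (1 / 1000 : ℝ) * L ^ (152 / 100 : ℝ) ≤ L ^ β * L ^ (759 / 1000 : ℝ) := by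
    rw [← Real.rpow_add hL0, ← Real.rpow_add hL0]
    exact Real.rpow_le_rpow_of_exponent_le hL (by linarith)
  have q2 : L ^ (1 / 1000 : ℝ) * (L ^ (1 / 1000 : ℝ) * L) ≤ L ^ β * L ^ (759 / 1000 : ℝ) := by
    have e : L ^ (1 / 1000 : ℝ) * (L ^ (1 / 1000 : ℝ) * L) = L ^ (1 / 1000 + (1 / 1000 + 1) : ℝ) := by
      rw [Real.rpow_add hL0, Real.rpow_add hL0, Real.rpow_one]
    rw [e, ← Real.rpow_add hL0]
    exact Real.rpow_le_rpow_of_exponent_le hL (by linarith)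
  have q3 : L ^ (1 / 1000 : ℝ) * (L ^ (1 / 1000 : ℝ) * L ^ α) ≤
      L ^ β * L ^ (759 / 1000 : ℝ) := by
    rw [← Real.rpow_add hL0, ← Real.rpow_add hL0, ← Real.rpow_add hL0]
    exact Real.rpow_le_rpow_of_exponent_le hL (by linarith)
  calc L ^ (1 / 1000 : ℝ) * (L ^ (152 / 100 : ℝ) + L ^ (1 / 1000 : ℝ) * (L + L ^ α)) =
        L ^ (1 / 1000 : ℝ) * L ^ (152 / 100 : ℝ) +
        L ^ (1 / 1000 : ℝ) * (L ^ (1 / 1000 : ℝ) * L) +
        L ^ (1 / 1000 : ℝ) * (L ^ (1 / 1000 : ℝ) * L ^ α) := by ring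
    _ ≤ _ := by linarith

omit [Crv] in
lemma fin2 {C K E D X A e s : ℝ} (hC : 0 ≤ C) (hK : 0 ≤ K) (hE : 0 ≤ E) (hD : 0 ≤ D) (hX : 0 ≤ X)
    (hA : 0 ≤ A) (he : 0 ≤ e) (hs : 0 ≤ s) :
    C * (X * A + (K * e) * (E * s) * (D * X)) ≤ C * (1 + K * E * D) * X * (A + e * s) := by
  have h1 : 0 ≤ A * (K * E * D * X) := by positivity
  have h2 : 0 ≤ X * (e * s) := by positivity
  have h3 : X * A + (K * e) * (E * s) * (D * X) ≤ (1 + K * E * D) * X * (A + e * s) := by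
    have h4 : (1 + K * E * D) * X * (A + e * s) = X * A + (K * e) * (E * s) * (D * X) +
      (A * (K * E * D * X) + X * (e * s)) := by ring
    rw [h4]
    linarith
  calc C * (X * A + (K * e) * (E * s) * (D * X)) ≤ C * ((1 + K * E * D) * X * (A + e * s)) :=
        mul_le_mul_of_nonneg_left h3 hC
    _ = _ := by ring

omit [Crv] in
lemma fin3 {M C₃ K e B N G X Q P Y : ℝ} (hC₃ : 0 ≤ C₃) (hK : 0 ≤ K) (he : 0 ≤ e) (hG : 0 ≤ G)
    (hX : 0 ≤ X) (hN : 0 < N) (hPN : P ≤ N) (hY : 0 ≤ Y)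
    (hM : M ≤ K * e) (hM0 : 0 ≤ M) (hB0 : 0 ≤ B)
    (hB : B ≤ G * X * Q) (hQ : e * Q ≤ 3 * (Y * P)) :
    3 * (C₃ * M * B) / N ≤ 3 * (C₃ * K) * G * 3 * (Y * X) := by
  rw [div_le_iff₀ hN]
  calc 3 * (C₃ * M * B) ≤ 3 * (C₃ * (K * e) * (G * X * Q)) := by gcongr
    _ = 3 * (C₃ * K) * G * X * (e * Q) := by ring
    _ ≤ 3 * (C₃ * K) * G * X * (3 * (Y * P)) := by gcongr
    _ = 3 * (C₃ * K) * G * 3 * (Y * X) * P := by ring
    _ ≤ _ := by gcongr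

omit [Crv] in
lemma fin4 {L α β K D C₁ C₂ C₃ X H u N M : ℝ} (hL : 1 ≤ L) (hα : 0 ≤ α) (hβ1 : 77 / 100 ≤ β)
    (hβ2 : α - 1 / 2 ≤ β) (hK1 : 1 ≤ K) (hD0 : 0 ≤ D) (hC₁ : 1 ≤ C₁) (hC₂ : 1 ≤ C₂) (hC₃ : 1 ≤ C₃)
    (hX : 0 ≤ X) (hH0 : 0 ≤ H) (hu : 0 < u)
    (hHle : H ≤ X * L ^ (152 / 100 : ℝ)) (h1 : 1 / u ≤ D * X) (hN0 : 0 < N)
    (hN : L ^ (759 / 1000 : ℝ) ≤ N)
    (hdiv : M ≤ 3 * (C₃ * (K * L) ^ (1 / 1000 : ℝ) * (C₂ * (H + (K * L) ^ (1 / 1000 : ℝ) *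
      ((K * L) + (K * L) ^ α) / u))) / N + 15 * L ^ (-(3 / 4) : ℝ) * (C₁ * L ^ α * X)) :
    M ≤ (3 * (C₃ * K) * (C₂ * (1 + K * (K + K ^ α) * D)) * 3 + 15 * C₁) * L ^ β * X := by
  have hL0 : 0 < L := by linarith
  set L₁ := K * L with hL₁
  set B := C₂ * (H + L₁ ^ (1 / 1000 : ℝ) * (L₁ + L₁ ^ α) / u) with hB
  have hL₁0 : 0 < L₁ := by positivity
  have hB0 : 0 ≤ B := by positivity
  have hLe : L₁ ^ (1 / 1000 : ℝ) ≤ K * L ^ (1 / 1000 : ℝ) := by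
    rw [hL₁, Real.mul_rpow (by linarith) hL0.le]
    have : K ^ (1 / 1000 : ℝ) ≤ K ^ (1 : ℝ) :=
      Real.rpow_le_rpow_of_exponent_le hK1 (by norm_num)
    rw [Real.rpow_one] at this
    gcongr
  have hLα : L₁ ^ α = K ^ α * L ^ α := by
    rw [hL₁, Real.mul_rpow (by linarith) hL0.le]
  have hs0 : 0 ≤ L + L ^ α := by positivity
  have hE0 : 0 ≤ K + K ^ α := by positivity
  have hBle : B ≤ C₂ * (1 + K * (K + K ^ α) * D) * X *
      (L ^ (152 / 100 : ℝ) + L ^ (1 / 1000 : ℝ) * (L + L ^ α)) := by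
    have h2 : L₁ + L₁ ^ α ≤ (K + K ^ α) * (L + L ^ α) := by
      rw [hLα, hL₁]
      have h3 : 0 ≤ K * L ^ α := by positivity
      have h4 : 0 ≤ K ^ α * L := by positivity
      have h5 : (K + K ^ α) * (L + L ^ α) = K * L + K ^ α * L ^ α + (K * L ^ α + K ^ α * L) := by
        ring
      rw [h5]
      linarith
    have h3 : L₁ ^ (1 / 1000 : ℝ) * (L₁ + L₁ ^ α) / u ≤
        (K * L ^ (1 / 1000 : ℝ)) * ((K + K ^ α) * (L + L ^ α)) * (D * X) := by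
      rw [div_eq_mul_one_div]
      have h0 : 0 ≤ L₁ + L₁ ^ α := by positivity
      exact mul_le_mul (mul_le_mul hLe h2 h0 (by positivity)) h1 (by positivity) (by positivity)
    refine le_trans ?_ (fin2 (by linarith) (by linarith) hE0 hD0 hX (by positivity)
      (by positivity) hs0)
    rw [hB]
    exact mul_le_mul_of_nonneg_left (add_le_add hHle h3) (by linarith)
  have hp1 := fin1 hL hβ1 hβ2
  have hp2 : L ^ (-(3 / 4) : ℝ) * L ^ α ≤ L ^ β := by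
    rw [← Real.rpow_add hL0]
    exact Real.rpow_le_rpow_of_exponent_le hL (by linarith)
  have hT1 := fin3 (M := L₁ ^ (1 / 1000 : ℝ)) (C₃ := C₃) (K := K) (e := L ^ (1 / 1000 : ℝ))
    (B := B) (N := N) (G := C₂ * (1 + K * (K + K ^ α) * D)) (X := X)
    (Q := L ^ (152 / 100 : ℝ) + L ^ (1 / 1000 : ℝ) * (L + L ^ α)) (P := L ^ (759 / 1000 : ℝ))
    (Y := L ^ β) (by linarith) (by linarith) (by positivity) (by positivity) hX hN0 hN
    (by positivity) hLe (by positivity) hB0 hBle hp1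
  have hT2 : 15 * L ^ (-(3 / 4) : ℝ) * (C₁ * L ^ α * X) ≤ 15 * C₁ * (L ^ β * X) := by
    calc 15 * L ^ (-(3 / 4) : ℝ) * (C₁ * L ^ α * X) =
          15 * C₁ * ((L ^ (-(3 / 4) : ℝ) * L ^ α) * X) := by ring
      _ ≤ _ := mul_le_mul_of_nonneg_left (mul_le_mul_of_nonneg_right hp2 hX) (by linarith)
  have hT4 := hdiv.trans (add_le_add hT1 hT2)
  refine hT4.trans (le_of_eq ?_)
  ring

/-- the primal step -/
theorem prim (hTS : StTS) (hTp : StTp) (hDual : StDual) {c₀ : ℝ} (hc₀ : 0 < c₀) (n : ℕ) {α : ℝ}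
    (hα : 0 ≤ α) (hLev : StLev n α) : ∃ C : ℝ, 1 ≤ C ∧ ∀ (L : ℝ) (X : ℕ), 1 ≤ L → 1 ≤ X →
    Real.log X ≤ L → ∀ u : ℝ, c₀ / X ≤ u → ∀ k, Kn (n + 5) k →
    MT X u k ≤ C * L ^ (max (α - 1 / 2) (77 / 100)) * X := by
  obtain ⟨L₀, hL₀, hcard⟩ := PL_card
  obtain ⟨C₁, hC₁, hlev⟩ := hLev
  obtain ⟨C₂, hC₂, hdual⟩ := hDual n α (1 / 1000) (by norm_num) hα ⟨C₁, hC₁, hlev⟩
  obtain ⟨C₃, hC₃, hts⟩ := hTS (1 / 1000) (by norm_num)
  set β := max (α - 1 / 2) (77 / 100) with hβ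
  have hβ1 : 77 / 100 ≤ β := le_max_right _ _
  have hβ2 : α - 1 / 2 ≤ β := le_max_left _ _
  set K := 4 + |Real.log c₀| with hK
  have hK1 : 1 ≤ K := by have := abs_nonneg (Real.log c₀); linarith
  have hKα : 1 ≤ K ^ α := Real.one_le_rpow hK1 hα
  set D := 1 / c₀ with hD
  have hD0 : 0 < D := by positivity
  refine ⟨C₁ * L₀ ^ α + 3 * (C₃ * K) * (C₂ * (1 + K * (K + K ^ α) * D)) * 3 + 15 * C₁, ?_, ?_⟩
  · have h1 : 1 ≤ L₀ ^ α := Real.one_le_rpow hL₀ hα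
    have h2 : 1 ≤ C₁ * L₀ ^ α := one_le_mul_of_one_le_of_one_le hC₁ h1
    have h3 : 0 ≤ 3 * (C₃ * K) * (C₂ * (1 + K * (K + K ^ α) * D)) * 3 := by positivity
    linarith
  intro L X hL hX hLX u hu k hk
  have hL0 : 0 < L := by linarith
  have hXp : (0 : ℝ) < X := by exact_mod_cast hX
  have hu0 : 0 < u := lt_of_lt_of_le (by positivity) hu
  have hLβ : 1 ≤ L ^ β := Real.one_le_rpow hL (by linarith)
  have hk0 : Kn 0 k := hk.mono (by omega)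
  have hkn : Kn n k := hk.mono (by omega)
  have hpos2 : 0 ≤ 3 * (C₃ * K) * (C₂ * (1 + K * (K + K ^ α) * D)) * 3 := by positivity
  by_cases hcase : L < L₀
  · -- small `L`
    have h1 := hlev L X hL hX hLX u hu0 k hkn
    have h2 : L ^ α ≤ L₀ ^ α := Real.rpow_le_rpow hL0.le hcase.le hα
    calc MT X u k ≤ C₁ * L ^ α * X := h1
      _ ≤ C₁ * L₀ ^ α * X := by gcongr
      _ = (C₁ * L₀ ^ α) * 1 * X := by ring
      _ ≤ (C₁ * L₀ ^ α + 3 * (C₃ * K) * (C₂ * (1 + K * (K + K ^ α) * D)) * 3 + 15 * C₁) *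
          L ^ β * X := by
          gcongr
          linarith
  · -- large `L`
    have hLL : L₀ ≤ L := not_lt.1 hcase
    have hN := hcard L hLL
    set N : ℝ := ((PL L).card : ℝ) with hNdef
    have hN1 : 0 < L ^ (759 / 1000 : ℝ) := by positivity
    have hN0 : 0 < N := lt_of_lt_of_le hN1 hN
    set H := X * ⌊L ^ (19 / 25 : ℝ)⌋₊ ^ 2 with hH
    set L₁ := K * L with hL₁
    have hL₁1 : 1 ≤ L₁ := one_le_mul_of_one_le_of_one_le hK1 hL
    -- size of `H`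
    have hfl1 : 1 ≤ ⌊L ^ (19 / 25 : ℝ)⌋₊ := by
      rw [Nat.one_le_floor_iff]
      exact Real.one_le_rpow hL (by norm_num)
    have hfl2 : ((⌊L ^ (19 / 25 : ℝ)⌋₊ : ℕ) : ℝ) ≤ L ^ (19 / 25 : ℝ) := Nat.floor_le (by positivity)
    have hH1 : 1 ≤ H := Nat.succ_le_of_lt (Nat.mul_pos hX (pow_pos hfl1 2))
    have hHle : (H : ℝ) ≤ X * L ^ (152 / 100 : ℝ) := by
      rw [hH]
      push_cast
      have e1 : L ^ (152 / 100 : ℝ) = L ^ (19 / 25 : ℝ) * L ^ (19 / 25 : ℝ) := by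
        rw [← Real.rpow_add hL0]; norm_num
      rw [e1, sq]
      gcongr
    have hlogH : Real.log H ≤ L₁ := by
      have h1 : (0 : ℝ) < H := by exact_mod_cast hH1
      have h2 : Real.log H ≤ Real.log (X * L ^ (152 / 100 : ℝ)) := Real.log_le_log h1 hHle
      rw [Real.log_mul hXp.ne' (by positivity), Real.log_rpow hL0] at h2
      have h3 : Real.log L ≤ L := (Real.log_le_sub_one_of_pos hL0).trans (by linarith)
      have h4 : 4 * L ≤ L₁ := by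
        rw [hL₁, hK]
        have := mul_nonneg (abs_nonneg (Real.log c₀)) hL0.le
        nlinarith
      linarith
    have hexp : Real.exp (-L₁) ≤ u := by
      refine le_trans ?_ hu
      have h1 : Real.exp (-L) ≤ 1 / X := by
        rw [Real.exp_neg, ← one_div]
        apply one_div_le_one_div_of_le hXp
        rw [← Real.exp_log hXp]
        exact Real.exp_le_exp.2 hLX
      have h2 : Real.exp (-|Real.log c₀|) ≤ c₀ := by
        calc Real.exp (-|Real.log c₀|) ≤ Real.exp (Real.log c₀) :=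
              Real.exp_le_exp.2 (neg_abs_le _)
          _ = c₀ := Real.exp_log hc₀
      have h3 : -L₁ ≤ -|Real.log c₀| + -L := by
        rw [hL₁, hK]
        have := mul_nonneg (abs_nonneg (Real.log c₀)) (by linarith : 0 ≤ L - 1)
        nlinarith
      calc Real.exp (-L₁) ≤ Real.exp (-|Real.log c₀| + -L) := Real.exp_le_exp.2 h3
        _ = Real.exp (-|Real.log c₀|) * Real.exp (-L) := Real.exp_add _ _
        _ ≤ c₀ * (1 / X) := by gcongr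
        _ = c₀ / X := by ring
    -- the second moment over `m p²`
    set B := C₂ * (H + L₁ ^ (1 / 1000 : ℝ) * (L₁ + L₁ ^ α) / u) with hB
    have hL₁0 : 0 < L₁ := by linarith
    have hB0 : 0 ≤ B := by positivity
    have hS : ∑ h ∈ mp2 X L, Tw h u k ^ 2 ≤ C₃ * L₁ ^ (1 / 1000 : ℝ) * B := by
      have h1 := hts L₁ B u (n + 4) (mp2 X L) (fun _ => 1) hL₁1 hu0 hB0 ?_ ?_ k hk
      · simpa using h1
      · intro h hh
        have h2 := mp2_sub X hL hh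
        unfold hZ at h2
        rw [Finset.mem_erase, Finset.mem_Icc] at h2
        refine ⟨h2.1, ?_, zero_le_one⟩
        have h3 : |(h : ℝ)| ≤ H := by
          rw [abs_le]
          exact ⟨by exact_mod_cast h2.2.1, by exact_mod_cast h2.2.2⟩
        refine h3.trans ?_
        have h1 : (0 : ℝ) < H := by exact_mod_cast hH1
        rw [← Real.exp_log h1]
        exact Real.exp_le_exp.2 hlogH
      · intro u' hu' k' hk'
        simp only [one_mul]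
        have h2 := hdual L₁ u' H k' hL₁1 hH1 hlogH (hexp.trans hu') hk'
        have h3 : ∑ h ∈ mp2 X L, Sw h 1 u' k' ^ 2 ≤ ∑ h ∈ hZ H, Sw h 1 u' k' ^ 2 :=
          Finset.sum_le_sum_of_subset_of_nonneg (fun h hh => mp2_sub X hL hh)
            fun _ _ _ => sq_nonneg _
        refine h3.trans (h2.trans ?_)
        rw [hB]
        gcongr
    -- the average over primes
    have hav : N * MT X u k ≤ 3 * ∑ h ∈ mp2 X L, Tw h u k ^ 2 +
        N * (15 * L ^ (-(3 / 4) : ℝ) * (C₁ * L ^ α * X)) := by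
      have h1 : ∀ p ∈ PL L, MT X u k ≤ 3 * ∑ m ∈ sqZ X, Tw (m * (p : ℤ) ^ 2) u k ^ 2 +
          15 * L ^ (-(3 / 4) : ℝ) * (C₁ * L ^ α * X) := by
        intro p hp
        obtain ⟨hp1, hp2, hp3, hp4⟩ := mem_PL hL hp
        have hpp : (0 : ℝ) < p := by exact_mod_cast hp1.pos
        have h2 : MT X u k ≤ ∑ m ∈ sqZ X, (3 * Tw (m * p ^ 2) u k ^ 2 +
            12 / p * Tw m (p * u) k ^ 2 + 3 / p * Tw m (p ^ 2 * u) k ^ 2) :=
          Finset.sum_le_sum fun m hm => one_prime hTp (sqZ_ne hm) hp1 hp2 hu0 hk0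
        rw [Finset.sum_add_distrib, Finset.sum_add_distrib, ← Finset.mul_sum, ← Finset.mul_sum,
          ← Finset.mul_sum] at h2
        have h3 := hlev L X hL hX hLX (p * u) (by positivity) k hkn
        have h4 := hlev L X hL hX hLX (p ^ 2 * u) (by positivity) k hkn
        unfold MT at h3 h4
        have h5 : 1 / (p : ℝ) ≤ L ^ (-(3 / 4) : ℝ) := by
          rw [Real.rpow_neg hL0.le, ← one_div]
          exact one_div_le_one_div_of_le (by positivity) hp3.le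
        have h6 : 12 / (p : ℝ) * ∑ m ∈ sqZ X, Tw m (p * u) k ^ 2 ≤
            12 * L ^ (-(3 / 4) : ℝ) * (C₁ * L ^ α * X) := by
          have : 12 / (p : ℝ) ≤ 12 * L ^ (-(3 / 4) : ℝ) := by
            rw [div_eq_mul_one_div]; gcongr
          exact mul_le_mul this h3 (Finset.sum_nonneg fun _ _ => sq_nonneg _) (by positivity)
        have h7 : 3 / (p : ℝ) * ∑ m ∈ sqZ X, Tw m (p ^ 2 * u) k ^ 2 ≤
            3 * L ^ (-(3 / 4) : ℝ) * (C₁ * L ^ α * X) := by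
          have : 3 / (p : ℝ) ≤ 3 * L ^ (-(3 / 4) : ℝ) := by
            rw [div_eq_mul_one_div]; gcongr
          exact mul_le_mul this h4 (Finset.sum_nonneg fun _ _ => sq_nonneg _) (by positivity)
        linarith
      have h2 := Finset.sum_le_sum h1
      rw [Finset.sum_const, nsmul_eq_mul, Finset.sum_add_distrib, ← Finset.mul_sum,
        Finset.sum_const, nsmul_eq_mul, mp2_sum X hL (fun h => Tw h u k ^ 2)] at h2
      exact h2
    -- conclusion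
    have hdiv : MT X u k ≤ 3 * (C₃ * L₁ ^ (1 / 1000 : ℝ) * B) / N +
        15 * L ^ (-(3 / 4) : ℝ) * (C₁ * L ^ α * X) := by
      have h1 : MT X u k * N ≤ (3 * (C₃ * L₁ ^ (1 / 1000 : ℝ) * B) / N +
        15 * L ^ (-(3 / 4) : ℝ) * (C₁ * L ^ α * X)) * N := by
        rw [add_mul, div_mul_cancel₀ _ hN0.ne']
        linarith
      exact le_of_mul_le_mul_right h1 hN0
    have h1u : 1 / u ≤ D * X := by
      rw [hD]
      have : 1 / u ≤ 1 / (c₀ / X) := one_div_le_one_div_of_le (by positivity) hu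
      refine this.trans (le_of_eq ?_)
      field_simp
    have hfin := fin4 hL hα hβ1 hβ2 hK1 hD0.le hC₁ hC₂ hC₃ hXp.le (Nat.cast_nonneg H) hu0 hHle h1u
      hN0 hN hdiv
    refine hfin.trans ?_
    have hT3 : 0 ≤ C₁ * L₀ ^ α := by positivity
    gcongr
    linarith

/-- Module S6 : one step of the recursion. -/
theorem pfStep (hTS : StTS) (hTp : StTp) (hDual : StDual) (hFE : StFE) : StStep := by
  intro n α hα hLev
  obtain ⟨c₀, hc₀, hfe⟩ := hFE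
  obtain ⟨C₁, hC₁, h1⟩ := prim hTS hTp hDual hc₀ n hα hLev
  obtain ⟨C₂, hC₂, h2⟩ := hfe (n + 5)
  refine ⟨C₂ * C₁, one_le_mul_of_one_le_of_one_le hC₂ hC₁, ?_⟩
  intro L X hL hX hLX u hu k hk
  have hL0 : 0 < L := by linarith
  have h3 := h2 X (C₁ * L ^ (max (α - 1 / 2) (77 / 100))) hX (by positivity) ?_ u hu k
    (hk.mono (by omega))
  · calc MT X u k ≤ _ := h3
      _ = _ := by ring
  · intro X' hX'1 hX'X u' hu' k' hk'
    refine h1 L X' hL hX'1 ?_ u' hu' k' hk'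
    refine le_trans ?_ hLX
    apply Real.log_le_log
    · exact_mod_cast hX'1
    · exact_mod_cast hX'X

end P004E
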