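import Vale.Agent.P004E.H394.K5

/-!
# P004E, module S6: base level and iteration
-/

open Real MeasureTheory Set Filter
open scoped ENNReal Topology

namespace P004E

open P004G

variable [Crv]

lemma measurable_theta (m : ℤ) : Measurable fun u => theta m u := by
  unfold theta
  refine Measurable.const_mul ?_ 4
  refine Measurable.tsum fun n => ?_
  fun_prop

/-- the a priori bound -/
lemma Tw_sq_le_Jz (m : ℤ) {u : ℝ} (hu : 0 < u) {k : ℝ → ℝ} (hk : Kn 0 k) :
    ENNReal.ofReal (Tw m u k ^ 2) ≤ Jz m := by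
  have hθ := measurable_theta m
  set F : ℝ → ℝ≥0∞ := fun v => ENNReal.ofReal (theta m v ^ 2 * v) with hF
  have hFm : Measurable F := by
    have h1 : Measurable fun v : ℝ => theta m v ^ 2 * v := (hθ.pow_const 2).mul measurable_id
    exact h1.ennreal_ofReal
  set I : ℝ → ℝ≥0∞ := (Icc (0 : ℝ) 1).indicator (fun _ => 1) with hI
  have hIm : Measurable I := measurable_const.indicator measurableSet_Icc
  set G : ℝ → ℝ≥0∞ := fun x => ‖u * Real.exp x * theta m (u * Real.exp x)‖ₑ with hG
  have hGm : Measurable G := by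
    have h1 : Measurable fun x : ℝ => u * Real.exp x := by fun_prop
    exact (h1.mul (hθ.comp h1)).enorm
  have e1 : ENNReal.ofReal (Tw m u k ^ 2) = ‖Tw m u k‖ₑ ^ 2 := by
    rw [Real.enorm_eq_ofReal_abs, ← ENNReal.ofReal_pow (abs_nonneg _), sq_abs]
  rw [e1]
  have h1 : ‖Tw m u k‖ₑ ≤ ∫⁻ x, I x * G x := by
    unfold Tw
    refine (enorm_integral_le_lintegral_enorm _).trans (lintegral_mono fun x => ?_)
    simp only [hI, hG]
    rw [enorm_mul]
    by_cases hx : x ∈ Icc (0 : ℝ) 1
    · rw [indicator_of_mem hx, one_mul]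
      refine mul_le_of_le_one_right zero_le ?_
      rw [Real.enorm_eq_ofReal_abs, ← ENNReal.ofReal_one]
      exact ENNReal.ofReal_le_ofReal (hk.abs_le x)
    · rw [hk.eq_zero hx, enorm_zero, mul_zero]
      exact zero_le
  have h2 := cs_w volume hIm.aemeasurable hGm.aemeasurable
  have h3 : ∫⁻ x, I x = 1 := by
    rw [hI, lintegral_indicator measurableSet_Icc]
    simp
  rw [h3, one_mul] at h2
  have h4 : ∫⁻ x, I x * G x ^ 2 ≤ Jz m := by
    have h5 : ∀ x, I x * G x ^ 2 = (Icc (0 : ℝ) 1).indicator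
        (fun x => ENNReal.ofReal |u * Real.exp x| * F (u * Real.exp x)) x := by
      intro x
      simp only [hI, hG, hF]
      by_cases hx : x ∈ Icc (0 : ℝ) 1
      · rw [indicator_of_mem hx, indicator_of_mem hx, one_mul, Real.enorm_eq_ofReal_abs,
          ← ENNReal.ofReal_pow (abs_nonneg _), sq_abs, ← ENNReal.ofReal_mul (abs_nonneg _)]
        congr 1
        rw [abs_of_pos (by positivity)]
        ring
      · rw [indicator_of_notMem hx, indicator_of_notMem hx, zero_mul]
    simp_rw [h5]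
    rw [lintegral_indicator measurableSet_Icc,
      ← lintegral_image_eq_lintegral_abs_deriv_mul (s := Icc (0 : ℝ) 1)
        (f := fun x => u * Real.exp x) (f' := fun x => u * Real.exp x) measurableSet_Icc
        (fun x _ => ((Real.hasDerivAt_exp x).const_mul u).hasDerivWithinAt)
        (fun x _ y _ hxy => by
          have : Real.exp x = Real.exp y := mul_left_cancel₀ hu.ne' hxy
          exact Real.exp_injective this) F]
    unfold Jz
    refine lintegral_mono_set ?_
    rintro v ⟨x, hx, rfl⟩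
    simp only [mem_Ioi]
    positivity
  calc ‖Tw m u k‖ₑ ^ 2 ≤ (∫⁻ x, I x * G x) ^ 2 := by gcongr
    _ ≤ _ := h2
    _ ≤ _ := h4

lemma MT_le_sumJ (X : ℕ) {u : ℝ} (hu : 0 < u) {k : ℝ → ℝ} (hk : Kn 0 k) :
    ENNReal.ofReal (MT X u k) ≤ sumJ X := by
  unfold MT
  rw [sumJ_eq, ENNReal.ofReal_sum_of_nonneg fun _ _ => sq_nonneg _]
  exact Finset.sum_le_sum fun m _ => Tw_sq_le_Jz m hu hk

/-- the base level -/
theorem lev0 (hFull : StFull) : ∃ A : ℕ, StLev 0 A := by
  obtain ⟨C, hC, A, h⟩ := hFull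
  refine ⟨A, C * 3 * Real.log 3 ^ A + C, ?_, ?_⟩
  · have h3 : 0 ≤ Real.log 3 := Real.log_nonneg (by norm_num)
    have : 0 ≤ C * 3 * Real.log 3 ^ A := by positivity
    linarith
  intro L X hL hX hLX u hu k hk
  have hL0 : 0 < L := by linarith
  have h3 : 0 ≤ Real.log 3 := Real.log_nonneg (by norm_num)
  have hX1 : (1 : ℝ) ≤ X := by exact_mod_cast hX
  rw [Real.rpow_natCast]
  have hLA : 1 ≤ L ^ A := one_le_pow₀ hL
  by_cases h3X : 3 ≤ X
  · have h1 := (MT_le_sumJ X hu hk).trans (h X h3X)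
    have h2 : MT X u k ≤ C * X * Real.log X ^ A := by
      have h4 : 0 ≤ C * X * Real.log X ^ A := by
        have := Real.log_nonneg hX1
        positivity
      exact (ENNReal.ofReal_le_ofReal_iff h4).1 h1
    have h5 : Real.log X ^ A ≤ L ^ A := by
      have := Real.log_nonneg hX1
      gcongr
    calc MT X u k ≤ C * X * Real.log X ^ A := h2
      _ ≤ C * X * L ^ A := by gcongr
      _ = (0 + C) * L ^ A * X := by ring
      _ ≤ _ := by
          gcongr
          positivity
  · have h1 := (MT_le_sumJ 3 hu hk).trans (h 3 le_rfl)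
    have h2 : MT 3 u k ≤ C * (3 : ℕ) * Real.log (3 : ℕ) ^ A := by
      have h4 : 0 ≤ C * (3 : ℕ) * Real.log (3 : ℕ) ^ A := by
        push_cast
        positivity
      exact (ENNReal.ofReal_le_ofReal_iff h4).1 h1
    have h6 : MT X u k ≤ MT 3 u k := by
      unfold MT
      refine Finset.sum_le_sum_of_subset_of_nonneg ?_ fun _ _ _ => sq_nonneg _
      intro m hm
      rw [mem_sqZ] at hm ⊢
      exact ⟨by omega, hm.2⟩
    push_cast at h2
    have h7 : 0 ≤ C * 3 * Real.log 3 ^ A := by positivity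
    calc MT X u k ≤ C * 3 * Real.log 3 ^ A := h6.trans h2
      _ = (C * 3 * Real.log 3 ^ A + 0) * 1 * 1 := by ring
      _ ≤ _ := by gcongr; linarith

lemma lev_iter (hStep : StStep) {A : ℕ} (h0 : StLev 0 A) (K : ℕ) :
    StLev (10 * K) (max (A - K / 2) (77 / 100)) := by
  induction K with
  | zero =>
    obtain ⟨C, hC, h⟩ := h0
    refine ⟨C, hC, fun L X hL hX hLX u hu k hk => (h L X hL hX hLX u hu k hk).trans ?_⟩
    have hL0 : 0 < L := by linarith
    have : L ^ (A : ℝ) ≤ L ^ (max ((A : ℝ) - ((0 : ℕ) : ℝ) / 2) (77 / 100)) := by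
      refine Real.rpow_le_rpow_of_exponent_le hL ?_
      push_cast
      have := le_max_left ((A : ℝ) - 0 / 2) (77 / 100)
      linarith
    gcongr
  | succ K ih =>
    have h1 := hStep (10 * K) (max (A - K / 2) (77 / 100)) (by
      have := le_max_right ((A : ℝ) - K / 2) (77 / 100)
      linarith) ih
    have e1 : 10 * K + 10 = 10 * (K + 1) := by ring
    rw [e1] at h1
    obtain ⟨C, hC, h⟩ := h1
    refine ⟨C, hC, fun L X hL hX hLX u hu k hk => (h L X hL hX hLX u hu k hk).trans ?_⟩
    have hL0 : 0 < L := by linarith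
    have : L ^ (max (max ((A : ℝ) - K / 2) (77 / 100) - 1 / 2) (77 / 100)) ≤
        L ^ (max ((A : ℝ) - ((K + 1 : ℕ) : ℝ) / 2) (77 / 100)) := by
      refine Real.rpow_le_rpow_of_exponent_le hL ?_
      push_cast
      refine max_le ?_ (le_max_right _ _)
      rcases le_total ((A : ℝ) - K / 2) (77 / 100) with h5 | h5
      · rw [max_eq_right h5]
        exact le_trans (by norm_num) (le_max_right _ _)
      · rw [max_eq_left h5]
        refine le_trans (le_of_eq ?_) (le_max_left _ _)
        ring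
    gcongr

/-- the final level -/
theorem lev_fin (hFull : StFull) (hStep : StStep) : ∃ n : ℕ, StLev n (77 / 100) := by
  obtain ⟨A, h0⟩ := lev0 hFull
  have h := lev_iter hStep h0 (2 * A)
  have e : max ((A : ℝ) - ((2 * A : ℕ) : ℝ) / 2) (77 / 100) = 77 / 100 := by
    push_cast
    rw [show (A : ℝ) - 2 * A / 2 = 0 by ring]
    exact max_eq_right (by norm_num)
  rw [e] at h
  exact ⟨_, h⟩

end P004E
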