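import Vale.Agent.P004E.H394.S6c
import Vale.Agent.P004E.H394.K2
import Vale.Agent.P004G.H503.Theta

/-!
# P004E, module S6: the strip from the final level (smooth partition of unity)
-/

open Real MeasureTheory Set Filter
open scoped ENNReal Topology

namespace P004E

open P004G

/-! ### the partition of unity -/

/-- the bump: `∑ φ (x - i/2) = 1`, supported in `[0,1]` -/
noncomputable def bump (x : ℝ) : ℝ :=
  Real.smoothTransition (2 * x) - Real.smoothTransition (2 * x - 1)

lemma bump_smooth (n : ℕ) : ContDiff ℝ n bump := by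
  unfold bump
  have h1 : ContDiff ℝ n Real.smoothTransition := Real.smoothTransition.contDiff (n := n)
  have h2 : ContDiff ℝ n (fun x : ℝ => 2 * x) := contDiff_const.mul contDiff_id
  have h3 : ContDiff ℝ n (fun x : ℝ => 2 * x - 1) := h2.sub contDiff_const
  exact (h1.comp h2).sub (h1.comp h3)

lemma bump_supp {x : ℝ} (hx : bump x ≠ 0) : 0 ≤ x ∧ x ≤ 1 := by
  unfold bump at hx
  constructor
  · by_contra h0
    push Not at h0
    apply hx
    rw [Real.smoothTransition.zero_of_nonpos (by linarith),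
      Real.smoothTransition.zero_of_nonpos (by linarith), sub_zero]
  · by_contra h0
    push Not at h0
    apply hx
    rw [Real.smoothTransition.one_of_one_le (by linarith),
      Real.smoothTransition.one_of_one_le (by linarith), sub_self]

lemma bump_sum (M : ℕ) {x : ℝ} (h1 : 1 ≤ 2 * x + M) (h2 : 2 * x ≤ M) :
    ∑ j ∈ Finset.range (2 * M), bump (x - ((j : ℝ) - M) / 2) = 1 := by
  have e1 : ∀ j ∈ Finset.range (2 * M), bump (x - ((j : ℝ) - M) / 2) =
      (fun i : ℕ => Real.smoothTransition (2 * x + M - i)) j -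
        (fun i : ℕ => Real.smoothTransition (2 * x + M - i)) (j + 1) := by
    intro j _
    unfold bump
    simp only
    have e2 : 2 * (x - ((j : ℝ) - M) / 2) = 2 * x + M - j := by ring
    rw [e2]
    have e3 : 2 * x + (M : ℝ) - j - 1 = 2 * x + M - ((j + 1 : ℕ) : ℝ) := by
      push_cast
      ring
    rw [e3]
  rw [Finset.sum_congr rfl e1, Finset.sum_range_sub']
  push_cast
  rw [Real.smoothTransition.one_of_one_le (by linarith),
    Real.smoothTransition.zero_of_nonpos (by linarith), sub_zero]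

/-- the bump as a window -/
lemma bump_Kn (n : ℕ) : ∃ M : ℝ, 1 ≤ M ∧ Kn n (fun x => bump x / M) := by
  have hb : ∀ i : ℕ, ∃ M : ℝ, ∀ x, |iteratedDeriv i bump x| ≤ M := by
    intro i
    have hc : Continuous (iteratedDeriv i bump) :=
      (bump_smooth i).continuous_iteratedDeriv i le_rfl
    obtain ⟨M, hM⟩ := isCompact_Icc.exists_bound_of_continuousOn (s := Icc (0 : ℝ) 1)
      hc.continuousOn
    refine ⟨max M 0, fun x => ?_⟩
    by_cases hx : x ∈ Icc (0 : ℝ) 1
    · exact (hM x hx).trans (le_max_left _ _)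
    · have hU : (Icc (0 : ℝ) 1)ᶜ ∈ 𝓝 x := isClosed_Icc.isOpen_compl.mem_nhds hx
      have h1 : bump =ᶠ[𝓝 x] fun _ => (0 : ℝ) := by
        filter_upwards [hU] with y hy
        by_contra h0
        exact hy ⟨(bump_supp h0).1, (bump_supp h0).2⟩
      rw [h1.iteratedDeriv_eq i]
      simp [iteratedDeriv_const]
  choose M hM using hb
  set B : ℝ := 1 + ∑ i ∈ Finset.range (n + 1), |M i| with hB
  have hB1 : 1 ≤ B := by
    have : 0 ≤ ∑ i ∈ Finset.range (n + 1), |M i| := Finset.sum_nonneg fun _ _ => abs_nonneg _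
    linarith
  refine ⟨B, hB1, ?_, ?_, ?_⟩
  · exact (bump_smooth n).div_const _
  · intro x hx
    exact bump_supp fun h0 => hx (by rw [h0]; simp)
  · intro i hi x
    have e1 : iteratedDeriv i (fun x => bump x / B) x = iteratedDeriv i bump x / B := by
      simp_rw [div_eq_inv_mul]
      rw [iteratedDeriv_const_mul_field]
    rw [e1, abs_div, abs_of_pos (by linarith : 0 < B), div_le_one (by linarith)]
    have h2 : |M i| ≤ ∑ i ∈ Finset.range (n + 1), |M i| :=
      Finset.single_le_sum (f := fun i => |M i|) (fun _ _ => abs_nonneg _)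
        (Finset.mem_range.2 (by omega))
    have := hM i x
    have := le_abs_self (M i)
    linarith

/-! ### change of variables -/

lemma image_exp_div {Y : ℝ} (hY : 0 < Y) :
    (fun x : ℝ => Real.exp x / Y) '' univ = Ioi (0 : ℝ) := by
  ext u
  simp only [image_univ, mem_range, mem_Ioi]
  constructor
  · rintro ⟨x, rfl⟩
    positivity
  · intro hu
    refine ⟨Real.log (u * Y), ?_⟩
    rw [Real.exp_log (by positivity)]
    field_simp

variable [Crv]

lemma Fw_eq {Y : ℕ} (hY : 0 < Y) (h : ℝ → ℝ) (m : ℤ) :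
    Fw Y h m = ∫ x, Real.exp x / Y * theta m (Real.exp x / Y) * h x := by
  have hY' : (0 : ℝ) < Y := by exact_mod_cast hY
  unfold Fw Fn
  rw [← image_exp_div hY']
  rw [integral_image_eq_integral_abs_deriv_smul (s := univ) (f := fun x => Real.exp x / Y)
    (f' := fun x => Real.exp x / Y) MeasurableSet.univ
    (fun x _ => ((Real.hasDerivAt_exp x).div_const (Y : ℝ)).hasDerivWithinAt)
    (fun x _ y _ hxy => by
      have h1 : Real.exp x = Real.exp y := by
        have h2 : Real.exp x / (Y : ℝ) = Real.exp y / Y := hxy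
        field_simp at h2
        exact h2
      exact Real.exp_injective h1)]
  rw [setIntegral_univ]
  refine integral_congr_ae (Eventually.of_forall fun x => ?_)
  simp only [smul_eq_mul]
  rw [abs_of_pos (by positivity)]
  unfold cfY
  have e1 : Real.log (Real.exp x / Y * Y) = x := by
    rw [div_mul_cancel₀ _ hY'.ne', Real.log_exp]
  rw [e1]
  ring

lemma Tw_int (m : ℤ) {u : ℝ} (hu : 0 < u) {k : ℝ → ℝ} (hk : Continuous k)
    (hs : ∀ x, k x ≠ 0 → 0 ≤ x ∧ x ≤ 1) :
    Integrable (fun x => u * Real.exp x * theta m (u * Real.exp x) * k x) := by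
  have hc : Continuous (fun x => u * Real.exp x * theta m (u * Real.exp x) * k x) := by
    have h1 : Continuous fun x : ℝ => u * Real.exp x := by fun_prop
    have h2 : Continuous fun x : ℝ => theta m (u * Real.exp x) :=
      (Th.continuousOn_theta m).comp_continuous h1 fun x => by
        simp only [mem_Ioi]
        positivity
    exact (h1.mul h2).mul hk
  refine hc.integrable_of_hasCompactSupport ?_
  refine HasCompactSupport.intro (K := Icc (0 : ℝ) 1) isCompact_Icc fun x hx => ?_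
  have : k x = 0 := by
    by_contra h0
    exact hx ⟨(hs x h0).1, (hs x h0).2⟩
  simp [this]

/-- decomposition of the functional into unit windows -/
lemma Fw_dec {Y : ℕ} (hY : 0 < Y) {h : ℝ → ℝ} (hc : Continuous h) {R : ℝ}
    (hs : ∀ x, h x ≠ 0 → |x| ≤ R) {M : ℕ} (hM : 2 * R + 1 ≤ M) (m : ℤ) :
    Fw Y h m = ∑ j ∈ Finset.range (2 * M),
      Tw m (Real.exp (((j : ℝ) - M) / 2) / Y) (fun y => h (y + ((j : ℝ) - M) / 2) * bump y) := by
  have hY' : (0 : ℝ) < Y := by exact_mod_cast hY
  rw [Fw_eq hY]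
  have hbc : Continuous bump := (bump_smooth 0).continuous
  set g : ℕ → ℝ → ℝ := fun j y =>
    Real.exp (((j : ℝ) - M) / 2) / Y * Real.exp y *
      theta m (Real.exp (((j : ℝ) - M) / 2) / Y * Real.exp y) *
        (h (y + ((j : ℝ) - M) / 2) * bump y) with hg
  have hgi : ∀ j, Integrable (g j) := by
    intro j
    refine Tw_int m (by positivity) (k := fun y => h (y + ((j : ℝ) - M) / 2) * bump y) ?_ ?_
    · exact (hc.comp (by fun_prop)).mul hbc
    · intro x hx
      exact bump_supp fun h0 => hx (by simp [h0])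
  have e1 : ∀ x, Real.exp x / Y * theta m (Real.exp x / Y) * h x =
      ∑ j ∈ Finset.range (2 * M), g j (x - ((j : ℝ) - M) / 2) := by
    intro x
    have e2 : ∀ j : ℕ, g j (x - ((j : ℝ) - M) / 2) =
        Real.exp x / Y * theta m (Real.exp x / Y) * h x * bump (x - ((j : ℝ) - M) / 2) := by
      intro j
      simp only [hg]
      have e3 : Real.exp (((j : ℝ) - M) / 2) / Y * Real.exp (x - ((j : ℝ) - M) / 2) =
          Real.exp x / Y := by
        rw [div_mul_eq_mul_div, ← Real.exp_add]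
        congr 2
        ring
      rw [e3, sub_add_cancel]
      ring
    simp_rw [e2]
    rw [← Finset.mul_sum]
    by_cases hx : h x = 0
    · rw [hx]
      simp
    · have h1 := abs_le.1 (hs x hx)
      rw [bump_sum M (by linarith) (by linarith), mul_one]
  simp_rw [e1]
  rw [integral_finset_sum _ fun j _ => (hgi j).comp_sub_right _]
  refine Finset.sum_congr rfl fun j _ => ?_
  rw [integral_sub_right_eq_self (g j)]
  rfl

lemma Tw_smul_k (m : ℤ) (u M : ℝ) (k : ℝ → ℝ) :
    Tw m u (fun x => M * k x) = M * Tw m u k := by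
  unfold Tw
  rw [← integral_const_mul]
  refine integral_congr_ae (Eventually.of_forall fun x => ?_)
  simp only
  ring

/-- the pieces are multiples of windows -/
lemma piece_Kn (n : ℕ) : ∃ B : ℝ, 1 ≤ B ∧ ∀ (h : ℝ → ℝ) (t : ℝ), ContDiff ℝ n h →
    (∀ i ≤ n, ∀ x, |iteratedDeriv i h x| ≤ 1) →
    ∃ k : ℝ → ℝ, Kn n k ∧ (fun y => h (y + t) * bump y) = fun y => B * k y := by
  obtain ⟨M, hM, hK⟩ := bump_Kn n
  refine ⟨2 ^ n * M, ?_, fun h t hh hb => ?_⟩
  · have : (1 : ℝ) ≤ 2 ^ n := one_le_pow₀ (by norm_num)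
    nlinarith
  have hM0 : 0 < M := by linarith
  have h1 : ContDiff ℝ n (fun x => h (x + t)) := hh.comp (contDiff_id.add contDiff_const)
  have h2 := hK.mul_smooth h1 (M := 1) one_pos fun i hi x _ => by
    rw [iteratedDeriv_comp_add_const]
    exact hb i hi _
  refine ⟨_, h2, ?_⟩
  funext y
  field_simp

/-- **the strip** -/
theorem pfStrip_of (hLev : ∃ n, StLev n (77 / 100)) : StStrip := by
  obtain ⟨n, C, hC, hL⟩ := hLev
  obtain ⟨B, hB, hP⟩ := piece_Kn n
  refine ⟨n, 144 * B ^ 2 * C, ?_, ?_⟩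
  · have : 1 ≤ B ^ 2 := one_le_pow₀ hB
    nlinarith
  intro Y h hY hh hs hb
  have hY0 : 0 < Y := by omega
  have hY3 : (3 : ℝ) ≤ Y := by exact_mod_cast hY
  set L := Real.log Y with hLdef
  have hL1 : 1 ≤ L := by
    have h1 : Real.exp 1 ≤ Y := by
      have := Real.exp_one_lt_d9
      linarith
    have := Real.log_le_log (Real.exp_pos 1) h1
    rwa [Real.log_exp] at this
  have hL0 : 0 < L := by linarith
  set R : ℝ := L ^ (1 / 100 : ℝ) with hR
  have hR1 : 1 ≤ R := Real.one_le_rpow hL1 (by norm_num)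
  set M : ℕ := ⌈4 * R + 1⌉₊ with hM
  have hM1 : 2 * (2 * R) + 1 ≤ M := by
    have := Nat.le_ceil (4 * R + 1)
    linarith
  have hM2 : (M : ℝ) ≤ 6 * R := by
    have := Nat.ceil_lt_add_one (by positivity : (0 : ℝ) ≤ 4 * R + 1)
    linarith
  choose! kk hk using fun j : ℕ => hP h (((j : ℝ) - M) / 2) hh hb
  have e1 : ∀ m : ℤ, Fw Y h m = ∑ j ∈ Finset.range (2 * M),
      B * Tw m (Real.exp (((j : ℝ) - M) / 2) / Y) (kk j) := by
    intro m
    rw [Fw_dec hY0 hh.continuous hs hM1 m]
    refine Finset.sum_congr rfl fun j _ => ?_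
    rw [(hk j).2, Tw_smul_k]
  have e2 : ∀ m : ℤ, Fw Y h m ^ 2 ≤ (2 * M) * ∑ j ∈ Finset.range (2 * M),
      B ^ 2 * Tw m (Real.exp (((j : ℝ) - M) / 2) / Y) (kk j) ^ 2 := by
    intro m
    rw [e1]
    have h1 := sq_sum_le_card_mul_sum_sq (s := Finset.range (2 * M))
      (f := fun j : ℕ => B * Tw m (Real.exp (((j : ℝ) - M) / 2) / Y) (kk j))
    rw [Finset.card_range] at h1
    refine h1.trans (le_of_eq ?_)
    push_cast
    congr 1
    exact Finset.sum_congr rfl fun j _ => by ring
  have e3 : ∀ j : ℕ, MT Y (Real.exp (((j : ℝ) - M) / 2) / Y) (kk j) ≤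
      C * L ^ (77 / 100 : ℝ) * Y := fun j =>
    hL L Y hL1 (by omega) le_rfl _ (by positivity) _ (hk j).1
  have hLp : L ^ (77 / 100 : ℝ) * (R * R) ≤ L ^ (4 / 5 : ℝ) := by
    rw [hR, ← Real.rpow_add hL0, ← Real.rpow_add hL0]
    exact Real.rpow_le_rpow_of_exponent_le hL1 (by norm_num)
  calc ∑ m ∈ (sqZ Y).filter (fun m => Y < 2 * m.natAbs), Fw Y h m ^ 2
      ≤ ∑ m ∈ sqZ Y, Fw Y h m ^ 2 :=
        Finset.sum_le_sum_of_subset_of_nonneg (Finset.filter_subset _ _) fun _ _ _ => sq_nonneg _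
    _ ≤ ∑ m ∈ sqZ Y, (2 * M) * ∑ j ∈ Finset.range (2 * M),
          B ^ 2 * Tw m (Real.exp (((j : ℝ) - M) / 2) / Y) (kk j) ^ 2 :=
        Finset.sum_le_sum fun m _ => e2 m
    _ = (2 * M) * ∑ j ∈ Finset.range (2 * M),
          B ^ 2 * MT Y (Real.exp (((j : ℝ) - M) / 2) / Y) (kk j) := by
        rw [← Finset.mul_sum, Finset.sum_comm]
        congr 1
        refine Finset.sum_congr rfl fun j _ => ?_
        unfold MT
        rw [Finset.mul_sum]
    _ ≤ (2 * M) * ∑ j ∈ Finset.range (2 * M), B ^ 2 * (C * L ^ (77 / 100 : ℝ) * Y) := by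
        gcongr with j hj
        exact e3 j
    _ = (2 * M) * (2 * M) * (B ^ 2 * (C * L ^ (77 / 100 : ℝ) * Y)) := by
        rw [Finset.sum_const, Finset.card_range, nsmul_eq_mul]
        push_cast
        ring
    _ ≤ (2 * (6 * R)) * (2 * (6 * R)) * (B ^ 2 * (C * L ^ (77 / 100 : ℝ) * Y)) := by
        have : 0 ≤ C * L ^ (77 / 100 : ℝ) * Y := by positivity
        gcongr
    _ = 144 * B ^ 2 * C * Y * (L ^ (77 / 100 : ℝ) * (R * R)) := by ring
    _ ≤ 144 * B ^ 2 * C * Y * L ^ (4 / 5 : ℝ) := by gcongr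

end P004E
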