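import Vale.Agent.P004E.H394.A0
import Vale.Agent.P004E.H394.A1
import Vale.Agent.P004E.H394.K10
import Vale.Agent.P004E.H394.P1
import Vale.Agent.P004E.H394.S6b
import Vale.Agent.P004E.H394.S6d
import Vale.Agent.P004E.H187.Far
import Vale.Agent.P004E.H187.Gsum
import Vale.Agent.P004E.H253.K10
import Vale.Agent.P004E.H383.FE
import Vale.Agent.P004G.All
import Vale.Agent.P004G.H175.Z1
import Vale.Agent.P004G.H353.AG
import Vale.Agent.P004G.H353.TailAG

/-!
# P004E, module S: assembly
-/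

namespace P004E

open P004G

variable [Crv]

/-- module S3 -/
theorem farAll (hN0 : StN0) (hFull : StFull) : StFar :=
  pfFar pfPoiW (pfAd0 hN0) pfAdAG
    (pfAG (pfSep2 pfCoef P004.pfKer) (pfConv pfCoef P004.pfDiv) (pfStFrac pfCoef) P004.pfDiv)
    (pfTailAG P004.pfKer) hFull

/-- **module S** from `StDual` -/
theorem pfStrip_dual (hTF : StTF) (hN1 : StN1) (hH : StHlam) (hD : StDual) : StStrip :=
  pfStrip_of (lev_fin (full (pfZ1 hTF))
    (pfStep (KT.pfTS hN1 hH) (KT.pfTp hH) hD (pfFE hTF)))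

end P004E
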