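import Vale.Agent.P004E.H394.S7
import Vale.Agent.P004E.H187.Dual9

/-!
# P004E, module S: `StStrip`
-/

namespace P004E

open P004G

variable [Crv]

/-- **module S** -/
theorem pfStripAll (hTF : StTF) (hN0 : StN0) (hN1 : StN1) (hH : StHlam) : StStrip :=
  pfStrip_dual hTF hN1 hH
    (pfDual pfPoiW (pfAd0 hN0) pfAdAG pfAdSep KT.pfAP (KT.pfST hN1 hH) (KT.pfTq hH) hN0
      (pfAG (pfSep2 pfCoef P004.pfKer) (pfConv pfCoef P004.pfDiv) (pfStFrac pfCoef) P004.pfDiv)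
      (pfTailAG P004.pfKer) (full (pfZ1 hTF)))

end P004E
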